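import Vale.Agent.P323.Cond

/-! Amalgamation of conditions. -/

namespace Vale.Agent.P323

open Filter CategoryTheory

namespace Cond

theorem exists_glue (S T : Cond) (W : Type) [lat : SemilatticeInf W] (ι : S.car → W)
    (ψ : T.car → W) (hι : IsE ι) (hψ : IsE ψ) (hs : ∀ J, (∃ s, J = ι s) ∨ ∃ t, J = ψ t)
    (h1 : ∀ r ∈ S.recs, ∀ t, Rule (r.map ι) (ψ t)) (h2 : ∀ r ∈ T.recs, ∀ s, Rule (r.map ψ) (ι s))
    (h3 : ∀ r ∈ S.recs, ∀ r' ∈ T.recs,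
      Compat (r.map ι) (r'.map ψ) ∧ Compat (r'.map ψ) (r.map ι)) :
    ∃ (R : Cond) (i : S ⟶ R) (j : T ⟶ R), (∀ s t, i s ≤ j t ↔ ι s ≤ ψ t) ∧
      (∀ s t, j t ≤ i s ↔ ψ t ≤ ι s) ∧ (∀ J, (∃ s, J = i s) ∨ ∃ t, J = j t) ∧
      ∀ r ∈ R.recs, (∃ r' ∈ S.recs, r = r'.map i) ∨ ∃ r' ∈ T.recs, r = r'.map j := by
  have cW : Countable W := by
    refine Function.Surjective.countable (f := Sum.elim ι ψ) fun J => ?_
    rcases hs J with ⟨s, rfl⟩ | ⟨t, rfl⟩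
    exacts [⟨.inl s, rfl⟩, ⟨.inr t, rfl⟩]
  let R : Cond := ⟨W, cW, Infinite.of_injective _ hι.inj, lat,
    Rec.map ι '' S.recs ∪ Rec.map ψ '' T.recs, (S.recs_cnt.image _).union (T.recs_cnt.image _),
    by
      rintro _ (⟨r, h, rfl⟩ | ⟨r, h, rfl⟩)
      exacts [hι.good.2 (good h), hψ.good.2 (good h)],
    by
      rintro _ (⟨r, h, rfl⟩ | ⟨r, h, rfl⟩) J <;> rcases hs J with ⟨s, rfl⟩ | ⟨t, rfl⟩
      exacts [hι.rule.2 (rule h s), h1 r h t, h2 r h s, hψ.rule.2 (rule h t)],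
    by
      rintro _ (⟨r, h, rfl⟩ | ⟨r, h, rfl⟩) _ (⟨r', h', rfl⟩ | ⟨r', h', rfl⟩)
      exacts [hι.compat.2 (compat h h'), (h3 r h r' h').1, (h3 r' h' r h).2,
        hψ.compat.2 (compat h h')]⟩
  refine ⟨R, mkHom (Q := R) ι hι fun r h => Or.inl ⟨r, h, rfl⟩,
    mkHom (Q := R) ψ hψ fun r h => Or.inr ⟨r, h, rfl⟩, fun _ _ => Iff.rfl, fun _ _ => Iff.rfl,
    hs, ?_⟩
  rintro _ (⟨r, h, rfl⟩ | ⟨r, h, rfl⟩)
  exacts [Or.inl ⟨r, h, rfl⟩, Or.inr ⟨r, h, rfl⟩]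

section am

variable {S T : Cond} (φ φ' : T ⟶ S) (m m' : T.car)

/-- the order of the two-sided amalgam -/
def amLe : S.car ⊕ T.car → S.car ⊕ T.car → Prop
  | .inl s, .inl s' => s ≤ s'
  | .inl s, .inr t => s ≤ φ (t ⊓ m) ∨ s ≤ φ' (t ⊓ m')
  | .inr t, .inl s => (t ≤ m ∧ φ t ≤ s) ∨ (t ≤ m' ∧ φ' t ≤ s)
  | .inr t, .inr t' => t ≤ t'

variable {φ φ' m m'}

theorem am_side1 (hag : ∀ t, t ≤ m → t ≤ m' → φ t = φ' t) {s : S.car}
    (hs : s ⊓ φ' m' ≤ φ (m ⊓ m')) {u : S.car} (hu : u ≤ s) {t : T.car} (h : u ≤ φ' (t ⊓ m')) :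
    u ≤ φ (t ⊓ m) := by
  have a1 : u ≤ φ (m ⊓ m') := (le_inf hu (h.trans ((le_iff φ').2 inf_le_right))).trans hs
  have a2 : u ≤ φ' (t ⊓ m' ⊓ (m ⊓ m')) := by
    rw [map_inf, ← hag (m ⊓ m') inf_le_left inf_le_right]
    exact le_inf h a1
  rw [← hag _ (inf_le_right.trans inf_le_left) (inf_le_right.trans inf_le_right)] at a2
  exact a2.trans ((le_iff φ).2 (inf_le_inf inf_le_left inf_le_left))

theorem am_side2 (hag : ∀ t, t ≤ m → t ≤ m' → φ t = φ' t) {s : S.car}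
    (hs : s ⊓ φ' m' ≤ φ (m ⊓ m')) {t : T.car} (h1 : t ≤ m') (h2 : φ' t ≤ s) :
    t ≤ m ∧ φ t = φ' t := by
  have a1 : φ' t ≤ φ (m ⊓ m') := (le_inf h2 ((le_iff φ').2 h1)).trans hs
  rw [hag _ inf_le_left inf_le_right, le_iff] at a1
  exact ⟨a1.trans inf_le_left, hag t (a1.trans inf_le_left) h1⟩

theorem am_key {W : Type} [SemilatticeInf W] {ι : S.car → W} {ψ : T.car → W} (hι : IsE ι)
    (hψ : IsE ψ) (hag : ∀ t, t ≤ m → t ≤ m' → φ t = φ' t)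
    (e1 : ∀ s t, ι s ≤ ψ t ↔ s ≤ φ (t ⊓ m) ∨ s ≤ φ' (t ⊓ m'))
    (e2 : ∀ s t, ψ t ≤ ι s ↔ (t ≤ m ∧ φ t ≤ s) ∨ (t ≤ m' ∧ φ' t ≤ s))
    (hs : ∀ J, (∃ s, J = ι s) ∨ ∃ t, J = ψ t) {s : S.car} (h : s ⊓ φ' m' ≤ φ (m ⊓ m')) :
    (∀ r : Rec S.car, Good r → r.roof = s → (∀ J, Rule r J) → ∀ t, Rule (r.map ι) (ψ t)) ∧
    (∀ r : Rec T.car, (∀ J, Rule (r.map φ) J) → Rule (r.map ψ) (ι s)) ∧
    (∀ t, ψ t ≤ ι s → ψ t = ι (φ t)) ∧ ∀ t, ι s ≤ ψ t → s ≤ φ t := by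
  have b1 : ∀ t, ψ t ≤ ι s → t ≤ m ∧ φ t ≤ s := fun t ht => by
    rcases (e2 s t).1 ht with a | ⟨a1, a2⟩
    · exact a
    · obtain ⟨a3, a4⟩ := am_side2 hag h a1 a2
      exact ⟨a3, a4.trans_le a2⟩
  have b2 : ∀ u t, u ≤ s → ι u ≤ ψ t → u ≤ φ (t ⊓ m) := fun u t hu ht =>
    ((e1 u t).1 ht).elim id (am_side1 hag h hu)
  have b3 : ∀ t, t ≤ m → ψ t = ι (φ t) := fun t ht =>
    le_antisymm ((e2 _ _).2 (Or.inl ⟨ht, le_rfl⟩)) ((e1 _ _).2 (Or.inl (by rw [inf_eq_left.2 ht])))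
  have b4 : ∀ J, J ≤ ι s → ∃ u, J = ι u := fun J hJ => by
    rcases hs J with a | ⟨t, rfl⟩
    · exact a
    · exact ⟨_, b3 t (b1 t hJ).1⟩
  refine ⟨fun r hg hr H t => ?_, fun r H => ?_, fun t ht => b3 t (b1 t ht).1, fun t ht =>
    (b2 s t le_rfl ht).trans ((le_iff φ).2 inf_le_left)⟩
  · refine rule_congr (hι.good.2 hg) (fun J hJ => ?_) (hι.rule.2 (H (φ (t ⊓ m))))
    rw [Rec.roof_map, hr] at hJ
    obtain ⟨u, rfl⟩ := b4 J hJ
    rw [hι.le_iff] at hJ ⊢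
    exact ⟨b2 u t hJ, fun a => (e1 u t).2 (Or.inl a)⟩
  · refine rule_transfer (isE φ) hψ (fun t => ⟨fun a => ?_, fun a => ?_⟩) (fun t t' a => ?_)
      (H (s ⊓ φ m))
    · exact le_inf (b1 t a).2 ((le_iff φ).2 (b1 t a).1)
    · exact (e2 _ _).2 (Or.inl ⟨(le_iff φ).1 (a.trans inf_le_right), a.trans inf_le_left⟩)
    · obtain ⟨u, hu⟩ := b4 (ι s ⊓ ψ t) inf_le_left
      have c1 : u ≤ s := hι.le_iff.1 (hu.ge.trans inf_le_left)
      have c2 := b2 u t c1 (hu.ge.trans inf_le_right)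
      rw [map_inf] at c2
      rw [hu, e1]
      refine Or.inl ?_
      rw [map_inf]
      exact le_inf ((le_inf (le_inf c1 (c2.trans inf_le_right)) (c2.trans inf_le_left)).trans a)
        (c2.trans inf_le_right)

theorem exists_am2 (hag : ∀ t, t ≤ m → t ≤ m' → φ t = φ' t)
    (hd : ∀ s, s ⊓ φ' m' ≤ φ (m ⊓ m') ∨ s ⊓ φ m ≤ φ (m ⊓ m')) :
    ∃ (R : Cond) (i : S ⟶ R) (j : T ⟶ R),
      (∀ s t, i s ≤ j t ↔ s ≤ φ (t ⊓ m) ∨ s ≤ φ' (t ⊓ m')) ∧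
      (∀ s t, j t ≤ i s ↔ (t ≤ m ∧ φ t ≤ s) ∨ (t ≤ m' ∧ φ' t ≤ s)) ∧
      ∀ J, (∃ s, J = i s) ∨ ∃ t, J = j t := by
  have hag' : ∀ t, t ≤ m' → t ≤ m → φ' t = φ t := fun t a b => (hag t b a).symm
  have hd' : ∀ s, s ⊓ φ' m' ≤ φ (m ⊓ m') ∨ s ⊓ φ m ≤ φ' (m' ⊓ m) := fun s => by
    rw [inf_comm m' m, ← hag _ inf_le_left inf_le_right]; exact hd s
  have cross : ∀ u t t', u ≤ φ (t ⊓ m) → u ≤ φ' (t' ⊓ m') → u ≤ φ (t' ⊓ m) ∧ u ≤ φ' (t ⊓ m') :=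
    fun u t t' a b => (hd' u).elim
      (fun h => ⟨am_side1 hag h le_rfl b, by
        have c1 : u ≤ φ (m ⊓ m') := (le_inf le_rfl (b.trans ((le_iff φ').2 inf_le_right))).trans h
        have c2 : u ≤ φ (t ⊓ m ⊓ (m ⊓ m')) := by rw [map_inf]; exact le_inf a c1
        rw [hag _ (inf_le_right.trans inf_le_left) (inf_le_right.trans inf_le_right)] at c2
        exact c2.trans ((le_iff φ').2 (inf_le_inf inf_le_left inf_le_right))⟩)
      fun h => ⟨by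
        have c1 : u ≤ φ' (m' ⊓ m) := (le_inf le_rfl (a.trans ((le_iff φ).2 inf_le_right))).trans h
        have c2 : u ≤ φ' (t' ⊓ m' ⊓ (m' ⊓ m)) := by rw [map_inf]; exact le_inf b c1
        rw [hag' _ (inf_le_right.trans inf_le_left) (inf_le_right.trans inf_le_right)] at c2
        exact c2.trans ((le_iff φ).2 (inf_le_inf inf_le_left inf_le_right)),
        am_side1 hag' h le_rfl a⟩
  have mono : ∀ {t t'} (n : T.car) (χ : T ⟶ S), t ≤ t' → χ (t ⊓ n) ≤ χ (t' ⊓ n) :=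
    fun n χ h => (le_iff χ).2 (inf_le_inf_right _ h)
  have back : ∀ t t', t ≤ m → φ t ≤ φ (t' ⊓ m) ∨ φ t ≤ φ' (t' ⊓ m') → t ≤ t' := by
    rintro t t' h (a | a)
    · exact ((le_iff φ).1 a).trans inf_le_left
    · exact ((le_iff φ).1 (cross _ t t' (by rw [inf_eq_left.2 h]) a).1).trans inf_le_left
  have back' : ∀ t t', t ≤ m' → φ' t ≤ φ (t' ⊓ m) ∨ φ' t ≤ φ' (t' ⊓ m') → t ≤ t' := by
    rintro t t' h (a | a)
    · exact ((le_iff φ').1 (cross _ t' t a (by rw [inf_eq_left.2 h])).2).trans inf_le_left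
    · exact ((le_iff φ').1 a).trans inf_le_left
  have glb1 : ∀ s t, ∃ z, ∀ u, amLe φ φ' m m' u z ↔
      amLe φ φ' m m' u (.inl s) ∧ amLe φ φ' m m' u (.inr t) := by
    intro s t
    rcases hd' s with h | h
    · refine ⟨.inl (s ⊓ φ (t ⊓ m)), ?_⟩
      rintro (u | u)
      · simp only [amLe, le_inf_iff]
        exact ⟨fun a => ⟨a.1, Or.inl a.2⟩, fun a => ⟨a.1, a.2.elim id (am_side1 hag h a.1)⟩⟩
      · simp only [amLe, le_inf_iff]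
        constructor
        · rintro (⟨a, b, c⟩ | ⟨a, b, c⟩)
          · exact ⟨Or.inl ⟨a, b⟩, back _ _ a (Or.inl c)⟩
          · exact ⟨Or.inr ⟨a, b⟩, back' _ _ a (Or.inl c)⟩
        · rintro ⟨⟨a, b⟩ | ⟨a, b⟩, c⟩
          · exact Or.inl ⟨a, b, (le_iff φ).2 (le_inf c a)⟩
          · obtain ⟨a1, a2⟩ := am_side2 hag h a b
            exact Or.inl ⟨a1, a2.trans_le b, (le_iff φ).2 (le_inf c a1)⟩
    · refine ⟨.inl (s ⊓ φ' (t ⊓ m')), ?_⟩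
      rintro (u | u)
      · simp only [amLe, le_inf_iff]
        exact ⟨fun a => ⟨a.1, Or.inr a.2⟩, fun a => ⟨a.1, a.2.elim (am_side1 hag' h a.1) id⟩⟩
      · simp only [amLe, le_inf_iff]
        constructor
        · rintro (⟨a, b, c⟩ | ⟨a, b, c⟩)
          · exact ⟨Or.inl ⟨a, b⟩, back _ _ a (Or.inr c)⟩
          · exact ⟨Or.inr ⟨a, b⟩, back' _ _ a (Or.inr c)⟩
        · rintro ⟨⟨a, b⟩ | ⟨a, b⟩, c⟩
          · obtain ⟨a1, a2⟩ := am_side2 hag' h a b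
            exact Or.inr ⟨a1, a2.trans_le b, (le_iff φ').2 (le_inf c a1)⟩
          · exact Or.inr ⟨a, b, (le_iff φ').2 (le_inf c a)⟩
  have glb2 : ∀ t t' u, amLe φ φ' m m' u (.inr (t ⊓ t')) ↔
      amLe φ φ' m m' u (.inr t) ∧ amLe φ φ' m m' u (.inr t') := by
    rintro t t' (u | u)
    · simp only [amLe]
      have q : ∀ (n : T.car) (χ : T ⟶ S), u ≤ χ (t ⊓ n) → u ≤ χ (t' ⊓ n) → u ≤ χ (t ⊓ t' ⊓ n) := by
        intro n χ a b
        rw [inf_inf_distrib_right, map_inf]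
        exact le_inf a b
      constructor
      · rintro (a | a)
        · exact ⟨Or.inl (a.trans (mono _ _ inf_le_left)), Or.inl (a.trans (mono _ _ inf_le_right))⟩
        · exact ⟨Or.inr (a.trans (mono _ _ inf_le_left)), Or.inr (a.trans (mono _ _ inf_le_right))⟩
      · rintro ⟨a | a, b | b⟩
        · exact Or.inl (q _ _ a b)
        · exact Or.inl (q _ _ a (cross _ _ _ a b).1)
        · exact Or.inl (q _ _ (cross _ _ _ b a).1 b)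
        · exact Or.inr (q _ _ a b)
    · simp only [amLe, le_inf_iff]
  have glb0 : ∀ s s' u, amLe φ φ' m m' u (.inl (s ⊓ s')) ↔
      amLe φ φ' m m' u (.inl s) ∧ amLe φ φ' m m' u (.inl s') := by
    rintro s s' (u | u)
    · simp only [amLe, le_inf_iff]
    · simp only [amLe, le_inf_iff]
      constructor
      · rintro (⟨a, b, c⟩ | ⟨a, b, c⟩)
        exacts [⟨Or.inl ⟨a, b⟩, Or.inl ⟨a, c⟩⟩, ⟨Or.inr ⟨a, b⟩, Or.inr ⟨a, c⟩⟩]
      · rintro ⟨⟨a, b⟩ | ⟨a, b⟩, ⟨c, d⟩ | ⟨c, d⟩⟩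
        · exact Or.inl ⟨a, b, d⟩
        · exact Or.inl ⟨a, b, (hag u a c).trans_le d⟩
        · exact Or.inl ⟨c, (hag u c a).trans_le b, d⟩
        · exact Or.inr ⟨a, b, d⟩
  obtain ⟨W, lat, π, hπ, hW⟩ := exists_quot (amLe φ φ' m m')
    (by rintro (s | t) <;> exact le_rfl)
    (by
      rintro (x | x) (y | y) (z | z) a b
      · exact le_trans a b
      · exact b.imp (le_trans a) (le_trans a)
      · rcases a with a | a <;> rcases b with ⟨b, c⟩ | ⟨b, c⟩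
        · exact a.trans (((le_iff φ).2 inf_le_left).trans c)
        · exact (a.trans_eq (hag _ inf_le_right (inf_le_left.trans b))).trans
            (((le_iff φ').2 inf_le_left).trans c)
        · exact (a.trans_eq (hag' _ inf_le_right (inf_le_left.trans b))).trans
            (((le_iff φ).2 inf_le_left).trans c)
        · exact a.trans (((le_iff φ').2 inf_le_left).trans c)
      · exact a.imp (fun a => a.trans (mono _ _ b)) fun a => a.trans (mono _ _ b)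
      · exact a.imp (fun a => ⟨a.1, a.2.trans b⟩) fun a => ⟨a.1, a.2.trans b⟩
      · rcases a with ⟨a, c⟩ | ⟨a, c⟩
        · exact back _ _ a (b.imp c.trans c.trans)
        · exact back' _ _ a (b.imp c.trans c.trans)
      · exact b.imp (fun b => ⟨le_trans a b.1, ((le_iff φ).2 a).trans b.2⟩)
          fun b => ⟨le_trans a b.1, ((le_iff φ').2 a).trans b.2⟩
      · exact le_trans a b)
    (by
      rintro (x | x) (y | y)
      · exact ⟨_, glb0 x y⟩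
      · exact glb1 x y
      · obtain ⟨z, hz⟩ := glb1 y x
        exact ⟨z, fun u => (hz u).trans and_comm⟩
      · exact ⟨_, glb2 x y⟩)
  have hι : IsE fun s => π (.inl s) := isE_of (fun a b => hW _ _) fun a b u => by
    obtain ⟨u, rfl⟩ := hπ u
    rw [hW, hW, hW, glb0]
    exact And.intro
  have hψ : IsE fun t => π (.inr t) := isE_of (fun a b => hW _ _) fun a b u => by
    obtain ⟨u, rfl⟩ := hπ u
    rw [hW, hW, hW, glb2]
    exact And.intro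
  have hs : ∀ J, (∃ s, J = π (.inl s)) ∨ ∃ t, J = π (.inr t) := fun J => by
    obtain ⟨s | t, rfl⟩ := hπ J
    exacts [Or.inl ⟨s, rfl⟩, Or.inr ⟨t, rfl⟩]
  have e1 : ∀ s t, π (.inl s) ≤ π (.inr t) ↔ s ≤ φ (t ⊓ m) ∨ s ≤ φ' (t ⊓ m') := fun _ _ => hW _ _
  have e2 : ∀ s t, π (.inr t) ≤ π (.inl s) ↔ (t ≤ m ∧ φ t ≤ s) ∨ (t ≤ m' ∧ φ' t ≤ s) :=
    fun _ _ => hW _ _
  have key : ∀ s, ∃ χ : T ⟶ S,
      (∀ r : Rec S.car, Good r → r.roof = s → (∀ J, Rule r J) →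
        ∀ t, Rule (r.map fun s => π (.inl s)) (π (.inr t))) ∧
      (∀ r : Rec T.car, (∀ J, Rule (r.map χ) J) → Rule (r.map fun t => π (.inr t)) (π (.inl s))) ∧
      (∀ t, π (.inr t) ≤ π (.inl s) → π (.inr t) = π (.inl (χ t))) ∧
      ∀ t, π (.inl s) ≤ π (.inr t) → s ≤ χ t := fun s => (hd' s).elim
    (fun h => ⟨φ, am_key hι hψ hag e1 e2 hs h⟩)
    fun h => ⟨φ', am_key hι hψ hag' (fun s t => (e1 s t).trans or_comm)
      (fun s t => (e2 s t).trans or_comm) hs h⟩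
  obtain ⟨R, i, j, f1, f2, f3, -⟩ := exists_glue S T W _ _ hι hψ hs
    (fun r h t => by
      obtain ⟨χ, k, -⟩ := key r.roof
      exact k r (good h) rfl (rule h) t)
    (fun r h s => by
      obtain ⟨χ, -, k, -⟩ := key s
      exact k r (rule (map_mem χ h)))
    (fun r h r' h' => by
      obtain ⟨χ, -, -, k1, k2⟩ := key r.roof
      exact ⟨compat_loc2 hι hψ (isE χ) (good h) (good h') k1 (fun _ => k2)
        (compat h (map_mem χ h')), compat_loc1 hι hψ (isE χ) (good h) (good h') k1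
        (compat (map_mem χ h') h)⟩)
  exact ⟨R, i, j, fun s t => (f1 s t).trans (e1 s t), fun s t => (f2 s t).trans (e2 s t), f3⟩

theorem exists_am1 (φ : T ⟶ S) (m : T.car) :
    ∃ (R : Cond) (i : S ⟶ R) (j : T ⟶ R), (∀ t, t ≤ m → j t = i (φ t)) ∧
      (∀ s t, i s ⊓ j t ≤ i (φ (t ⊓ m))) ∧ (∀ s t, j t ≤ i s → t ≤ m) ∧
      ∀ J, (∃ s, J = i s) ∨ ∃ t, J = j t := by
  obtain ⟨R, i, j, h1, h2, h3⟩ := exists_am2 (φ := φ) (φ' := φ) (m := m) (m' := m)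
    (fun _ _ _ => rfl) fun s => Or.inl (by rw [inf_idem]; exact inf_le_right)
  simp only [or_self] at h1 h2
  have b : ∀ t, t ≤ m → j t = i (φ t) := fun t ht =>
    le_antisymm ((h2 _ _).2 ⟨ht, le_rfl⟩) ((h1 _ _).2 (by rw [inf_eq_left.2 ht]))
  refine ⟨R, i, j, b, fun s t => ?_, fun s t h => ((h2 s t).1 h).1, h3⟩
  rcases h3 (i s ⊓ j t) with ⟨u, hu⟩ | ⟨u, hu⟩
  · rw [hu, le_iff, ← h1, ← hu]
    exact inf_le_right
  · have a1 := ((h2 s u).1 (hu.ge.trans inf_le_left)).1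
    rw [hu, b u a1, le_iff, le_iff]
    exact le_inf ((le_iff j).1 (hu.ge.trans inf_le_right)) a1

end am

end Cond

end Vale.Agent.P323
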