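import Vale.Agent.P323.Rec

/-! The category of conditions. -/

namespace Vale.Agent.P323

open Filter CategoryTheory

/-- the structure of a condition on a carrier -/
structure Str (α : Type) where
  lat : SemilatticeInf α
  recs : Set (Rec α)
  cnt : recs.Countable
  good : ∀ r ∈ recs, @Good α lat r
  rule : ∀ r ∈ recs, ∀ J, @Rule α lat r J
  compat : ∀ r ∈ recs, ∀ r' ∈ recs, @Compat α lat r r'

/-- conditions -/
structure Cond : Type 1 where
  car : Type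
  cnt : Countable car
  inf : Infinite car
  str : Str car

namespace Cond

instance (P : Cond) : SemilatticeInf P.car := P.str.lat
instance (P : Cond) : Countable P.car := P.cnt
instance (P : Cond) : Infinite P.car := P.inf

/-- the records of a condition -/
def recs (P : Cond) : Set (Rec P.car) := P.str.recs

theorem recs_cnt (P : Cond) : P.recs.Countable := P.str.cnt

theorem good {P : Cond} {r : Rec P.car} (h : r ∈ P.recs) : Good r := P.str.good r h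

theorem rule {P : Cond} {r : Rec P.car} (h : r ∈ P.recs) (J : P.car) : Rule r J :=
  P.str.rule r h J

theorem compat {P : Cond} {r r' : Rec P.car} (h : r ∈ P.recs) (h' : r' ∈ P.recs) : Compat r r' :=
  P.str.compat r h r' h'

/-- embeddings of conditions -/
@[ext] structure Emb (P Q : Cond) : Type where
  f : P.car → Q.car
  isE : IsE f
  recs : ∀ r ∈ P.recs, r.map f ∈ Q.recs

instance : Category.{0} Cond where
  Hom := Emb
  id P := ⟨fun a => a, IsE.id, fun r h => by rwa [Rec.map_id]⟩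
  comp j k := ⟨fun a => k.f (j.f a), j.isE.comp k.isE, fun r h => by
    rw [← Rec.map_map]; exact k.recs _ (j.recs r h)⟩

/-- the underlying map -/
@[coe] def ap {P Q : Cond} (j : P ⟶ Q) : P.car → Q.car := Emb.f j

instance {P Q : Cond} : CoeFun (P ⟶ Q) fun _ => P.car → Q.car := ⟨ap⟩

@[simp] theorem id_ap {P : Cond} (a : P.car) : (𝟙 P : P ⟶ P) a = a := rfl

@[simp] theorem comp_ap {P Q R : Cond} (j : P ⟶ Q) (k : Q ⟶ R) (a : P.car) :
    (j ≫ k) a = k (j a) := rfl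

theorem hom_ext {P Q : Cond} {j k : P ⟶ Q} (h : ∀ a, j a = k a) : j = k :=
  Emb.ext (funext h)

theorem isE {P Q : Cond} (j : P ⟶ Q) : IsE j := Emb.isE j

theorem map_mem {P Q : Cond} (j : P ⟶ Q) {r : Rec P.car} (h : r ∈ P.recs) : r.map j ∈ Q.recs :=
  Emb.recs j r h

@[simp] theorem le_iff {P Q : Cond} (j : P ⟶ Q) {a b : P.car} : j a ≤ j b ↔ a ≤ b := (isE j).le_iff

theorem map_inf {P Q : Cond} (j : P ⟶ Q) (a b : P.car) : j (a ⊓ b) = j a ⊓ j b := (isE j).inf a b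

theorem inj {P Q : Cond} (j : P ⟶ Q) {a b : P.car} (h : j a = j b) : a = b := (isE j).inj h

/-- a hom from its data -/
def mkHom {P Q : Cond} (f : P.car → Q.car) (h : IsE f) (h' : ∀ r ∈ P.recs, r.map f ∈ Q.recs) :
    P ⟶ Q := Emb.mk f h h'

theorem exists_add (Q : Cond) (X : Set (Rec Q.car)) (hc : X.Countable) (hg : ∀ r ∈ X, Good r)
    (hr : ∀ r ∈ X, ∀ J, Rule r J) (h1 : ∀ r ∈ X, ∀ r' ∈ Q.recs, Compat r r' ∧ Compat r' r)
    (h2 : ∀ r ∈ X, ∀ r' ∈ X, Compat r r') :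
    ∃ (R : Cond) (j : Q ⟶ R), Function.Surjective j ∧ ∀ r ∈ X, r.map j ∈ R.recs := by
  refine ⟨⟨Q.car, Q.cnt, Q.inf, Q.str.lat, Q.recs ∪ X, Q.recs_cnt.union hc, ?_, ?_, ?_⟩,
    mkHom (fun a => a) IsE.id fun r h => ?_, fun a => ⟨a, rfl⟩, fun r h => ?_⟩
  · rintro r (h | h)
    exacts [good h, hg r h]
  · rintro r (h | h)
    exacts [rule h, hr r h]
  · rintro r (h | h) r' (h' | h')
    exacts [compat h h', (h1 r' h' r h).2, (h1 r h r' h').1, h2 r h r' h']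
  · rw [Rec.map_id]; exact Or.inl h
  · change r.map (fun a => a) ∈ _
    rw [Rec.map_id]; exact Or.inr h

theorem exists_ext (Q : Cond) (W : Type) [lat : SemilatticeInf W] (f : Q.car → W)
    (hf : IsE f) (hr : ∀ r ∈ Q.recs, ∀ J, Rule (r.map f) J) :
    ∃ σ : Str W, σ.lat = lat ∧ σ.recs = Rec.map f '' Q.recs := by
  refine ⟨⟨lat, Rec.map f '' Q.recs, Q.recs_cnt.image _, ?_, ?_, ?_⟩, rfl, rfl⟩
  · rintro _ ⟨r, h, rfl⟩
    exact hf.good.2 (good h)
  · rintro _ ⟨r, h, rfl⟩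
    exact hr r h
  · rintro _ ⟨r, h, rfl⟩ _ ⟨r', h', rfl⟩
    exact hf.compat.2 (compat h h')

theorem exists_top (Q : Cond) : ∃ (R : Cond) (j : Q ⟶ R) (k : R.car), (∀ s, s ≤ k) ∧
    (∀ a, ¬k ≤ j a) ∧ ∀ r ∈ R.recs, ∃ r' ∈ Q.recs, r = r'.map j := by
  have hf : IsE (fun a : Q.car => (a : WithTop Q.car)) :=
    ⟨fun _ _ h => WithTop.coe_injective h, fun a b => WithTop.coe_inf a b⟩
  have : Countable (WithTop Q.car) := inferInstanceAs (Countable (Option Q.car))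
  obtain ⟨⟨lat, recs, c1, c2, c3, c4⟩, rfl, rfl⟩ := exists_ext Q (WithTop Q.car) _ hf
    fun r h J => by
      induction J with
      | top => exact rule_of_roof le_top
      | coe J => exact hf.rule.2 (rule h J)
  refine ⟨⟨WithTop Q.car, this, Infinite.of_injective _ hf.inj, _, _, c1, c2, c3, c4⟩,
    mkHom _ hf fun r h => ⟨r, h, rfl⟩, (⊤ : WithTop Q.car), fun s => @le_top (WithTop Q.car) _ _ s,
    fun a => WithTop.not_top_le_coe a, ?_⟩
  rintro _ ⟨r, h, rfl⟩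
  exact ⟨r, h, rfl⟩

theorem exists_pair (Q : Cond) (a : Q.car) : ∃ (R : Cond) (j : Q ⟶ R) (k : R.car),
    Rec.pair (j a) k ∈ R.recs := by
  obtain ⟨R, j, k, h1, h2, h3⟩ := exists_top Q
  obtain ⟨R', j', -, h⟩ := exists_add R {Rec.pair (j a) k} (Set.countable_singleton _)
    (by rintro _ rfl; exact ⟨h1 _, h2 _⟩) (by rintro _ rfl _; trivial)
    (by
      rintro _ rfl r' hr'
      obtain ⟨r, -, rfl⟩ := h3 r' hr'
      cases r with
      | prom a' D => exact ⟨fun h => absurd (h 0) (h2 _), trivial⟩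
      | _ => exact ⟨trivial, trivial⟩)
    (by rintro _ rfl _ rfl; trivial)
  exact ⟨R', j ≫ j', j' k, h _ rfl⟩

theorem exists_prom (Q : Cond) (a : ℕ → Q.car) (ha : Antitone a) :
    ∃ (R : Cond) (j : Q ⟶ R) (D : ℕ → Q.car), (Rec.prom a D).map j ∈ R.recs := by
  obtain ⟨D, hD⟩ := exists_surjective_nat Q.car
  obtain ⟨R', j', -, h⟩ := exists_add Q {Rec.prom a D} (Set.countable_singleton _)
    (by rintro _ rfl; exact ha)
    (by
      rintro _ rfl J
      by_cases hJ : ∃ n, a n ≤ J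
      · exact Or.inl hJ
      · obtain ⟨i, rfl⟩ := hD J
        exact Or.inr (Or.inr ⟨0, i, fun m e => hJ ⟨m, e⟩, inf_le_left⟩))
    (by
      rintro _ rfl r' hr'
      cases r' with
      | pair a' k =>
        obtain ⟨i, rfl⟩ := hD k
        exact ⟨trivial, fun h => ⟨i, h, (good hr').2⟩⟩
      | _ => exact ⟨trivial, trivial⟩)
    (by rintro _ rfl _ rfl; trivial)
  exact ⟨R', j', D, h _ rfl⟩

/-- the label of a record -/
def lbl {α : Type} : Rec α → ℝ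
  | .gf _ ξ _ => ξ
  | _ => 0

theorem exists_gf (Q : Cond) {I : Type} [Countable I] (p : I → ℕ) (c d : I → ℕ → Q.car)
    (hg : ∀ i, Antitone (c i) ∧ Antitone (d i) ∧ Bel (d i) (c i))
    (hp : ∀ i i', p i = p i' → Cof (c i) (c i') → i = i') :
    ∃ (R : Cond) (j : Q ⟶ R) (ξ : ℕ → ℝ), Function.Surjective j ∧
      ∀ i, (Rec.gf (c i) (ξ (p i)) (d i)).map j ∈ R.recs := by
  have hinf : (lbl '' Q.recs)ᶜ.Infinite := by
    intro hfin
    have := (Q.recs_cnt.image lbl).union hfin.countable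
    rw [Set.union_compl_self] at this
    exact Cardinal.not_countable_real this
  let e := hinf.natEmbedding
  obtain ⟨R, j, h1, h2⟩ := exists_add Q (Set.range fun i => Rec.gf (c i) (e (p i)).1 (d i))
    (Set.countable_range _) (by rintro _ ⟨i, rfl⟩; exact hg i) (by rintro _ ⟨i, rfl⟩ _; trivial)
    (by
      rintro _ ⟨i, rfl⟩ r' hr'
      cases r' with
      | gf c' ξ' d' =>
        have : (e (p i)).1 ≠ ξ' := fun h => (e (p i)).2 ⟨_, hr', h.symm⟩
        exact ⟨fun h => absurd h this, fun h => absurd h.symm this⟩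
      | _ => exact ⟨trivial, trivial⟩)
    (by
      rintro _ ⟨i, rfl⟩ _ ⟨i', rfl⟩ h hc
      obtain rfl := hp i i' (e.injective (Subtype.ext h)) hc
      exact Eventually.of_forall fun _ => rfl)
  exact ⟨R, j, fun n => (e n).1, h1, fun i => h2 _ ⟨i, rfl⟩⟩

theorem exists_gf1 (Q : Cond) (c d : ℕ → Q.car) (hc : Antitone c) (hd : Antitone d)
    (hb : Bel d c) : ∃ (R : Cond) (j : Q ⟶ R) (ξ : ℝ), Function.Surjective j ∧
      (Rec.gf c ξ d).map j ∈ R.recs := by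
  obtain ⟨R, j, ξ, h1, h2⟩ := exists_gf Q (I := Unit) (fun _ => 0) (fun _ => c) (fun _ => d)
    (fun _ => ⟨hc, hd, hb⟩) fun _ _ _ _ => rfl
  exact ⟨R, j, ξ 0, h1, h2 ()⟩

/-- all inequalities carry labels -/
def Full (Q : Cond) : Prop :=
  ∀ s t : Q.car, t ≤ s → ∃ ξ, Rec.gf (fun _ => s) ξ (fun _ => t) ∈ Q.recs

theorem Full.map {Q R : Cond} (h : Full Q) {j : Q ⟶ R} (hj : Function.Surjective j) : Full R := by
  intro s t e
  obtain ⟨s, rfl⟩ := hj s
  obtain ⟨t, rfl⟩ := hj t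
  obtain ⟨ξ, hξ⟩ := h s t ((le_iff j).1 e)
  exact ⟨ξ, map_mem j hξ⟩

theorem exists_full (Q : Cond) : ∃ (R : Cond) (_ : Q ⟶ R), Full R := by
  obtain ⟨p, hp⟩ := Countable.exists_injective_nat {x : Q.car × Q.car // x.2 ≤ x.1}
  obtain ⟨R, j, ξ, h1, h2⟩ := exists_gf Q p (fun x _ => x.1.1) (fun x _ => x.1.2)
    (fun x => ⟨fun _ _ _ => le_rfl, fun _ _ _ => le_rfl, fun _ => ⟨0, x.2⟩⟩)
    fun _ _ h _ => hp h
  refine ⟨R, j, fun s t e => ?_⟩
  obtain ⟨s, rfl⟩ := h1 s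
  obtain ⟨t, rfl⟩ := h1 t
  exact ⟨_, h2 ⟨(s, t), (le_iff j).1 e⟩⟩

theorem Full.agree {Q R : Cond} (h : Full Q) {i j : Q ⟶ R} {s : Q.car} (e : i s = j s) :
    ∀ t, t ≤ s → i t = j t := by
  intro t ht
  obtain ⟨ξ, hξ⟩ := h s t ht
  have := compat (map_mem i hξ) (map_mem j hξ) rfl (by simp only [e]; exact Cof.refl _)
  exact this.exists.choose_spec

theorem gf_eq {Q R : Cond} {c d : ℕ → Q.car} {ξ : ℝ} (h : Rec.gf c ξ d ∈ Q.recs) {i j : Q ⟶ R}
    (hc : Cof (fun n => i (c n)) fun n => j (c n)) : ∃ n, i (d n) = j (d n) :=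
  (compat (map_mem i h) (map_mem j h) rfl hc).exists

/-- a condition on the natural numbers -/
def ofNat (σ : Str ℕ) : Cond := ⟨ℕ, inferInstance, inferInstance, σ⟩

theorem exists_nat (Q : Cond) : ∃ (σ : Str ℕ) (j : Q ⟶ ofNat σ), Function.Surjective j := by
  obtain ⟨e⟩ : Nonempty (Q.car ≃ ℕ) := nonempty_equiv_of_countable
  let lat : SemilatticeInf ℕ := e.symm.semilatticeInf
  have hf : @IsE _ _ _ lat e := @IsE.mk _ _ _ lat e e.injective fun a b => by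
    change _ = e (e.symm (e a) ⊓ e.symm (e b))
    simp
  obtain ⟨⟨lat', recs, c1, c2, c3, c4⟩, rfl, rfl⟩ := @exists_ext Q ℕ lat e hf fun r h J => by
    obtain ⟨J, rfl⟩ := e.surjective J
    exact (@IsE.rule _ _ _ lat _ hf _ _).2 (rule h J)
  exact ⟨⟨_, _, c1, c2, c3, c4⟩, mkHom (Q := ofNat _) e hf fun r h => ⟨r, h, rfl⟩, e.surjective⟩

theorem exists_limit (Q : ℕ → Cond) (f : ∀ n, Q n ⟶ Q (n + 1)) :
    ∃ (L : Cond) (g : ∀ n, Q n ⟶ L), (∀ n, f n ≫ g (n + 1) = g n) ∧ ∀ J, ∃ n s, J = g n s := by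
  let F := Functor.ofSequence f
  let t : ∀ {n m}, n ≤ m → (Q n ⟶ Q m) := fun h => F.map (homOfLE h)
  have tt : ∀ {n m l} (h : n ≤ m) (h' : m ≤ l) a, t h' (t h a) = t (h.trans h') a := by
    intro n m l h h' a
    rw [← comp_ap]
    exact congrArg (fun z : Q n ⟶ Q l => z a) (F.map_comp (homOfLE h) (homOfLE h')).symm
  have t0 : ∀ n a, t (le_refl n) a = a := fun n a =>
    congrArg (fun z : Q n ⟶ Q n => z a) (F.map_id n)
  have t1 : ∀ n, t (Nat.le_succ n) = f n := fun n => Functor.ofSequence_map_homOfLE_succ f n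
  let X := Σ n, (Q n).car
  let le : X → X → Prop := fun x y => ∃ (m : ℕ) (h : x.1 ≤ m) (h' : y.1 ≤ m), t h x.2 ≤ t h' y.2
  have hle : ∀ (x y : X) (m) (h : x.1 ≤ m) (h' : y.1 ≤ m), le x y ↔ t h x.2 ≤ t h' y.2 := by
    intro x y m h h'
    refine ⟨fun ⟨l, a, b, e⟩ => ?_, fun e => ⟨m, h, h', e⟩⟩
    rw [← le_iff (t (le_max_left m l)), tt, tt]
    rw [← le_iff (t (le_max_right m l)), tt, tt] at e
    exact e
  obtain ⟨W, lat, π, hπ, hW⟩ := exists_quot le (fun x => ⟨x.1, le_rfl, le_rfl, le_rfl⟩)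
    (fun x y z a b => by
      have h1 : x.1 ≤ x.1 + y.1 + z.1 := by omega
      have h2 : y.1 ≤ x.1 + y.1 + z.1 := by omega
      have h3 : z.1 ≤ x.1 + y.1 + z.1 := by omega
      exact (hle _ _ _ h1 h3).2 (((hle _ _ _ h1 h2).1 a).trans ((hle _ _ _ h2 h3).1 b)))
    (fun x y => by
      have a1 : x.1 ≤ x.1 + y.1 := by omega
      have a2 : y.1 ≤ x.1 + y.1 := by omega
      refine ⟨⟨x.1 + y.1, t a1 x.2 ⊓ t a2 y.2⟩, fun u => ?_⟩
      have b1 : u.1 ≤ u.1 + (x.1 + y.1) := by omega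
      have b2 : x.1 + y.1 ≤ u.1 + (x.1 + y.1) := by omega
      rw [hle u _ _ b1 b2, hle u x _ b1 (a1.trans b2), hle u y _ b1 (a2.trans b2), map_inf, tt, tt,
        le_inf_iff])
  have hg : ∀ n, IsE fun s : (Q n).car => π ⟨n, s⟩ := fun n => isE_of
    (fun a b => by rw [hW, hle _ _ n le_rfl le_rfl, t0, t0])
    (fun a b u => by
      obtain ⟨u, rfl⟩ := hπ u
      have b1 : u.1 ≤ u.1 + n := by omega
      have b2 : n ≤ u.1 + n := by omega
      rw [hW, hW, hW, hle u _ _ b1 b2, hle u _ _ b1 b2, hle u _ _ b1 b2, map_inf]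
      exact le_inf)
  have hup : ∀ {n m} (h : n ≤ m) s, π ⟨m, t h s⟩ = π ⟨n, s⟩ := fun h s =>
    le_antisymm ((hW _ _).2 ⟨_, le_rfl, h, (t0 _ _).le⟩) ((hW _ _).2 ⟨_, h, le_rfl, (t0 _ _).ge⟩)
  have hrec : ∀ {n m} (h : n ≤ m) (r : Rec (Q n).car),
      r.map (fun s => π ⟨n, s⟩) = (r.map (t h)).map fun s => π ⟨m, s⟩ := by
    intro n m h r
    rw [Rec.map_map]
    simp only [hup]
  have cW : Countable W := hπ.countable
  let L : Cond := ⟨W, cW, Infinite.of_injective _ (hg 0).inj, lat,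
    ⋃ n, Rec.map (fun s => π ⟨n, s⟩) '' (Q n).recs,
    Set.countable_iUnion fun n => (Q n).recs_cnt.image _,
    by
      rintro _ ⟨_, ⟨n, rfl⟩, r, h, rfl⟩
      exact (hg n).good.2 (good h),
    by
      rintro _ ⟨_, ⟨n, rfl⟩, r, h, rfl⟩ J
      obtain ⟨⟨m, s⟩, rfl⟩ := hπ J
      rw [hrec (Nat.le_add_right n m), ← hup (Nat.le_add_left m n)]
      exact (hg _).rule.2 (rule (map_mem _ h) _),
    by
      rintro _ ⟨_, ⟨n, rfl⟩, r, h, rfl⟩ _ ⟨_, ⟨m, rfl⟩, r', h', rfl⟩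
      rw [hrec (Nat.le_add_right n m), hrec (Nat.le_add_left m n)]
      exact (hg _).compat.2 (compat (map_mem _ h) (map_mem _ h'))⟩
  refine ⟨L, fun n => mkHom (Q := L) _ (hg n) fun r h => Set.mem_iUnion.2 ⟨n, r, h, rfl⟩,
    fun n => hom_ext fun a => ?_, fun J => ?_⟩
  · rw [← t1]
    exact hup (Nat.le_succ n) a
  · obtain ⟨⟨n, s⟩, rfl⟩ := hπ J
    exact ⟨n, s, rfl⟩

theorem exists_chain (Q : Cond) (D : ℕ → ∀ R R' : Cond, (Q ⟶ R) → (R ⟶ R') → Prop)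
    (hD : ∀ n R g, ∃ R' j, D n R R' g j) :
    ∃ (L : Cond) (g : Q ⟶ L) (R : ℕ → Cond) (a : ∀ n, Q ⟶ R n) (f : ∀ n, R n ⟶ R (n + 1))
      (b : ∀ n, R n ⟶ L), (∀ n, D n _ _ (a n) (f n)) ∧ (∀ n, a n ≫ b n = g) ∧
      (∀ n, f n ≫ b (n + 1) = b n) ∧ ∀ J, ∃ n s, J = b n s := by
  choose R' j hj using hD
  let s : ℕ → Σ R, Q ⟶ R := fun n => Nat.rec ⟨Q, 𝟙 Q⟩
    (fun n x => ⟨R' n x.1 x.2, x.2 ≫ j n x.1 x.2⟩) n
  obtain ⟨L, b, h1, h2⟩ := exists_limit (fun n => (s n).1) fun n => j n (s n).1 (s n).2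
  refine ⟨L, b 0, fun n => (s n).1, fun n => (s n).2, fun n => j n (s n).1 (s n).2, b,
    fun n => hj n _ _, fun n => ?_, h1, h2⟩
  induction n with
  | zero => exact Category.id_comp _
  | succ n ih =>
    rw [← ih, ← h1 n, ← Category.assoc]

theorem exists_all (Q : Cond) (D : ∀ R : Cond, (Q ⟶ R) → R.car → Prop)
    (mono : ∀ R g t R' (j : R ⟶ R'), D R g t → D R' (g ≫ j) (j t))
    (dense : ∀ R g t, ∃ (R' : Cond) (j : R ⟶ R'), D R' (g ≫ j) (j t)) :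
    ∃ (R : Cond) (g : Q ⟶ R), ∀ t, D R g t := by
  have step : ∀ R (g : Q ⟶ R), ∃ (R' : Cond) (j : R ⟶ R'), ∀ t, D R' (g ≫ j) (j t) := by
    intro R g
    obtain ⟨e, he⟩ := exists_surjective_nat R.car
    obtain ⟨L, g', R1, a, f, b, h1, h2, h3, -⟩ := exists_chain R
      (fun n R1 R2 a f => D R2 (g ≫ a ≫ f) (f (a (e n)))) fun n R1 a => by
        simpa using dense R1 (g ≫ a) (a (e n))
    refine ⟨L, g', fun t => ?_⟩
    obtain ⟨n, rfl⟩ := he t
    have := mono _ _ _ _ (b (n + 1)) (h1 n)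
    rw [← comp_ap, ← comp_ap, Category.assoc, Category.assoc, h3, h2] at this
    exact this
  obtain ⟨L, g, R, a, f, b, h1, h2, h3, h4⟩ := exists_chain Q
    (fun _ _ R2 a f => ∀ t, D R2 (a ≫ f) (f t)) fun _ R1 a => step R1 a
  refine ⟨L, g, fun t => ?_⟩
  obtain ⟨n, s, rfl⟩ := h4 t
  have := mono _ _ _ _ (b (n + 1)) (h1 n s)
  rw [← comp_ap, Category.assoc, h3, h2] at this
  exact this

end Cond

end Vale.Agent.P323
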