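import Vale.Agent.P323.Am

/-! The cupping amalgam and the tags. -/

namespace Vale.Agent.P323

open Filter CategoryTheory

namespace Cond

section cup

variable {M : Cond} (a : M.car) (y w : ℕ → M.car)

/-- the order of the cupping amalgam -/
def cupLe : M.car ⊕ M.car → M.car ⊕ M.car → Prop
  | .inl s, .inl s' => s ≤ s'
  | .inl s, .inr t => s ≤ a ∧ s ≤ t
  | .inr t, .inl s => (t ≤ a ∧ t ≤ s) ∨ ∃ n, w n ≤ s ∧ t ≤ y n
  | .inr t, .inr t' => t ≤ t'

variable {a y w}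

theorem exists_rho (hy : Antitone y) (hay : ∀ n, a ≤ y n) (haw : ∀ n, a ≤ w n) (s : M.car) :
    ∃ ρ, (∀ t, t ≤ ρ ↔ (t ≤ a ∧ t ≤ s) ∨ ∃ n, w n ≤ s ∧ t ≤ y n) ∧
      ∀ t, t ≤ a → t ≤ ρ → t ≤ s := by
  classical
  by_cases h : ∃ n, w n ≤ s
  · refine ⟨y (Nat.find h), fun t => ⟨fun e => Or.inr ⟨_, Nat.find_spec h, e⟩, ?_⟩,
      fun t e _ => e.trans ((haw _).trans (Nat.find_spec h))⟩
    rintro (⟨e, -⟩ | ⟨n, e1, e2⟩)
    · exact e.trans (hay _)
    · exact e2.trans (hy (Nat.find_min' h e1))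
  · refine ⟨a ⊓ s, fun t => ⟨fun e => Or.inl (le_inf_iff.1 e), ?_⟩,
      fun t _ e => e.trans inf_le_right⟩
    rintro (e | ⟨n, e1, -⟩)
    · exact le_inf_iff.2 e
    · exact absurd ⟨n, e1⟩ h

theorem exists_cup {k : M.car} (hp : Rec.pair a k ∈ M.recs) (hw : Antitone w)
    (hkw : ∀ n, k ≤ w n) (hy : Antitone y) (hay : ∀ n, a ≤ y n) (hya : ∀ n, ¬y n ≤ a) (l : ℝ) :
    ∃ (W : Cond) (i j : M ⟶ W), (∀ t, t ≤ a → i t = j t) ∧
      Rec.cup (i k) (fun n => j (y n)) (fun n => i (w n)) l ∈ W.recs := by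
  have hak : a ≤ k := (good hp).1
  have hka : ¬k ≤ a := (good hp).2
  have haw : ∀ n, a ≤ w n := fun n => hak.trans (hkw n)
  choose ρ hρ hρ' using exists_rho hy hay haw
  have glb1 : ∀ s t u, cupLe a y w u (.inr (ρ s ⊓ t)) ↔
      cupLe a y w u (.inl s) ∧ cupLe a y w u (.inr t) := by
    rintro s t (u | u)
    · simp only [cupLe, le_inf_iff]
      exact ⟨fun h => ⟨hρ' s u h.1 h.2.1, h.1, h.2.2⟩,
        fun h => ⟨h.2.1, (hρ s u).2 (Or.inl ⟨h.2.1, h.1⟩), h.2.2⟩⟩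
    · simp only [cupLe, le_inf_iff, hρ]
  have glb2 : ∀ t t' u, cupLe a y w u (.inr (t ⊓ t')) ↔
      cupLe a y w u (.inr t) ∧ cupLe a y w u (.inr t') := by
    rintro t t' (u | u)
    · simp only [cupLe, le_inf_iff]
      exact ⟨fun h => ⟨⟨h.1, h.2.1⟩, h.1, h.2.2⟩, fun h => ⟨h.1.1, h.1.2, h.2.2⟩⟩
    · simp only [cupLe, le_inf_iff]
  have glb0 : ∀ s s' u, cupLe a y w u (.inl (s ⊓ s')) ↔
      cupLe a y w u (.inl s) ∧ cupLe a y w u (.inl s') := by
    rintro s s' (u | u)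
    · simp only [cupLe, le_inf_iff]
    · simp only [cupLe, le_inf_iff]
      constructor
      · rintro (⟨b, c, d⟩ | ⟨n, ⟨b, c⟩, d⟩)
        exacts [⟨Or.inl ⟨b, c⟩, Or.inl ⟨b, d⟩⟩, ⟨Or.inr ⟨n, b, d⟩, Or.inr ⟨n, c, d⟩⟩]
      · rintro ⟨⟨b, c⟩ | ⟨n, b, c⟩, ⟨d, e⟩ | ⟨m, d, e⟩⟩
        · exact Or.inl ⟨b, c, e⟩
        · exact Or.inl ⟨b, c, b.trans ((haw m).trans d)⟩
        · exact Or.inl ⟨d, d.trans ((haw n).trans b), e⟩
        · rcases le_total n m with h | h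
          · exact Or.inr ⟨m, ⟨(hw h).trans b, d⟩, e⟩
          · exact Or.inr ⟨n, ⟨b, (hw h).trans d⟩, c⟩
  obtain ⟨W, lat, π, hπ, hW⟩ := exists_quot (cupLe a y w)
    (by rintro (s | t) <;> exact le_rfl)
    (by
      rintro (x | x) (y | y) (z | z) b c
      · exact le_trans b c
      · exact ⟨le_trans b c.1, le_trans b c.2⟩
      · rcases c with c | ⟨n, c, -⟩
        · exact b.2.trans c.2
        · exact b.1.trans ((haw n).trans c)
      · exact ⟨b.1, b.2.trans c⟩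
      · exact b.imp (fun b => ⟨b.1, b.2.trans c⟩) fun ⟨n, b1, b2⟩ => ⟨n, b1.trans c, b2⟩
      · rcases b with b | ⟨n, b, -⟩
        · exact b.2.trans c.2
        · exact absurd ((hkw n).trans (b.trans c.1)) hka
      · exact c.imp (fun c => ⟨le_trans b c.1, le_trans b c.2⟩)
          fun ⟨n, c1, c2⟩ => ⟨n, c1, le_trans b c2⟩
      · exact le_trans b c)
    (by
      rintro (x | x) (y | y)
      · exact ⟨_, glb0 x y⟩
      · exact ⟨_, glb1 x y⟩
      · exact ⟨_, fun u => (glb1 y x u).trans and_comm⟩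
      · exact ⟨_, glb2 x y⟩)
  have hι : IsE fun s => π (.inl s) := isE_of (fun a b => hW _ _) fun a b u => by
    obtain ⟨u, rfl⟩ := hπ u
    rw [hW, hW, hW, glb0]
    exact And.intro
  have hψ : IsE fun t => π (.inr t) := isE_of (fun a b => hW _ _) fun a b u => by
    obtain ⟨u, rfl⟩ := hπ u
    rw [hW, hW, hW, glb2]
    exact And.intro
  have hs : ∀ J, (∃ s, J = π (.inl s)) ∨ ∃ t, J = π (.inr t) := fun J => by
    obtain ⟨s | t, rfl⟩ := hπ J
    exacts [Or.inl ⟨s, rfl⟩, Or.inr ⟨t, rfl⟩]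
  have e1 : ∀ s t, π (.inl s) ≤ π (.inr t) ↔ s ≤ a ∧ s ≤ t := fun _ _ => hW _ _
  have e2 : ∀ s t, π (.inr t) ≤ π (.inl s) ↔ t ≤ ρ s := fun _ _ => (hW _ _).trans (hρ _ _).symm
  have e3 : ∀ s t, π (.inl s) ⊓ π (.inr t) ≤ π (.inr (ρ s ⊓ t)) := fun s t => by
    obtain ⟨u, hu⟩ := hπ (π (.inl s) ⊓ π (.inr t))
    rw [← hu, hW, glb1, ← hW, ← hW, hu]
    exact ⟨inf_le_left, inf_le_right⟩
  have e4 : ∀ t, t ≤ a → π (.inl t) = π (.inr t) := fun t ht =>
    le_antisymm ((e1 _ _).2 ⟨ht, le_rfl⟩) ((e2 _ _).2 ((hρ _ _).2 (Or.inl ⟨ht, le_rfl⟩)))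
  have e5 : ∀ s t, ¬k ≤ s → t ≤ ρ s → t ≤ a := fun s t h1 h2 =>
    ((hρ s t).1 h2).elim (fun h => h.1) fun ⟨n, h, _⟩ => absurd ((hkw n).trans h) h1
  obtain ⟨R, i, j, f1, f2, f3, f4⟩ := exists_glue M M W _ _ hι hψ hs
    (fun r h t => by
      have H := rule h (a ⊓ t)
      cases r with
      | prom a' D =>
        by_cases hk : ∀ n, k ≤ a' n
        · obtain ⟨i, h1, h2⟩ := compat hp h hk
          exact Or.inr (Or.inl ⟨i, fun n => hι.le_iff.2 (h1 n), fun e => h2 ((e1 _ _).1 e).1⟩)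
        · push Not at hk
          obtain ⟨n, hn⟩ := hk
          have ha' : Antitone a' := good h
          rcases H with ⟨m, h1⟩ | ⟨i, h1, h2⟩ | ⟨m, i, h1, h2⟩
          · exact Or.inl ⟨m, (e1 _ _).2 (le_inf_iff.1 h1)⟩
          · exact Or.inr (Or.inl ⟨i, fun n => hι.le_iff.2 (h1 n),
              fun e => h2 (le_inf_iff.2 ((e1 _ _).1 e))⟩)
          · refine Or.inr (Or.inr ⟨max m n, i, fun m e => h1 m (hι.le_iff.1 e), ?_⟩)
            rw [inf_comm]
            refine (e3 _ _).trans ((e2 _ _).2 ((hρ _ _).2 (Or.inl ?_)))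
            have b1 : ρ (a' (max m n)) ⊓ t ≤ a :=
              e5 _ _ (fun e => hn (e.trans (ha' (le_max_right _ _)))) inf_le_left
            exact ⟨b1, le_trans (le_inf (le_inf b1 inf_le_right)
              ((hρ' _ _ b1 inf_le_left).trans (ha' (le_max_left _ _)))) h2⟩
      | cup k' y' w' l' =>
        rintro h1 ⟨n, h2⟩
        obtain ⟨m, hm⟩ := H (le_inf_iff.2 ((e1 _ _).1 h1)) ⟨n, le_inf_iff.2 ((e1 _ _).1 h2)⟩
        exact ⟨m, (e1 _ _).2 (le_inf_iff.1 hm)⟩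
      | pair => trivial
      | gf => trivial)
    (fun r h s => rule_transfer IsE.id hψ (J := ρ s) (fun t => e2 s t)
      (fun t t' e => (e3 s t).trans (hψ.le_iff.2 e)) (by rw [Rec.map_id]; exact rule h _))
    (fun r h r' h' => by
      have q : ∀ t, π (.inl t) ≤ π (.inr r'.roof) → π (.inl t) = π (.inr t) := fun t e =>
        e4 t ((e1 _ _).1 e).1
      refine ⟨compat_loc1 hψ hι IsE.id (good h') (good h) q
        (by rw [Rec.map_id]; exact compat h h'), ?_⟩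
      by_cases hr : ∃ a1 k1, r' = .pair a1 k1
      · obtain ⟨a1, k1, rfl⟩ := hr
        cases r with
        | prom a' D =>
          intro hk1
          by_cases hk : ∀ n, k ≤ a' n
          · obtain ⟨i, h1, h2⟩ := compat hp h hk
            exact ⟨i, fun n => hι.le_iff.2 (h1 n), fun e => h2 ((e1 _ _).1 e).1⟩
          · push Not at hk
            obtain ⟨n, hn⟩ := hk
            have b1 : k1 ≤ a := e5 _ _ hn ((e2 _ _).1 (hk1 n))
            obtain ⟨i, h1, h2⟩ := compat h' h fun m => hρ' _ _ b1 ((e2 _ _).1 (hk1 m))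
            exact ⟨i, fun n => hι.le_iff.2 (h1 n), fun e => h2 ((e1 _ _).1 e).2⟩
        | _ => trivial
      · exact compat_loc2 hψ hι IsE.id (good h') (good h) q (fun e => absurd e hr)
          (by rw [Rec.map_id]; exact compat h' h))
  simp only [e1] at f1
  simp only [e2] at f2
  have nc : ∀ k' y' w' l', Rec.cup k' y' w' l' ∈ R.recs → i k = k' →
      ¬Cof (fun n => j (y n)) y' := by
    intro k' y' w' l' h e hc
    rcases f4 _ h with ⟨r, -, hr⟩ | ⟨r, -, hr⟩ <;> cases r <;> cases hr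
    · obtain ⟨m, hm⟩ := hc.2 0
      obtain ⟨p, hp⟩ := hc.1 m
      exact hya p (e5 _ _ (fun e => hka (e.trans ((f1 _ _).1 hm).1)) ((f2 _ _).1 hp))
    · exact hka ((f1 _ _).1 e.le).1
  obtain ⟨R', g, -, hg⟩ := exists_add R {Rec.cup (i k) (fun n => j (y n)) (fun n => i (w n)) l}
    (Set.countable_singleton _)
    (by
      rintro _ rfl
      exact ⟨(isE j).anti.2 hy, (isE i).anti.2 hw, fun n => (le_iff i).2 (hkw n),
        fun n => ⟨n, (f2 _ _).2 ((hρ _ _).2 (Or.inr ⟨n, le_rfl, le_rfl⟩))⟩⟩)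
    (by
      rintro _ rfl J h1 ⟨n, h2⟩
      rcases f3 J with ⟨s, rfl⟩ | ⟨t, rfl⟩
      · rcases (hρ _ _).1 ((f2 _ _).1 h2) with h | ⟨m, h, -⟩
        · exact absurd h.1 (hya n)
        · exact ⟨m, (le_iff i).2 h⟩
      · exact absurd ((f1 _ _).1 h1).1 hka)
    (by
      rintro _ rfl r hr
      cases r with
      | cup k' y' w' l' =>
        exact ⟨fun e hc => absurd hc (nc _ _ _ _ hr e),
          fun e hc => absurd hc.symm (nc _ _ _ _ hr e.symm)⟩
      | _ => exact ⟨trivial, trivial⟩)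
    (by rintro _ rfl _ rfl _ _; rfl)
  refine ⟨R', i ≫ g, j ≫ g, fun t ht => congrArg g (le_antisymm ((f1 _ _).2 ⟨ht, le_rfl⟩)
    ((f2 _ _).2 ((hρ _ _).2 (Or.inl ⟨ht, le_rfl⟩)))), hg _ rfl⟩

end cup

open Cardinal in
theorem mk_rec : #(Rec ℕ) ≤ 𝔠 := by
  let F : Rec ℕ → ℕ × ℕ × (ℕ → ℕ) × (ℕ → ℕ) × ℝ := fun r =>
    match r with
    | .pair a k => (0, a, fun _ => k, fun _ => 0, 0)
    | .prom a D => (1, 0, a, D, 0)
    | .cup k y w l => (2, k, y, w, l)
    | .gf c ξ d => (3, 0, c, d, ξ)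
  have hF : Function.Injective F := by
    intro r r' h
    cases r <;> cases r' <;> simp only [F, Prod.mk.injEq] at h <;> try omega
    · obtain ⟨-, rfl, h, -⟩ := h
      obtain rfl := congrFun h 0
      rfl
    · obtain ⟨-, -, rfl, rfl, -⟩ := h
      rfl
    · obtain ⟨-, rfl, rfl, rfl, rfl⟩ := h
      rfl
    · obtain ⟨-, -, rfl, rfl, rfl⟩ := h
      rfl
  refine (mk_le_of_injective hF).trans ?_
  simp [mk_real]

/-- the data determining a cupping amalgam -/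
def Key (P : Cond) : Type :=
  Σ σ : Str ℕ, (P ⟶ ofNat σ) × (ℕ → (ofNat σ).car) × (ℕ → (ofNat σ).car)

open Cardinal in
theorem exists_tag (P : Cond) : ∃ tag : Key P → ℝ, Function.Injective tag := by
  obtain ⟨e, he⟩ := exists_surjective_nat P.car
  let F : Key P → (ℕ × ℕ → Bool) × {t : Set (Rec ℕ) // #t ≤ ℵ₀} × (ℕ → ℕ) × (ℕ → ℕ) × (ℕ → ℕ) :=
    fun κ => (fun p => by classical exact decide (κ.1.lat.le p.1 p.2),
      ⟨κ.1.recs, le_aleph0_iff_set_countable.2 κ.1.cnt⟩, fun n => κ.2.1 (e n), κ.2.2.1, κ.2.2.2)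
  have hF : Function.Injective F := by
    rintro ⟨⟨lat, recs, c1, c2, c3, c4⟩, g, c, d⟩ ⟨⟨lat', recs', c1', c2', c3', c4'⟩, g', c', d'⟩ h
    have h1 := congrArg (·.1) h
    have h2 := congrArg (·.2.2.1) h
    obtain rfl : recs = recs' := congrArg (·.2.1.1) h
    obtain rfl : c = c' := congrArg (·.2.2.2.1) h
    obtain rfl : d = d' := congrArg (·.2.2.2.2) h
    obtain rfl : lat = lat' := SemilatticeInf.ext fun x y => by
      simpa [F] using congrFun h1 (x, y)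
    obtain rfl : g = g' := hom_ext fun a => by
      obtain ⟨n, rfl⟩ := he a
      exact congrFun h2 n
    rfl
  have h1 : #{t : Set (Rec ℕ) // #t ≤ ℵ₀} ≤ 𝔠 := by
    have : Infinite (Rec ℕ) := Infinite.of_injective (fun n => Rec.pair n n) fun _ _ h => by
      cases h; rfl
    refine (mk_bounded_set_le_of_infinite _ _).trans ?_
    exact (power_le_power_right mk_rec).trans_eq continuum_power_aleph0
  have h2 : #(Key P) ≤ #ℝ := by
    refine (mk_le_of_injective hF).trans ?_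
    simp only [mk_prod, lift_id, mk_real]
    refine (mul_le_mul' le_rfl (mul_le_mul' h1 le_rfl)).trans ?_
    simp
  obtain ⟨t⟩ := h2
  exact ⟨t, t.injective⟩

end Cond

end Vale.Agent.P323
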