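import Mathlib

/-! First-order set theory: formulas, satisfaction, ZF, the Partition Principle and Choice. -/

namespace Vale.Agent.P323

universe u

/-- first-order formulas in the language of set theory, with de Bruijn variables -/
inductive Fml : Type
  | mem : ℕ → ℕ → Fml
  | eq : ℕ → ℕ → Fml
  | fls : Fml
  | imp : Fml → Fml → Fml
  | all : Fml → Fml

/-- the valuation sending `0` to `x` and `n + 1` to `v n` -/
def cons {M : Type u} (x : M) (v : ℕ → M) : ℕ → M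
  | 0 => x
  | n + 1 => v n

/-- Tarski satisfaction in the structure `(M, E)` -/
def Sat {M : Type} (E : M → M → Prop) : Fml → (ℕ → M) → Prop
  | .mem i j, v => E (v i) (v j)
  | .eq i j, v => v i = v j
  | .fls, _ => False
  | .imp φ ψ, v => Sat E φ v → Sat E ψ v
  | .all φ, v => ∀ x, Sat E φ (cons x v)

/-- `(M, E)` is a model of ZF -/
structure IsZF {M : Type} (E : M → M → Prop) : Prop where
  extensionality : ∀ x y, (∀ z, E z x ↔ E z y) → x = y
  foundation : ∀ x, (∃ y, E y x) → ∃ y, E y x ∧ ∀ z, E z y → ¬E z x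
  pairing : ∀ x y, ∃ p, ∀ z, E z p ↔ z = x ∨ z = y
  union : ∀ x, ∃ w, ∀ z, E z w ↔ ∃ y, E y x ∧ E z y
  power : ∀ x, ∃ p, ∀ z, E z p ↔ ∀ t, E t z → E t x
  infinity : ∃ w, (∃ e, E e w ∧ ∀ t, ¬E t e) ∧
    ∀ x, E x w → ∃ s, E s w ∧ ∀ t, E t s ↔ E t x ∨ t = x
  separation : ∀ (φ : Fml) (v : ℕ → M) (a : M), ∃ s, ∀ x, E x s ↔ E x a ∧ Sat E φ (cons x v)
  replacement : ∀ (φ : Fml) (v : ℕ → M) (a : M),
    (∀ x, E x a → ∀ y y', Sat E φ (cons y (cons x v)) → Sat E φ (cons y' (cons x v)) → y = y') →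
    ∃ b, ∀ y, E y b ↔ ∃ x, E x a ∧ Sat E φ (cons y (cons x v))

/-- `p` is the Kuratowski pair `{{x}, {x, y}}` -/
def IsOP {M : Type} (E : M → M → Prop) (p x y : M) : Prop :=
  ∀ z, E z p ↔ (∀ t, E t z ↔ t = x) ∨ ∀ t, E t z ↔ t = x ∨ t = y

/-- the pair `(x, y)` belongs to `f` -/
def App {M : Type} (E : M → M → Prop) (f x y : M) : Prop := ∃ p, E p f ∧ IsOP E p x y

/-- `f` is a function from `X` to `Y` -/
def IsFun {M : Type} (E : M → M → Prop) (f X Y : M) : Prop :=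
  (∀ p, E p f → ∃ x y, E x X ∧ E y Y ∧ IsOP E p x y) ∧ ∀ x, E x X → ∃! y, App E f x y

/-- the Partition Principle -/
def PP {M : Type} (E : M → M → Prop) : Prop :=
  ∀ X Y, (∃ f, IsFun E f X Y ∧ ∀ y, E y Y → ∃ x, App E f x y) →
    ∃ j, IsFun E j Y X ∧ ∀ y y' x, App E j y x → App E j y' x → y = y'

/-- the Axiom of Choice: every set of nonempty sets has a choice function -/
def AC {M : Type} (E : M → M → Prop) : Prop :=
  ∀ A, (∀ z, E z A → ∃ t, E t z) → ∃ c U, IsFun E c A U ∧ ∀ z t, App E c z t → E t z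

end Vale.Agent.P323
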