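import Vale.Agent.P323.Defs

/-! Forcing over a category of conditions. -/

namespace Vale.Agent.P323

open CategoryTheory

variable {C : Type 1} [Category.{0} C]

/-- names at a condition -/
inductive El : C → Type 2
  | mk {Q : C} (P : C) (g : P ⟶ Q) (ι : Type 1) (R : ι → C) (f : ∀ i, P ⟶ R i)
      (n : ∀ i, El (R i)) : El Q

namespace El

/-- transport of names -/
def map {Q S : C} (j : Q ⟶ S) : El Q → El S
  | mk P g ι R f n => mk P (g ≫ j) ι R f n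

theorem map_mk {Q S P : C} (j : Q ⟶ S) (g : P ⟶ Q) (ι : Type 1) (R : ι → C) (f : ∀ i, P ⟶ R i)
    (n : ∀ i, El (R i)) : (mk P g ι R f n).map j = mk P (g ≫ j) ι R f n := rfl

@[simp] theorem map_id {Q : C} (x : El Q) : x.map (𝟙 Q) = x := by
  cases x; simp [map]

@[simp] theorem map_map {Q S T : C} (j : Q ⟶ S) (k : S ⟶ T) (x : El Q) :
    (x.map j).map k = x.map (j ≫ k) := by
  cases x; simp [map]

/-- indices of the listed members -/
def Ix {Q : C} : El Q → Type 1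
  | mk _ g ι R f _ => {p : Σ i : ι, R i ⟶ Q // f p.1 ≫ p.2 = g}

/-- the listed member with a given index -/
def val {Q : C} : (x : El Q) → x.Ix → El Q
  | mk _ _ _ _ _ n, p => (n p.1.1).map p.1.2

/-- listed members -/
def Mb {Q : C} (z x : El Q) : Prop := ∃ p : x.Ix, x.val p = z

theorem mb_mk {Q P : C} {g : P ⟶ Q} {ι : Type 1} {R : ι → C} {f : ∀ i, P ⟶ R i}
    {n : ∀ i, El (R i)} {z : El Q} :
    Mb z (mk P g ι R f n) ↔ ∃ i, ∃ h : R i ⟶ Q, f i ≫ h = g ∧ (n i).map h = z :=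
  ⟨fun ⟨p, hp⟩ => ⟨p.1.1, p.1.2, p.2, hp⟩, fun ⟨i, h, e, hp⟩ => ⟨⟨⟨i, h⟩, e⟩, hp⟩⟩

theorem Mb.map {Q S : C} {z x : El Q} (h : Mb z x) (j : Q ⟶ S) : Mb (z.map j) (x.map j) := by
  cases x with
  | mk P g ι R f n =>
    obtain ⟨i, h', e, rfl⟩ := mb_mk.1 h
    exact mb_mk.2 ⟨i, h' ≫ j, by rw [← e, Category.assoc], by simp⟩

theorem ind {P : ∀ Q : C, El Q → Prop}
    (H : ∀ Q x, (∀ S (j : Q ⟶ S) z, Mb z (x.map j) → P S z) → P Q x) (Q : C) (x : El Q) :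
    P Q x := by
  suffices ∀ (A : C) (x : El A) (Q : C) (a : A ⟶ Q), P Q (x.map a) by simpa using this Q x Q (𝟙 Q)
  intro A x
  induction x with
  | mk P' g ι R f n ih =>
    intro Q a
    refine H _ _ fun S j z hz => ?_
    obtain ⟨i, h, -, rfl⟩ := mb_mk.1 hz
    exact ih i S h

/-- forced equality, recursive form -/
def EqR : {A : C} → El A → {B : C} → El B → {Q : C} → (A ⟶ Q) → (B ⟶ Q) → Prop
  | _, mk _ g _ R f n, _, mk _ g' _ R' f' n', Q, a, b =>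
    (∀ (S : C) (j : Q ⟶ S) i (h : R i ⟶ S), f i ≫ h = g ≫ a ≫ j →
      ∃ (T : C) (k : S ⟶ T) (i' : _) (h' : R' i' ⟶ T), f' i' ≫ h' = g' ≫ b ≫ j ≫ k ∧
        EqR (n i) (n' i') (h ≫ k) h') ∧
    ∀ (S : C) (j : Q ⟶ S) i' (h' : R' i' ⟶ S), f' i' ≫ h' = g' ≫ b ≫ j →
      ∃ (T : C) (k : S ⟶ T) (i : _) (h : R i ⟶ T), f i ≫ h = g ≫ a ≫ j ≫ k ∧
        EqR (n i) (n' i') h (h' ≫ k)

/-- forced equality -/
def Eqv {Q : C} (x y : El Q) : Prop := EqR x y (𝟙 Q) (𝟙 Q)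

theorem eqR_iff {A B Q : C} (x : El A) (y : El B) (a : A ⟶ Q) (b : B ⟶ Q) :
    EqR x y a b ↔ Eqv (x.map a) (y.map b) := by
  cases x; cases y
  simp only [Eqv, map, EqR, Category.assoc, Category.id_comp]

theorem eqv_iff {Q : C} {x y : El Q} : Eqv x y ↔
    (∀ S (j : Q ⟶ S) z, Mb z (x.map j) →
      ∃ (T : C) (k : S ⟶ T) (z' : El T), Mb z' (y.map (j ≫ k)) ∧ Eqv (z.map k) z') ∧
    ∀ S (j : Q ⟶ S) z', Mb z' (y.map j) →
      ∃ (T : C) (k : S ⟶ T) (z : El T), Mb z (x.map (j ≫ k)) ∧ Eqv z (z'.map k) := by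
  cases x; cases y
  rw [Eqv, EqR]
  simp only [map_mk, mb_mk, eqR_iff, Category.id_comp]
  refine and_congr ⟨?_, ?_⟩ ⟨?_, ?_⟩
  · rintro H S j z ⟨i, h, e, rfl⟩
    obtain ⟨T, k, i', h', e', E⟩ := H S j i h e
    exact ⟨T, k, _, ⟨i', h', e', rfl⟩, by simpa using E⟩
  · intro H S j i h e
    obtain ⟨T, k, _, ⟨i', h', e', rfl⟩, E⟩ := H S j _ ⟨i, h, e, rfl⟩
    exact ⟨T, k, i', h', e', by simpa using E⟩
  · rintro H S j z ⟨i, h, e, rfl⟩
    obtain ⟨T, k, i', h', e', E⟩ := H S j i h e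
    exact ⟨T, k, _, ⟨i', h', e', rfl⟩, by simpa using E⟩
  · intro H S j i h e
    obtain ⟨T, k, _, ⟨i', h', e', rfl⟩, E⟩ := H S j _ ⟨i, h, e, rfl⟩
    exact ⟨T, k, i', h', e', by simpa using E⟩

theorem Eqv.map {Q S : C} {x y : El Q} (h : Eqv x y) (j : Q ⟶ S) : Eqv (x.map j) (y.map j) := by
  rw [eqv_iff] at h ⊢
  refine ⟨fun S' j' z hz => ?_, fun S' j' z hz => ?_⟩
  · simpa using h.1 S' (j ≫ j') z (by simpa using hz)
  · simpa using h.2 S' (j ≫ j') z (by simpa using hz)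

theorem Eqv.refl {Q : C} (x : El Q) : Eqv x x := by
  induction Q, x using ind with
  | _ Q x ih =>
    rw [eqv_iff]
    exact ⟨fun S j z hz => ⟨S, 𝟙 S, z, by simpa using hz, by simpa using ih S j z hz⟩,
      fun S j z hz => ⟨S, 𝟙 S, z, by simpa using hz, by simpa using ih S j z hz⟩⟩

theorem Eqv.of_eq {Q : C} {x y : El Q} (h : x = y) : Eqv x y := h ▸ Eqv.refl x

theorem Eqv.symm {Q : C} {x y : El Q} (h : Eqv x y) : Eqv y x := by
  induction Q, x using ind with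
  | _ Q x ih =>
    rw [eqv_iff] at h ⊢
    refine ⟨fun S j z hz => ?_, fun S j z hz => ?_⟩
    · obtain ⟨T, k, z', h1, h2⟩ := h.2 S j z hz
      exact ⟨T, k, z', h1, ih T _ z' h1 h2⟩
    · obtain ⟨T, k, z', h1, h2⟩ := h.1 S j z hz
      exact ⟨T, k, z', h1, ih T (j ≫ k) _ (by simpa using hz.map k) h2⟩

theorem Eqv.trans {Q : C} {x y w : El Q} (h : Eqv x y) (h' : Eqv y w) : Eqv x w := by
  induction Q, x using ind with
  | _ Q x ih =>
    rw [eqv_iff] at h h' ⊢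
    refine ⟨fun S j z hz => ?_, fun S j z hz => ?_⟩
    · obtain ⟨T, k, z', h1, h2⟩ := h.1 S j z hz
      obtain ⟨T', k', z'', h3, h4⟩ := h'.1 T _ z' h1
      refine ⟨T', k ≫ k', z'', by simpa using h3, ?_⟩
      exact ih T' (j ≫ k ≫ k') _ (by simpa using hz.map (k ≫ k')) (by simpa using h2.map k') h4
    · obtain ⟨T, k, z', h1, h2⟩ := h'.2 S j z hz
      obtain ⟨T', k', z'', h3, h4⟩ := h.2 T _ z' h1
      refine ⟨T', k ≫ k', z'', by simpa using h3, ?_⟩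
      exact ih T' _ _ h3 h4 (by simpa using h2.map k')

theorem Eqv.reg {Q : C} {x y : El Q}
    (h : ∀ S (j : Q ⟶ S), ∃ (T : C) (k : S ⟶ T), Eqv (x.map (j ≫ k)) (y.map (j ≫ k))) :
    Eqv x y := by
  rw [eqv_iff]
  refine ⟨fun S j z hz => ?_, fun S j z hz => ?_⟩
  · obtain ⟨T, k, h1⟩ := h S j
    obtain ⟨T', k', z', h2, h3⟩ := (eqv_iff.1 h1).1 T (𝟙 T) _ (by simpa using hz.map k)
    exact ⟨T', k ≫ k', z', by simpa using h2, by simpa using h3⟩
  · obtain ⟨T, k, h1⟩ := h S j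
    obtain ⟨T', k', z', h2, h3⟩ := (eqv_iff.1 h1).2 T (𝟙 T) _ (by simpa using hz.map k)
    exact ⟨T', k ≫ k', z', by simpa using h2, by simpa using h3⟩

/-- forced membership -/
def Mem {Q : C} (z x : El Q) : Prop :=
  ∀ S (j : Q ⟶ S), ∃ (T : C) (k : S ⟶ T) (w : El T),
    Mb w (x.map (j ≫ k)) ∧ Eqv (z.map (j ≫ k)) w

theorem Mem.map {Q S : C} {z x : El Q} (h : Mem z x) (j : Q ⟶ S) : Mem (z.map j) (x.map j) := by
  intro S' j'
  simpa using h S' (j ≫ j')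

theorem Mem.ex {Q : C} {z x : El Q} (h : Mem z x) :
    ∃ (T : C) (k : Q ⟶ T) (w : El T), Mb w (x.map k) ∧ Eqv (z.map k) w := by
  simpa using h Q (𝟙 Q)

theorem Mem.reg {Q : C} {z x : El Q}
    (h : ∀ S (j : Q ⟶ S), ∃ (T : C) (k : S ⟶ T), Mem (z.map (j ≫ k)) (x.map (j ≫ k))) :
    Mem z x := by
  intro S j
  obtain ⟨T, k, h1⟩ := h S j
  obtain ⟨T', k', w, h2, h3⟩ := h1.ex
  exact ⟨T', k ≫ k', w, by simpa using h2, by simpa using h3⟩

theorem Mb.mem {Q : C} {z x : El Q} (h : Mb z x) : Mem z x := fun S j =>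
  ⟨S, 𝟙 S, z.map j, by simpa using h.map j, by simpa using Eqv.refl _⟩

theorem Mem.congr_left {Q : C} {z z' x : El Q} (h : Mem z x) (e : Eqv z' z) : Mem z' x := by
  intro S j
  obtain ⟨T, k, w, h1, h2⟩ := h S j
  exact ⟨T, k, w, h1, (e.map _).trans h2⟩

theorem Mem.congr_right {Q : C} {z x y : El Q} (h : Mem z x) (e : Eqv x y) : Mem z y := by
  intro S j
  obtain ⟨T, k, w, h1, h2⟩ := h S j
  obtain ⟨T', k', w', h3, h4⟩ := (eqv_iff.1 e).1 T _ w h1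
  exact ⟨T', k ≫ k', w', by simpa using h3, Eqv.trans (by simpa using h2.map k') h4⟩

theorem Eqv.ext {Q : C} {x y : El Q} (h1 : ∀ S (j : Q ⟶ S) z, Mb z (x.map j) → Mem z (y.map j))
    (h2 : ∀ S (j : Q ⟶ S) z, Mb z (y.map j) → Mem z (x.map j)) : Eqv x y := by
  rw [eqv_iff]
  refine ⟨fun S j z hz => ?_, fun S j z hz => ?_⟩
  · simpa using (h1 S j z hz).ex
  · obtain ⟨T, k, w, a, b⟩ := (h2 S j z hz).ex
    exact ⟨T, k, w, by simpa using a, b.symm⟩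

/-- the name with a prescribed family of members -/
def set (Q : C) (ι : Type 1) (R : ι → C) (f : ∀ i, Q ⟶ R i) (n : ∀ i, El (R i)) : El Q :=
  mk Q (𝟙 Q) ι R f n

theorem mb_set {Q S : C} {j : Q ⟶ S} {ι : Type 1} {R : ι → C} {f : ∀ i, Q ⟶ R i}
    {n : ∀ i, El (R i)} {z : El S} :
    Mb z ((set Q ι R f n).map j) ↔ ∃ i, ∃ h : R i ⟶ S, f i ≫ h = j ∧ (n i).map h = z := by
  simp only [set, map_mk, mb_mk, Category.id_comp]

end El

open El

theorem map_cons {Q S : C} (j : Q ⟶ S) (x : El Q) (ρ : ℕ → El Q) :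
    (fun i => (cons x ρ i).map j) = cons (x.map j) fun i => (ρ i).map j := by
  funext i; cases i <;> rfl

/-- the forcing relation -/
def Force : Fml → (Q : C) → (ℕ → El Q) → Prop
  | .mem i j, _, ρ => Mem (ρ i) (ρ j)
  | .eq i j, _, ρ => Eqv (ρ i) (ρ j)
  | .fls, _, _ => False
  | .imp φ ψ, Q, ρ => ∀ S (j : Q ⟶ S), Force φ S (fun i => (ρ i).map j) →
      Force ψ S fun i => (ρ i).map j
  | .all φ, Q, ρ => ∀ S (j : Q ⟶ S) (x : El S), Force φ S (cons x fun i => (ρ i).map j)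

theorem Force.map {φ : Fml} {Q S : C} {ρ : ℕ → El Q} (h : Force φ Q ρ) (j : Q ⟶ S) :
    Force φ S fun i => (ρ i).map j := by
  cases φ with
  | mem a b => exact Mem.map h j
  | eq a b => exact Eqv.map h j
  | fls => exact h
  | imp φ ψ => intro T k; simpa using h T (j ≫ k)
  | all φ => intro T k; simpa using h T (j ≫ k)

theorem Force.reg {φ : Fml} : ∀ {Q : C} {ρ : ℕ → El Q},
    (∀ S (j : Q ⟶ S), ∃ (T : C) (k : S ⟶ T), Force φ T fun i => (ρ i).map (j ≫ k)) →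
      Force φ Q ρ := by
  induction φ with
  | mem a b => exact fun h => Mem.reg h
  | eq a b => exact fun h => Eqv.reg h
  | fls => intro Q ρ h; obtain ⟨_, _, h⟩ := h Q (𝟙 Q); exact h
  | imp φ ψ _ ih =>
    intro Q ρ h S j hφ
    refine ih fun S' j' => ?_
    obtain ⟨T, k, h1⟩ := h S' (j ≫ j')
    refine ⟨T, k, ?_⟩
    have := h1 T (𝟙 T) (by simpa using hφ.map (j' ≫ k))
    simpa using this
  | all φ ih =>
    intro Q ρ h S j x
    refine ih fun S' j' => ?_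
    obtain ⟨T, k, h1⟩ := h S' (j ≫ j')
    refine ⟨T, k, ?_⟩
    have := h1 T (𝟙 T) (x.map (j' ≫ k))
    rw [map_cons]
    simpa using this

theorem Force.congr {φ : Fml} : ∀ {Q : C} {ρ ρ' : ℕ → El Q}, (∀ i, Eqv (ρ i) (ρ' i)) →
    Force φ Q ρ → Force φ Q ρ' := by
  induction φ with
  | mem a b => exact fun e h => (Mem.congr_left h (e a).symm).congr_right (e b)
  | eq a b => exact fun e h => ((e a).symm.trans h).trans (e b)
  | fls => exact fun _ h => h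
  | imp φ ψ ih1 ih2 =>
    intro Q ρ ρ' e h S j hφ
    exact ih2 (fun i => (e i).map j) (h S j (ih1 (fun i => ((e i).map j).symm) hφ))
  | all φ ih =>
    intro Q ρ ρ' e h S j x
    refine ih (fun i => ?_) (h S j x)
    cases i with
    | zero => exact Eqv.refl _
    | succ i => exact (e i).map j

end Vale.Agent.P323
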