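import Vale.Agent.P323.Force

/-! Derived connectives, renaming, and the generic model. -/

namespace Vale.Agent.P323

open CategoryTheory El Filter

namespace Fml

/-- negation -/
def neg (φ : Fml) : Fml := imp φ fls

/-- conjunction -/
def and (φ ψ : Fml) : Fml := neg (imp φ (neg ψ))

/-- disjunction -/
def or (φ ψ : Fml) : Fml := imp (neg φ) ψ

/-- equivalence -/
def iff (φ ψ : Fml) : Fml := and (imp φ ψ) (imp ψ φ)

/-- existential quantifier -/
def ex (φ : Fml) : Fml := neg (all (neg φ))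

/-- renaming of variables -/
def ren : Fml → (ℕ → ℕ) → Fml
  | mem i j, f => mem (f i) (f j)
  | eq i j, f => eq (f i) (f j)
  | fls, _ => fls
  | imp φ ψ, f => imp (φ.ren f) (ψ.ren f)
  | all φ, f => all (φ.ren (cons 0 fun n => f n + 1))

/-- a bound for the free variables -/
def bd : Fml → ℕ
  | mem i j => i + j + 1
  | eq i j => i + j + 1
  | fls => 0
  | imp φ ψ => φ.bd + ψ.bd
  | all φ => φ.bd

/-- a code -/
def code : Fml → ℕ
  | mem i j => Nat.pair 0 (Nat.pair i j)
  | eq i j => Nat.pair 1 (Nat.pair i j)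
  | fls => Nat.pair 2 0
  | imp φ ψ => Nat.pair 3 (Nat.pair φ.code ψ.code)
  | all φ => Nat.pair 4 φ.code

theorem code_inj : ∀ φ ψ : Fml, φ.code = ψ.code → φ = ψ := by
  intro φ
  induction φ with
  | imp φ φ' ih ih' =>
    intro ψ h
    cases ψ <;> simp only [code, Nat.pair_eq_pair] at h <;> try omega
    rw [ih _ h.2.1, ih' _ h.2.2]
  | all φ ih =>
    intro ψ h
    cases ψ <;> simp only [code, Nat.pair_eq_pair] at h <;> try omega
    rw [ih _ h.2]
  | _ =>
    intro ψ h
    cases ψ <;> simp only [code, Nat.pair_eq_pair] at h <;> first | omega | simp_all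

instance : Countable Fml := ⟨code, code_inj⟩

end Fml

section sat

variable {M : Type} {E : M → M → Prop} {φ ψ : Fml} {v : ℕ → M}

theorem sat_neg : Sat E φ.neg v ↔ ¬Sat E φ v := Iff.rfl

theorem sat_and : Sat E (φ.and ψ) v ↔ Sat E φ v ∧ Sat E ψ v := by
  simp [Fml.and, Fml.neg, Sat]

theorem sat_or : Sat E (φ.or ψ) v ↔ Sat E φ v ∨ Sat E ψ v := by
  simp only [Fml.or, Fml.neg, Sat]; tauto

theorem sat_iff : Sat E (φ.iff ψ) v ↔ (Sat E φ v ↔ Sat E ψ v) := by
  simp only [Fml.iff, sat_and, Sat]; tauto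

theorem sat_ex : Sat E φ.ex v ↔ ∃ x, Sat E φ (cons x v) := by
  simp [Fml.ex, Fml.neg, Sat]

theorem cons_ren {α : Type*} (x : α) (v : ℕ → α) (f : ℕ → ℕ) :
    (fun n => cons x v (cons 0 (fun n => f n + 1) n)) = cons x fun n => v (f n) := by
  funext n; cases n <;> rfl

theorem sat_ren : ∀ {f : ℕ → ℕ} {v : ℕ → M}, Sat E (φ.ren f) v ↔ Sat E φ fun n => v (f n) := by
  induction φ with
  | imp φ ψ ih ih' => intro f v; simp only [Fml.ren, Sat, ih, ih']
  | all φ ih => intro f v; simp only [Fml.ren, Sat, ih, cons_ren]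
  | _ => exact Iff.rfl

theorem sat_bd : ∀ {v v' : ℕ → M}, (∀ i, i < φ.bd → v i = v' i) → (Sat E φ v ↔ Sat E φ v') := by
  induction φ with
  | mem i j => intro v v' h; simp only [Sat]; rw [h i, h j] <;> simp only [Fml.bd] <;> omega
  | eq i j => intro v v' h; simp only [Sat]; rw [h i, h j] <;> simp only [Fml.bd] <;> omega
  | fls => exact fun _ => Iff.rfl
  | imp φ ψ ih ih' =>
    intro v v' h
    simp only [Fml.bd] at h
    simp only [Sat]
    rw [ih fun i e => h i (by omega), ih' fun i e => h i (by omega)]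
  | all φ ih =>
    intro v v' h
    refine forall_congr' fun x => ih fun i e => ?_
    cases i with
    | zero => rfl
    | succ i => exact h i (by simp only [Fml.bd]; omega)

end sat

variable {C : Type 1} [Category.{0} C] {φ ψ : Fml} {Q : C} {ρ : ℕ → El Q}

theorem force_ren : ∀ {f : ℕ → ℕ} {Q : C} {ρ : ℕ → El Q},
    Force (φ.ren f) Q ρ ↔ Force φ Q fun n => ρ (f n) := by
  induction φ with
  | imp φ ψ ih ih' => intro f Q ρ; simp only [Fml.ren, Force, ih, ih']
  | all φ ih => intro f Q ρ; simp only [Fml.ren, Force, ih, cons_ren]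
  | _ => exact Iff.rfl

theorem force_neg : Force φ.neg Q ρ ↔ ∀ S (j : Q ⟶ S), ¬Force φ S fun i => (ρ i).map j :=
  Iff.rfl

theorem Force.mp (h : Force (φ.imp ψ) Q ρ) (h' : Force φ Q ρ) : Force ψ Q ρ := by
  simpa using h Q (𝟙 Q) (by simpa using h')

theorem Force.inst (h : Force φ.all Q ρ) (x : El Q) : Force φ Q (cons x ρ) := by
  simpa using h Q (𝟙 Q) x

theorem force_and : Force (φ.and ψ) Q ρ ↔ Force φ Q ρ ∧ Force ψ Q ρ := by
  refine ⟨fun h => ⟨Force.reg fun S j => ?_, Force.reg fun S j => ?_⟩,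
    fun h S j H => (H.mp (h.1.map j)).mp (h.2.map j)⟩
  · by_contra H
    exact h S j fun T k a => absurd ⟨T, k, by simpa using a⟩ H
  · by_contra H
    exact h S j fun T k _ U l a => absurd ⟨U, k ≫ l, by simpa using a⟩ H

theorem force_iff : Force (φ.iff ψ) Q ρ ↔ ∀ S (j : Q ⟶ S),
    (Force φ S fun i => (ρ i).map j) ↔ Force ψ S fun i => (ρ i).map j := by
  rw [Fml.iff, force_and]
  exact ⟨fun h S j => ⟨h.1 S j, h.2 S j⟩, fun h => ⟨fun S j => (h S j).1, fun S j => (h S j).2⟩⟩

theorem Force.inl (h : Force φ Q ρ) : Force (φ.or ψ) Q ρ := fun _ j H => (H.mp (h.map j)).elim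

theorem Force.inr (h : Force ψ Q ρ) : Force (φ.or ψ) Q ρ := fun _ j _ => h.map j

theorem Force.or_elim (h : Force (φ.or ψ) Q ρ) : ∃ (T : C) (k : Q ⟶ T),
    (Force φ T fun i => (ρ i).map k) ∨ Force ψ T fun i => (ρ i).map k := by
  by_cases H : ∃ (T : C) (k : Q ⟶ T), Force φ T fun i => (ρ i).map k
  · obtain ⟨T, k, H⟩ := H
    exact ⟨T, k, Or.inl H⟩
  · exact ⟨Q, 𝟙 Q, Or.inr ((h.mp fun T k a => H ⟨T, k, a⟩).map _)⟩

theorem Force.exi (x : El Q) (h : Force φ Q (cons x ρ)) : Force φ.ex Q ρ := fun S j H =>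
  (H.inst (x.map j)).mp (by rw [← map_cons]; exact h.map j)

theorem Force.exe (h : Force φ.ex Q ρ) : ∃ (T : C) (k : Q ⟶ T) (x : El T),
    Force φ T (cons x fun i => (ρ i).map k) := by
  by_contra H
  refine h.mp fun S j x T k a => H ⟨T, j ≫ k, x.map k, ?_⟩
  rw [map_cons] at a
  simpa using a

theorem force_ball : Force (φ.imp ψ).all Q ρ ↔ ∀ S (j : Q ⟶ S) x,
    Force φ S (cons x fun i => (ρ i).map j) → Force ψ S (cons x fun i => (ρ i).map j) := by
  refine ⟨fun h S j x => (h S j x).mp, fun h S j x T k a => ?_⟩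
  rw [map_cons] at a ⊢
  simp only [El.map_map] at a ⊢
  exact h T _ _ a

theorem force_ball' (h : ∀ S (j : Q ⟶ S) x, Force φ S (cons x fun i => (ρ i).map j) →
    ∃ (T : C) (k : S ⟶ T), Force ψ T (cons (x.map k) fun i => (ρ i).map (j ≫ k))) :
    Force (φ.imp ψ).all Q ρ := by
  refine force_ball.2 fun S j x a => Force.reg fun T k => ?_
  have b := a.map k
  rw [map_cons] at b
  simp only [El.map_map] at b
  obtain ⟨U, l, c⟩ := h T _ _ b
  refine ⟨U, l, ?_⟩
  rw [map_cons]
  simpa using c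

theorem force_biff : Force (φ.iff ψ).all Q ρ ↔ ∀ S (j : Q ⟶ S) x,
    Force φ S (cons x fun i => (ρ i).map j) ↔ Force ψ S (cons x fun i => (ρ i).map j) := by
  refine ⟨fun h S j x => by simpa using force_iff.1 (h S j x) S (𝟙 S), fun h S j x => ?_⟩
  refine force_iff.2 fun T k => ?_
  rw [map_cons]
  simp only [El.map_map]
  exact h T _ _

/-- one step of the generic chain -/
theorem exists_step (φ : Fml) (l : List ℕ) (n : ℕ) (Q : C) (v : ℕ → El Q) :
    ∃ (T : C) (k : Q ⟶ T) (w : ℕ → El T), (∀ i, i ≠ n → w i = (v i).map k) ∧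
      (Force φ T (cons (w n) fun i => (v (l.getD i 0)).map k) ∨
        ∀ (S : C) (j : Q ⟶ S) x, ¬Force φ S (cons x fun i => (v (l.getD i 0)).map j)) := by
  by_cases h : ∃ (S : C) (j : Q ⟶ S) (x : El S),
      Force φ S (cons x fun i => (v (l.getD i 0)).map j)
  · obtain ⟨S, j, x, h⟩ := h
    exact ⟨S, j, Function.update (fun i => (v i).map j) n x,
      fun i e => Function.update_of_ne e _ _, Or.inl (by rwa [Function.update_self])⟩
  · exact ⟨Q, 𝟙 Q, v, fun i _ => by simp, Or.inr fun S j x a => h ⟨S, j, x, a⟩⟩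

theorem getD_cons (a : ℕ) (l : List ℕ) {α : Type*} (f : ℕ → α) :
    (fun i => f ((a :: l).getD i 0)) = cons (f a) fun i => f (l.getD i 0) := by
  funext i; cases i <;> rfl

theorem exists_model (Q0 : C) : ∃ (M : Type) (E : M → M → Prop), Nonempty M ∧
    ∀ φ : Fml, (∀ (Q : C) ρ, Force φ Q ρ) → ∀ v, Sat E φ v := by
  have : Nonempty Fml := ⟨.fls⟩
  obtain ⟨e, he⟩ := exists_surjective_nat (Fml × List ℕ)
  choose T k w hw hF using exists_step (C := C)
  let r : ℕ → Fml × List ℕ := fun n => e n.unpair.1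
  let s : ℕ → Σ Q : C, ℕ → El Q := fun n => Nat.rec
    ⟨Q0, fun _ => El.set Q0 PEmpty (fun i => i.elim) (fun i => i.elim) fun i => i.elim⟩
    (fun n x => ⟨T (r n).1 (r n).2 (n + 1) x.1 x.2, w (r n).1 (r n).2 (n + 1) x.1 x.2⟩) n
  let Q : ℕ → C := fun n => (s n).1
  let v : ∀ n, ℕ → El (Q n) := fun n => (s n).2
  let f : ∀ n, Q n ⟶ Q (n + 1) := fun n => k (r n).1 (r n).2 (n + 1) (Q n) (v n)
  have hv : ∀ n i, i ≤ n → v (n + 1) i = (v n i).map (f n) := fun n i h =>
    hw _ _ _ _ _ i (by omega)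
  have hs : ∀ n, Force (r n).1 (Q (n + 1))
      (cons (v (n + 1) (n + 1)) fun i => (v n ((r n).2.getD i 0)).map (f n)) ∨
      ∀ (S : C) (j : Q n ⟶ S) x,
        ¬Force (r n).1 S (cons x fun i => (v n ((r n).2.getD i 0)).map j) :=
    fun n => hF _ _ _ _ _
  have hl : ∀ l : List ℕ, ∃ N, ∀ i, l.getD i 0 ≤ N := fun l => ⟨l.sum, fun i => by
    rw [List.getD_eq_getElem?_getD]
    cases h : l[i]? with
    | none => exact Nat.zero_le _
    | some a => exact List.single_le_sum (fun _ _ => Nat.zero_le _) _ (List.mem_of_getElem? h)⟩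
  let F : Fml → List ℕ → Prop := fun φ l => ∀ᶠ n in atTop, Force φ (Q n) fun i => v n (l.getD i 0)
  have up : ∀ φ (l : List ℕ) n, (∀ i, l.getD i 0 ≤ n) →
      (Force φ (Q n) fun i => v n (l.getD i 0)) → F φ l := by
    intro φ l n h a
    refine eventually_atTop.2 ⟨n, fun m hm => ?_⟩
    induction m, hm using Nat.le_induction with
    | base => exact a
    | succ m hm ih =>
      simp only [fun i => hv m _ ((h i).trans hm)]
      exact ih.map _
  have meet : ∀ φ (l : List ℕ), (∃ a, F φ (a :: l)) ∨ ∀ᶠ n in atTop, ∀ (S : C) (j : Q n ⟶ S) x,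
      ¬Force φ S (cons x fun i => (v n (l.getD i 0)).map j) := by
    intro φ l
    obtain ⟨N, hN⟩ := hl l
    obtain ⟨a, ha⟩ := he (φ, l)
    have h1 : r (Nat.pair a N) = (φ, l) := by simp only [r, Nat.unpair_pair, ha]
    have h2 : ∀ i, l.getD i 0 ≤ Nat.pair a N := fun i => (hN i).trans (Nat.right_le_pair a N)
    have h3 := hs (Nat.pair a N)
    rw [h1] at h3
    rcases h3 with h3 | h3
    · refine Or.inl ⟨Nat.pair a N + 1, up φ _ (Nat.pair a N + 1) (fun i => ?_) ?_⟩
      · cases i with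
        | zero => exact le_rfl
        | succ i => exact (h2 i).trans (Nat.le_succ _)
      · rw [getD_cons]
        simp only [fun i => hv _ _ (h2 i)]
        exact h3
    · refine Or.inr (eventually_atTop.2 ⟨Nat.pair a N, fun m hm => ?_⟩)
      induction m, hm using Nat.le_induction with
      | base => exact h3
      | succ m hm ih =>
        intro S j x
        simp only [fun i => hv m _ ((h2 i).trans hm), El.map_map]
        exact ih S _ x
  let st : Setoid ℕ := ⟨fun a b => ∀ᶠ n in atTop, Eqv (v n a) (v n b),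
    fun a => Eventually.of_forall fun _ => Eqv.refl _, fun h => h.mono fun _ => Eqv.symm,
    fun h h' => (h.and h').mono fun _ e => e.1.trans e.2⟩
  let E : Quotient st → Quotient st → Prop := fun x y => ∃ a b, x = ⟦a⟧ ∧ y = ⟦b⟧ ∧
    ∀ᶠ n in atTop, Mem (v n a) (v n b)
  have truth : ∀ φ (l : List ℕ), Sat E φ (fun i => ⟦l.getD i 0⟧) ↔ F φ l := by
    intro φ
    induction φ with
    | mem i j =>
      intro l
      refine ⟨fun ⟨a, b, h1, h2, h⟩ => ?_, fun h => ⟨_, _, rfl, rfl, h⟩⟩
      filter_upwards [h, Quotient.exact h1, Quotient.exact h2] with n a1 a2 a3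
      exact (a1.congr_left a2).congr_right a3.symm
    | eq i j => exact fun l => ⟨fun h => Quotient.exact h, fun h => Quotient.sound h⟩
    | fls => exact fun l => ⟨False.elim, fun h => h.exists.choose_spec⟩
    | imp φ ψ ih ih' =>
      intro l
      simp only [Sat, ih, ih']
      refine ⟨fun h => ?_, fun h h' => (h.and h').mono fun n a => a.1.mp a.2⟩
      rcases meet ((φ.imp ψ).neg.ren Nat.succ) l with ⟨a, H⟩ | H
      · exfalso
        have H' : F (φ.imp ψ).neg l := H.mono fun n b => (force_ren.1 b :)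
        have h1 : F φ l := H'.mono fun n b => Force.reg fun S j => by
          by_contra c
          exact b S j fun U k d => absurd ⟨U, k, by simpa using d⟩ c
        obtain ⟨n, b1, b2⟩ := (H'.and (h h1)).exists
        exact b1.mp fun S j _ => b2.map j
      · refine H.mono fun n b => Force.reg fun S j => ?_
        by_contra c
        exact b S j ((v n 0).map j) (force_ren.2 fun U k d => c ⟨U, k, by simpa [cons] using d⟩)
    | all φ ih =>
      intro l
      constructor
      · intro h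
        rcases meet φ.neg l with ⟨a, H⟩ | H
        · have h1 := h ⟦a⟧
          rw [← getD_cons a l (fun a => (⟦a⟧ : Quotient st)), ih] at h1
          obtain ⟨n, b1, b2⟩ := (H.and h1).exists
          exact (b1.mp b2).elim
        · refine H.mono fun n b S j x => Force.reg fun U k => ?_
          by_contra c
          refine b U (j ≫ k) (x.map k) fun V m d => c ⟨V, m, ?_⟩
          rw [map_cons] at d ⊢
          simpa using d
      · intro h x
        obtain ⟨a, rfl⟩ := Quotient.exists_rep x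
        rw [← getD_cons a l (fun a => (⟦a⟧ : Quotient st)), ih]
        refine h.mono fun n b => ?_
        rw [getD_cons]
        exact b.inst _
  refine ⟨Quotient st, E, ⟨⟦0⟧⟩, fun φ h u => ?_⟩
  rw [sat_bd (v' := fun i => ⟦((List.range φ.bd).map fun i => (u i).out).getD i 0⟧) fun i hi => by
    simp [List.getD_eq_getElem?_getD, hi], truth]
  exact Eventually.of_forall fun n => h _ _

end Vale.Agent.P323
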