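import Vale.Agent.P323.Cup
import Vale.Agent.P323.Force

/-! Supports of names. -/

namespace Vale.Agent.P323

open Filter CategoryTheory El

namespace Cond

/-- `J` supports the name `y` -/
def Supp {Q : Cond} (J : Q.car) (y : El Q) : Prop :=
  ∀ R (i j : Q ⟶ R), (∀ t, t ≤ J → i t = j t) → Eqv (y.map i) (y.map j)

variable {Q R S : Cond}

theorem Supp.map {J : Q.car} {y : El Q} (h : Supp J y) (e : Q ⟶ S) : Supp (e J) (y.map e) :=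
  fun R i j H => by simpa using h R (e ≫ i) (e ≫ j) fun t ht => H _ ((le_iff e).2 ht)

theorem Supp.congr {J : Q.car} {y y' : El Q} (h : Supp J y) (e : Eqv y y') : Supp J y' :=
  fun R i j H => ((e.map i).symm.trans (h R i j H)).trans (e.map j)

theorem Supp.up {J J' : Q.car} {y : El Q} (h : Supp J y) (e : J ≤ J') : Supp J' y :=
  fun R i j H => h R i j fun t ht => H t (ht.trans e)

theorem supp_top {k : Q.car} (h : ∀ s, s ≤ k) (y : El Q) : Supp k y := fun _ i j H => by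
  rw [hom_ext (j := i) (k := j) fun a => H a (h a)]
  exact Eqv.refl _

theorem Supp.zig {a a' : Q.car} {y : El Q} (h : Supp a y) (h' : Supp a' y) (i1 i2 : Q ⟶ R)
    (e : ∀ t, t ≤ a ⊓ a' → i1 t = i2 t) (d : i1 a ⊓ i2 a ≤ i1 (a ⊓ a')) :
    ∃ (T : Cond) (k : R ⟶ T), Eqv (y.map (i1 ≫ k)) (y.map (i2 ≫ k)) := by
  obtain ⟨R1, ι, i3, b1, b2, -, b3⟩ := exists_am1 i1 a
  obtain ⟨T, κ, j, c1, c2, -⟩ := exists_am2 (φ := i2 ≫ ι) (φ' := i3) (m := a) (m' := a')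
    (fun t h1 h2 => by rw [comp_ap, ← e t (le_inf h1 h2), b1 t h1])
    (fun s => by
      rw [comp_ap, comp_ap, ← e _ le_rfl]
      rcases b3 s with ⟨s, rfl⟩ | ⟨t, rfl⟩
      · exact Or.inl ((b2 s a').trans_eq (by rw [inf_comm]))
      · refine Or.inr (le_trans ?_ ((le_iff ι).2 d))
        rw [map_inf]
        refine le_inf ?_ inf_le_right
        rw [inf_comm]
        exact (b2 _ _).trans ((le_iff ι).2 ((le_iff i1).2 inf_le_right)))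
  have q1 : Eqv (y.map (i2 ≫ ι ≫ κ)) (y.map j) := h _ _ _ fun t ht =>
    le_antisymm ((c1 _ _).2 (Or.inl (by rw [inf_eq_left.2 ht]; exact le_rfl)))
      ((c2 _ _).2 (Or.inl ⟨ht, le_rfl⟩))
  have q2 : Eqv (y.map (i3 ≫ κ)) (y.map j) := h' _ _ _ fun t ht =>
    le_antisymm ((c1 _ _).2 (Or.inr (by rw [inf_eq_left.2 ht]; exact le_rfl)))
      ((c2 _ _).2 (Or.inr ⟨ht, le_rfl⟩))
  have q3 : Eqv (y.map (i1 ≫ ι ≫ κ)) (y.map (i3 ≫ κ)) := h _ _ _ fun t ht =>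
    congrArg κ (b1 t ht).symm
  exact ⟨T, ι ≫ κ, (q3.trans q2).trans q1.symm⟩

theorem Supp.inf {a a' : Q.car} {y : El Q} (h : Supp a y) (h' : Supp a' y) : Supp (a ⊓ a') y := by
  intro R i j H
  refine Eqv.reg fun S g => ?_
  obtain ⟨R1, ι, κ, b1, b2, -, -⟩ := exists_am1 (𝟙 S) (g (i (a ⊓ a')))
  have b3 : ∀ t, t ≤ a ⊓ a' → κ (g (i t)) = ι (g (i t)) := fun t ht =>
    b1 _ ((le_iff g).2 ((le_iff i).2 ht))
  have b4 : ∀ s t, ι s ⊓ κ t ≤ ι (g (i (a ⊓ a'))) := fun s t =>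
    (b2 s t).trans ((le_iff ι).2 inf_le_right)
  obtain ⟨T, k, e1⟩ := h.zig h' (i ≫ g ≫ ι) (i ≫ g ≫ κ) (fun t ht => (b3 t ht).symm) (b4 _ _)
  obtain ⟨T', k', e2⟩ := h.zig h' (j ≫ g ≫ ι ≫ k) (i ≫ g ≫ κ ≫ k)
    (fun t ht => by simp only [comp_ap, b3 t ht, ← H t ht]) (by
      simp only [comp_ap]
      rw [← map_inf k, le_iff, ← H _ le_rfl]
      exact b4 _ _)
  refine ⟨T', ι ≫ k ≫ k', ?_⟩
  have e3 := e1.map k'
  simp only [El.map_map, Category.assoc] at e2 e3 ⊢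
  exact e3.trans e2.symm

/-- the sequence `c` generates the supports of `y` above `b` -/
def Gen (b : Q.car) (c : ℕ → Q.car) (y : El Q) : Prop :=
  Antitone c ∧ (∀ n, b ≤ c n ∧ Supp (c n) y) ∧
    ∀ S (j : Q ⟶ S) J, j b ≤ J → Supp J (y.map j) → ∃ n, j (c n) ≤ J

theorem Gen.map {b : Q.car} {c : ℕ → Q.car} {y : El Q} (h : Gen b c y) (e : Q ⟶ S) :
    Gen (e b) (fun n => e (c n)) (y.map e) :=
  ⟨(isE e).anti.2 h.1, fun n => ⟨(le_iff e).2 (h.2.1 n).1, (h.2.1 n).2.map e⟩,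
    fun T j J h1 h2 => h.2.2 T (e ≫ j) J h1 (by simpa using h2)⟩

theorem Gen.congr {b : Q.car} {c : ℕ → Q.car} {y y' : El Q} (h : Gen b c y) (e : Eqv y y') :
    Gen b c y' :=
  ⟨h.1, fun n => ⟨(h.2.1 n).1, (h.2.1 n).2.congr e⟩,
    fun T j J h1 h2 => h.2.2 T j J h1 (h2.congr (e.map j).symm)⟩

theorem Gen.le {b J : Q.car} {c : ℕ → Q.car} {y : El Q} (h : Gen b c y) (h1 : b ≤ J)
    (h2 : Supp J y) : ∃ n, c n ≤ J := h.2.2 Q (𝟙 Q) J h1 (by simpa using h2)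

theorem Gen.cof {b : Q.car} {c c' : ℕ → Q.car} {y : El Q} (h : Gen b c y) (h' : Gen b c' y) :
    Cof c c' :=
  ⟨fun n => h.le (h'.2.1 n).1 (h'.2.1 n).2, fun n => h'.le (h.2.1 n).1 (h.2.1 n).2⟩

theorem exists_dec (A B : ∀ R : Cond, (Q ⟶ R) → R.car → Prop)
    (hA : ∀ R g t R' (j : R ⟶ R'), A R g t → A R' (g ≫ j) (j t))
    (hB : ∀ R g t R' (j : R ⟶ R'), B R g t → B R' (g ≫ j) (j t)) :
    ∃ (R : Cond) (g : Q ⟶ R), ∀ t, (A R g t ∨ ∀ T (h : R ⟶ T), ¬A T (g ≫ h) (h t)) ∧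
      (B R g t ∨ ∀ T (h : R ⟶ T), ¬B T (g ≫ h) (h t)) := by
  have mono : ∀ A : ∀ R : Cond, (Q ⟶ R) → R.car → Prop,
      (∀ R g t R' (j : R ⟶ R'), A R g t → A R' (g ≫ j) (j t)) → ∀ R g t R' (j : R ⟶ R'),
      (A R g t ∨ ∀ T (h : R ⟶ T), ¬A T (g ≫ h) (h t)) →
      (A R' (g ≫ j) (j t) ∨ ∀ T (h : R' ⟶ T), ¬A T ((g ≫ j) ≫ h) (h (j t))) :=
    fun A hA R g t R' j h => h.imp (hA R g t R' j) fun h T k => by
      rw [Category.assoc]; exact h T (j ≫ k)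
  have dense : ∀ A : ∀ R : Cond, (Q ⟶ R) → R.car → Prop, ∀ R g t, ∃ (R' : Cond) (j : R ⟶ R'),
      (A R' (g ≫ j) (j t) ∨ ∀ T (h : R' ⟶ T), ¬A T ((g ≫ j) ≫ h) (h (j t))) := by
    intro A R g t
    by_cases h : ∃ (T : Cond) (h : R ⟶ T), A T (g ≫ h) (h t)
    · obtain ⟨T, k, h⟩ := h
      exact ⟨T, k, Or.inl h⟩
    · refine ⟨R, 𝟙 R, Or.inr fun T k e => h ⟨T, k, ?_⟩⟩
      simpa using e
  refine exists_all Q _ (fun R g t R' j h => ⟨mono A hA _ _ _ _ _ h.1, mono B hB _ _ _ _ _ h.2⟩)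
    fun R g t => ?_
  obtain ⟨R1, j1, h1⟩ := dense A R g t
  obtain ⟨R2, j2, h2⟩ := dense B R1 (g ≫ j1) (j1 t)
  have h3 := mono A hA _ _ _ _ j2 h1
  rw [Category.assoc] at h2 h3
  exact ⟨R2, j1 ≫ j2, h3, h2⟩

theorem exists_gen (b : Q.car) (y : El Q) :
    ∃ (S : Cond) (e : Q ⟶ S) (c : ℕ → S.car), Gen (e b) c (y.map e) := by
  obtain ⟨R0, j0, k, hk, -⟩ := exists_top Q
  let Φ : ∀ R : Cond, (R0 ⟶ R) → R.car → Prop := fun R g J =>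
    g (j0 b) ≤ J ∧ Supp J (y.map (j0 ≫ g))
  have hΦ : ∀ R g t R' (j : R ⟶ R'), Φ R g t → Φ R' (g ≫ j) (j t) := fun R g t R' j h =>
    ⟨(le_iff j).2 h.1, by simpa using h.2.map j⟩
  obtain ⟨R, g, H⟩ := exists_dec Φ (fun R g t => ∃ J, Φ R g J ∧ ¬t ≤ J) hΦ
    fun R g t R' j ⟨J, h1, h2⟩ => ⟨j J, hΦ _ _ _ _ _ h1, by simpa using h2⟩
  obtain ⟨u, hu⟩ := (Set.to_countable {J | Φ R g J}).exists_eq_range
    ⟨g k, (le_iff g).2 (hk _), by simpa using (supp_top hk (y.map j0)).map g⟩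
  have u1 : ∀ n, Φ R g (u n) := fun n => hu.ge ⟨n, rfl⟩
  let c : ℕ → R.car := fun n => Nat.rec (u 0) (fun n x => x ⊓ u (n + 1)) n
  have c1 : Antitone c := antitone_nat_of_succ_le fun n => inf_le_left
  have c2 : ∀ n, Φ R g (c n) := fun n => by
    induction n with
    | zero => exact u1 0
    | succ n ih => exact ⟨le_inf ih.1 (u1 _).1, ih.2.inf (u1 _).2⟩
  have c3 : ∀ J, Φ R g J → ∃ n, c n ≤ J := fun J hJ => by
    obtain ⟨n, rfl⟩ := hu.le hJ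
    cases n with
    | zero => exact ⟨0, le_rfl⟩
    | succ n => exact ⟨n + 1, inf_le_right⟩
  obtain ⟨S, j, D, hD⟩ := exists_prom R c c1
  refine ⟨S, j0 ≫ g ≫ j, fun n => j (c n), (isE j).anti.2 c1,
    fun n => hΦ _ _ _ _ j (c2 n), fun T h J h1 h2 => ?_⟩
  have hJ : Φ T (g ≫ j ≫ h) J := ⟨h1, by simpa using h2⟩
  rcases rule (map_mem h hD) J with a | ⟨i, a1, a2⟩ | ⟨n, i, a1, a2⟩
  · exact a
  · simp only [le_iff] at a1
    rcases (H (D i)).2 with ⟨J', b1, b2⟩ | b1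
    · obtain ⟨n, hn⟩ := c3 J' b1
      exact absurd ((a1 n).trans hn) b2
    · exact absurd ⟨J, hJ, a2⟩ (b1 T (j ≫ h))
  · simp only [le_iff] at a1
    rcases (H (D i)).1 with b1 | b1
    · obtain ⟨m, hm⟩ := c3 _ b1
      exact absurd hm (a1 m)
    · have b2 := hΦ _ _ _ _ (j ≫ h) (c2 n)
      exact absurd ⟨(le_inf hJ.1 b2.1).trans a2, (hJ.2.inf b2.2).up a2⟩ (b1 T (j ≫ h))

end Cond

end Vale.Agent.P323
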