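import Vale.Agent.P323.Pair
import Vale.Agent.P323.Supp

/-! Choice fails. -/

namespace Vale.Agent.P323

open CategoryTheory El

namespace Cond

theorem nac_core (Q : Cond) : ∃ A : El Q, (∀ S (j : Q ⟶ S) z, Mem z (A.map j) →
      ∃ (T : Cond) (k : S ⟶ T) (t : El T), Mem t (z.map k)) ∧
    ∀ S (j : Q ⟶ S) (c : El S), ¬∀ T (k : S ⟶ T) z, Mem z (A.map (j ≫ k)) →
      ∃ (U : Cond) (l : T ⟶ U) (t : El U), Ap (c.map (k ≫ l)) (z.map l) t ∧ Mem t (z.map l) ∧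
        ∀ V (m : U ⟶ V) t', Ap (c.map (k ≫ l ≫ m)) (z.map (l ≫ m)) t' → Eqv t' (t.map m) := by
  obtain ⟨nm, -, hnm⟩ := exists_ord (WellOrderingRel (α := ℝ)) Q
  choose dot hdot using fun (S : Cond) (g : Q ⟶ S) (s : S.car) => exists_name S
    (fun R h z => ∃ ξ, Rec.gf (fun _ => h s) ξ (fun _ => h s) ∈ R.recs ∧ (nm ξ).map (g ≫ h) = z)
    (fun R h => small_rng (fun ξ : ULift ℝ => (nm ξ.down).map (g ≫ h))
      fun _ ⟨ξ, _, e⟩ => ⟨⟨ξ⟩, e⟩)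
    (by rintro R h _ T k ⟨ξ, e, rfl⟩; exact ⟨ξ, map_mem k e, by simp⟩)
  have nat : ∀ S g s T (h : S ⟶ T), Eqv ((dot S g s).map h) (dot T (g ≫ h) (h s)) := by
    intro S g s T h
    refine Eqv.ext (fun U k z a => Mb.mem ?_) fun U k z a => Mb.mem ?_
    · rw [El.map_map, hdot] at a
      rw [hdot]
      simpa using a
    · rw [hdot] at a
      rw [El.map_map, hdot]
      simpa using a
  let Z : ∀ S : Cond, (Q ⟶ S) → S.car → El S := fun S g J =>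
    El.set S (Σ R, Σ a : S ⟶ R, ULift.{1} {s : R.car // ¬s ≤ a J}) (fun p => p.1) (fun p => p.2.1)
      fun p => dot p.1 (g ≫ p.2.1) p.2.2.down.1
  refine ⟨El.set Q (Σ S, Σ _ : Q ⟶ S, ULift.{1} S.car) (fun p => p.1) (fun p => p.2.1)
    fun p => Z p.1 p.2.1 p.2.2.down, fun S j z a => ?_, fun S j c H => ?_⟩
  · obtain ⟨T, k, _, a1, a2⟩ := a.ex'
    obtain ⟨⟨R, g, ⟨J⟩⟩, h, -, rfl⟩ := mb_set.1 a1
    obtain ⟨U, l, t, -, ht, -⟩ := exists_top T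
    refine ⟨U, k ≫ l, dot U (g ≫ h ≫ l) t, Mem.congr_right (Mb.mem ?_)
      (by simpa using (a2.map l).symm)⟩
    exact mb_set.2 ⟨⟨U, h ≫ l, ⟨t, ht _⟩⟩, 𝟙 U, by simp, El.map_id _⟩
  obtain ⟨S1, e, J, hJ, -⟩ := exists_top S
  obtain ⟨U, l, t, a1, a2, a3⟩ := H S1 e (Z S1 (j ≫ e) J)
    (Mb.mem (mb_set.2 ⟨⟨S1, j ≫ e, ⟨J⟩⟩, 𝟙 S1, by simp, El.map_id _⟩))
  obtain ⟨V, m, _, b1, b2⟩ := a2.ex'
  obtain ⟨⟨R, a, ⟨s, hs⟩⟩, h, b3, rfl⟩ := mb_set.1 b1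
  have b4 := b2.trans (nat _ _ _ _ h)
  have b5 : ¬h s ≤ (l ≫ m) J := by rw [← b3]; simpa using hs
  simp only [Category.assoc, b3] at b4
  generalize h s = s' at b4 b5
  obtain ⟨W, i1, i2, c1, -, c2, -⟩ := exists_am1 (𝟙 V) ((l ≫ m) J)
  have c3 : l ≫ m ≫ i2 = l ≫ m ≫ i1 := hom_ext fun x => c1 _ ((le_iff (l ≫ m)).2 (hJ x))
  have c4 := a3 W (m ≫ i1) (t.map (m ≫ i2)) (by
    have := a1.map (m ≫ i2)
    simp only [El.map_map, Category.assoc, c3] at this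
    exact this)
  have d1 := (b4.map i1).trans (nat _ _ _ _ i1)
  have d2 := (b4.map i2).trans (nat _ _ _ _ i2)
  simp only [El.map_map, Category.assoc, c3] at d1 d2
  have d3 := (d1.symm.trans c4.symm).trans d2
  have ne : ¬Cof (fun _ : ℕ => i2 s') fun _ => i1 s' := fun x =>
    b5 (c2 _ _ (x.1 0).choose_spec)
  obtain ⟨W1, n, ξ, -, hξ⟩ := exists_gf W (I := Bool) (fun _ => 0)
    (fun b _ => cond b (i1 s') (i2 s')) (fun b _ => cond b (i1 s') (i2 (s' ⊓ (l ≫ m) J)))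
    (fun b => ⟨fun _ _ _ => le_rfl, fun _ _ _ => le_rfl, fun _ => ⟨0, by
      cases b
      · exact (le_iff i2).2 inf_le_left
      · exact le_rfl⟩⟩)
    (by
      rintro (_ | _) (_ | _) - x
      exacts [rfl, absurd x ne, absurd x.symm ne, rfl])
  obtain ⟨W2, n2, _, e1, e2⟩ :=
    (((hdot _ _ _ _ n _).2 ⟨ξ 0, hξ true, rfl⟩).mem.congr_right (d3.map n)).ex'
  obtain ⟨η, e3, rfl⟩ := (hdot _ _ _ _ _ _).1 e1
  obtain rfl : ξ 0 = η := hnm _ _ _ _ (by simpa using e2)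
  obtain ⟨_, e4⟩ := (compat e3 (map_mem n2 (hξ false)) rfl (Cof.refl _)).exists
  exact b5 (inf_eq_left.1 (inj (i2 ≫ n ≫ n2) e4).symm)

end Cond

end Vale.Agent.P323
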