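import Vale.Agent.P323.Pair
import Vale.Agent.P323.Supp

/-! The Partition Principle is forced. -/

namespace Vale.Agent.P323

open CategoryTheory El

theorem exists_isInj {C : Type 1} [Category.{0} C] {P : C} {Γ : Type 2} (X Y : El P)
    (Re : Γ → ∀ S : C, (P ⟶ S) → El S → El S → Prop)
    (mono : ∀ γ S g y x T (k : S ⟶ T), Re γ S g y x → Re γ T (g ≫ k) (y.map k) (x.map k))
    (congr : ∀ γ S g y x y' x', Eqv y y' → Eqv x x' → Re γ S g y x → Re γ S g y' x')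
    (mem : ∀ γ S g y x, Re γ S g y x → Mem x (X.map g))
    (dense : ∀ S g y, Mem y (Y.map g) → ∃ (γ : Γ) (T : C) (k : S ⟶ T) (x : El T),
      Re γ T (g ≫ k) (y.map k) x)
    (func : ∀ γ S g y x x', Re γ S g y x → Re γ S g y x' → Eqv x x')
    (inj : ∀ γ γ' S g y y' x, Re γ S g y x → Re γ' S g y' x → Eqv y y') :
    ∃ L, IsInj X Y L := by
  refine ⟨fun S g y x => ∃ γ, Re γ S g y x ∧ ∀ γ', WellOrderingRel γ' γ →
    ∀ T (h : S ⟶ T) x', ¬Re γ' T (g ≫ h) (y.map h) x', ?_, ?_, ?_, ?_, ?_⟩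
  · rintro S g y x T k ⟨γ, a, b⟩
    exact ⟨γ, mono _ _ _ _ _ _ _ a, fun γ' e U h x' => by simpa using b γ' e U (k ≫ h) x'⟩
  · rintro S g y x y' x' e e' ⟨γ, a, b⟩
    exact ⟨γ, congr _ _ _ _ _ _ _ e e' a, fun γ' r U h x'' c =>
      b γ' r U h x'' (congr _ _ _ _ _ _ _ (e.map h).symm (Eqv.refl _) c)⟩
  · intro S g y a
    obtain ⟨γ, ⟨T, k, x, b⟩, c⟩ := (IsWellFounded.wf (r := WellOrderingRel)).has_min
      {γ | ∃ (T : C) (k : S ⟶ T) (x : El T), Re γ T (g ≫ k) (y.map k) x} (dense S g y a)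
    exact ⟨T, k, x, mem _ _ _ _ _ b, γ, b, fun γ' r U h x' d =>
      c γ' ⟨U, k ≫ h, x', by simpa using d⟩ r⟩
  · rintro S g y x x' ⟨γ, a, b⟩ ⟨γ', a', b'⟩
    rcases trichotomous_of WellOrderingRel γ γ' with r | rfl | r
    · exact absurd (by simpa using a) (b' γ r S (𝟙 S) x)
    · exact func _ _ _ _ _ _ a a'
    · exact absurd (by simpa using a') (b γ' r S (𝟙 S) x')
  · rintro S g y y' x ⟨γ, a, -⟩ ⟨γ', a', -⟩
    exact inj _ _ _ _ _ _ _ a a'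

namespace Cond

variable {Q S : Cond}

theorem Full.eqv (h : Full Q) {s : Q.car} {x : El Q} (hs : Supp s x) {i j : Q ⟶ S}
    (e : i s = j s) : Eqv (x.map i) (x.map j) := hs S i j (h.agree e)

/-- a generating sequence carrying a label -/
def MG (b : Q.car) (c : ℕ → Q.car) (x : El Q) : Prop := Gen b c x ∧ ∃ ξ, Rec.gf c ξ c ∈ Q.recs

theorem MG.map {b : Q.car} {c : ℕ → Q.car} {x : El Q} (h : MG b c x) (e : Q ⟶ S) :
    MG (e b) (fun n => e (c n)) (x.map e) :=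
  ⟨h.1.map e, let ⟨ξ, a⟩ := h.2; ⟨ξ, map_mem e a⟩⟩

theorem exists_mg (b : Q.car) (x : El Q) :
    ∃ (S : Cond) (e : Q ⟶ S) (c : ℕ → S.car), MG (e b) c (x.map e) := by
  obtain ⟨R, e, c, h⟩ := exists_gen b x
  obtain ⟨S, j, ξ, -, h'⟩ := exists_gf1 R c c h.1 h.1 (Cof.refl c).1
  exact ⟨S, e ≫ j, fun n => j (c n), by simpa using h.map j, ξ, h'⟩

theorem MG.eqv {b : Q.car} {c : ℕ → Q.car} {x : El Q} (h : MG b c x) (hF : Full Q) {i j : Q ⟶ S}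
    (e : Cof (fun n => i (c n)) fun n => j (c n)) : Eqv (x.map i) (x.map j) := by
  obtain ⟨ξ, a⟩ := h.2
  obtain ⟨n, hn⟩ := gf_eq a e
  exact hF.eqv (h.1.2.1 n).2 hn

/-- `σ` defines `x` over `a` -/
def Dfn (σ : Σ R : Cond, R.car × (ℕ → R.car) × El R) (S : Cond) (a : S.car) (x : El S) : Prop :=
  Full σ.1 ∧ MG σ.2.1 σ.2.2.1 σ.2.2.2 ∧ ∃ j : σ.1 ⟶ S, j σ.2.1 = a ∧ Eqv x (σ.2.2.2.map j)

theorem Dfn.map {σ} {a : Q.car} {x : El Q} (h : Dfn σ Q a x) (e : Q ⟶ S) {x' : El S}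
    (e' : Eqv x' (x.map e)) : Dfn σ S (e a) x' := by
  obtain ⟨h1, h2, j, rfl, h3⟩ := h
  exact ⟨h1, h2, j ≫ e, rfl, e'.trans (by simpa using h3.map e)⟩

/-- `x` has its least possible definition over `a` -/
def NF (a : Q.car) (x : El Q) : Prop := ∃ σ, Dfn σ Q a x ∧ ∀ σ', WellOrderingRel σ' σ →
  ∀ T (h : Q ⟶ T), ¬Dfn σ' T (h a) (x.map h)

theorem NF.map {a : Q.car} {x : El Q} (h : NF a x) (e : Q ⟶ S) : NF (e a) (x.map e) := by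
  obtain ⟨σ, h1, h2⟩ := h
  exact ⟨σ, h1.map e (Eqv.refl _), fun σ' r T k => by simpa using h2 σ' r T (e ≫ k)⟩

theorem exists_nf (a : Q.car) (x : El Q) : ∃ (S : Cond) (e : Q ⟶ S), NF (e a) (x.map e) := by
  obtain ⟨R, e, c, h⟩ := exists_mg a x
  obtain ⟨R', e', hF⟩ := exists_full R
  obtain ⟨σ, ⟨T, k, b⟩, d⟩ := (IsWellFounded.wf (r := WellOrderingRel)).has_min
    {σ | ∃ (T : Cond) (k : Q ⟶ T), Dfn σ T (k a) (x.map k)}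
    ⟨⟨R', e' (e a), fun n => e' (c n), (x.map e).map e'⟩, R', e ≫ e', hF, h.map e', 𝟙 R', rfl,
      by simpa using Eqv.refl _⟩
  exact ⟨T, k, σ, b, fun σ' r U l f => d σ' ⟨U, k ≫ l, by simpa using f⟩ r⟩

theorem NF.eqv {a : Q.car} {x x' : El Q} {d : ℕ → Q.car} (h : NF a x) (h' : NF a x')
    (g : Gen a d x) (g' : Gen a d x') (k : Q ⟶ S) (e : Eqv (x.map k) (x'.map k)) : Eqv x x' := by
  obtain ⟨σ, h1, h2⟩ := h
  obtain ⟨σ', h1', h2'⟩ := h'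
  rcases trichotomous_of WellOrderingRel σ σ' with r | rfl | r
  · exact absurd (h1.map k e.symm) (h2' σ r S k)
  · obtain ⟨a1, a2, j, a3, a4⟩ := h1
    obtain ⟨-, -, j', a3', a4'⟩ := h1'
    have b := (a2.1.map j).congr a4.symm
    have b' := (a2.1.map j').congr a4'.symm
    rw [a3] at b
    rw [a3'] at b'
    exact (a4.trans (a2.eqv a1 ((b.cof g).trans (g'.cof b')))).trans a4'.symm
  · exact absurd (h1'.map k e) (h2 σ' r S k)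

theorem cup_bel {k : Q.car} {y w : ℕ → Q.car} {l : ℝ} (h : Rec.cup k y w l ∈ Q.recs)
    {i j : Q ⟶ S} (e : i k = j k) (b : Bel (fun n => i (y n)) fun n => j (y n)) :
    Bel (fun n => i (w n)) fun n => j (w n) := fun n => by
  obtain ⟨-, -, a1, a2⟩ := good h
  obtain ⟨p, hp⟩ := a2 n
  obtain ⟨m, hm⟩ := b p
  exact rule (map_mem i h) (j (w n)) (e.trans_le ((le_iff j).2 (a1 n)))
    ⟨m, hm.trans ((le_iff j).2 hp)⟩

theorem exists_amk {P : Cond} {a k : P.car} (hp : Rec.pair a k ∈ P.recs) (κ : Key P) (l : ℝ) :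
    ∃ (W : Cond) (i j : ofNat κ.1 ⟶ W), ∀ x y : El (ofNat κ.1), Gen (κ.2.1 k) κ.2.2.1 y →
      Gen (κ.2.1 a) κ.2.2.2 x → (∀ n, ¬κ.2.2.2 n ≤ κ.2.1 a) →
      (∀ t, t ≤ κ.2.1 a → i t = j t) ∧
      Rec.cup (i (κ.2.1 k)) (fun n => j (κ.2.2.2 n)) (fun n => i (κ.2.2.1 n)) l ∈ W.recs ∧
      ∃ ξ, Rec.gf (fun n => i (κ.2.2.1 n)) ξ (fun n => j (κ.2.2.2 n)) ∈ W.recs := by
  by_cases h : ∃ x y : El (ofNat κ.1), Gen (κ.2.1 k) κ.2.2.1 y ∧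
      Gen (κ.2.1 a) κ.2.2.2 x ∧ ∀ n, ¬κ.2.2.2 n ≤ κ.2.1 a
  · obtain ⟨x, y, h1, h2, h3⟩ := h
    obtain ⟨W, i, j, a1, a2⟩ := exists_cup (map_mem κ.2.1 hp) h1.1 (fun n => (h1.2.1 n).1) h2.1
      (fun n => (h2.2.1 n).1) h3 l
    obtain ⟨W', e, ξ, -, a3⟩ := exists_gf1 W _ _ (good a2).2.1 (good a2).1 (good a2).2.2.2
    exact ⟨W', i ≫ e, j ≫ e, fun _ _ _ _ _ =>
      ⟨fun t ht => congrArg e (a1 t ht), map_mem e a2, ξ, a3⟩⟩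
  · exact ⟨_, 𝟙 _, 𝟙 _, fun x y h1 h2 h3 => absurd ⟨x, y, h1, h2, h3⟩ h⟩

theorem pp_core1 {P : Cond} {a k : P.car} (hp : Rec.pair a k ∈ P.recs) (X Y f : El P)
    (hX : Supp a X)
    (H1 : ∀ S (j : P ⟶ S) x y y', Mem x (X.map j) → Ap (f.map j) x y → Ap (f.map j) x y' →
      Eqv y y')
    (H2 : ∀ S (j : P ⟶ S) y, Mem y (Y.map j) → ∃ (T : Cond) (k : S ⟶ T) (x : El T),
      Mem x (X.map (j ≫ k)) ∧ Ap (f.map (j ≫ k)) x (y.map k)) : ∃ L, IsInj X Y L := by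
  obtain ⟨tag, htag⟩ := exists_tag P
  choose W i j hW using fun κ => exists_amk hp κ (tag κ)
  let V : ∀ κ : Key P, El (ofNat κ.1) → El (ofNat κ.1) → Prop := fun κ x y =>
    Full (ofNat κ.1) ∧ MG (κ.2.1 k) κ.2.2.1 y ∧ MG (κ.2.1 a) κ.2.2.2 x ∧
      (∀ n, ¬κ.2.2.2 n ≤ κ.2.1 a) ∧ Mem x (X.map κ.2.1) ∧ Ap (f.map κ.2.1) x y ∧ NF (κ.2.1 a) x
  have G : ∀ κ x0 y0 S (h : W κ ⟶ S), V κ x0 y0 →
      Gen ((κ.2.1 ≫ i κ ≫ h) k) (fun n => h (i κ (κ.2.2.1 n))) (y0.map (i κ ≫ h)) ∧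
      Gen ((κ.2.1 ≫ i κ ≫ h) a) (fun n => h (j κ (κ.2.2.2 n))) (x0.map (j κ ≫ h)) := by
    rintro κ x0 y0 S h ⟨v1, v2, v3, v4, -⟩
    refine ⟨v2.1.map (i κ ≫ h), ?_⟩
    simp only [comp_ap, (hW κ _ _ v2.1 v3.1 v4).1 _ le_rfl]
    exact v3.1.map (j κ ≫ h)
  refine exists_isInj
    (Γ := (Σ Q : Cond, (P ⟶ Q) × El Q) ⊕ Σ κ : Key P, El (ofNat κ.1) × El (ofNat κ.1)) X Y
    (fun γ S g y x => match γ with
      | .inl γ => Full γ.1 ∧ Supp (γ.2.1 a) γ.2.2 ∧ Mem x (X.map g) ∧ Ap (f.map g) x y ∧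
          ∃ h : γ.1 ⟶ S, γ.2.1 ≫ h = g ∧ Eqv x (γ.2.2.map h)
      | .inr γ => V γ.1 γ.2.1 γ.2.2 ∧ ∃ h : W γ.1 ⟶ S, γ.1.2.1 ≫ i γ.1 ≫ h = g ∧
          Eqv y (γ.2.2.map (i γ.1 ≫ h)) ∧ Eqv x (γ.2.1.map (j γ.1 ≫ h))) ?_ ?_ ?_ ?_ ?_ ?_
  · rintro (γ | γ) S g y x T l
    · rintro ⟨a1, a2, a3, a4, h, rfl, a5⟩
      exact ⟨a1, a2, a3.map' l, a4.map' l, h ≫ l, by simp, by simpa using a5.map l⟩
    · rintro ⟨a1, h, rfl, a2, a3⟩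
      exact ⟨a1, h ≫ l, by simp, by simpa using a2.map l, by simpa using a3.map l⟩
  · rintro (γ | γ) S g y x y' x' e e'
    · rintro ⟨a1, a2, a3, a4, h, a5, a6⟩
      exact ⟨a1, a2, a3.congr_left e'.symm, a4.congr e' e, h, a5, e'.symm.trans a6⟩
    · rintro ⟨a1, h, a2, a3, a4⟩
      exact ⟨a1, h, a2, e.symm.trans a3, e'.symm.trans a4⟩
  · rintro (γ | ⟨κ, x0, y0⟩) S g y x
    · exact fun h => h.2.2.1
    · rintro ⟨⟨v1, v2, v3, v4, v5, -⟩, h, rfl, -, a⟩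
      refine ((v5.map' (j κ ≫ h)).congr_left a).congr_right (hX _ _ _ fun t ht => ?_)
      simp only [comp_ap, (hW κ _ _ v2.1 v3.1 v4).1 _ ((le_iff κ.2.1).2 ht)]
  · intro S g y hy
    obtain ⟨T, l, x, a1, a2⟩ := H2 S g y hy
    by_cases h : ∃ (U : Cond) (m : T ⟶ U), Supp ((g ≫ l ≫ m) a) (x.map m)
    · obtain ⟨U, m, h⟩ := h
      obtain ⟨U', n, hF⟩ := exists_full U
      exact ⟨.inl ⟨U', g ≫ l ≫ m ≫ n, x.map (m ≫ n)⟩, U', l ≫ m ≫ n, x.map (m ≫ n), hF,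
        by simpa using h.map n, by simpa using a1.map' (m ≫ n), by simpa using a2.map' (m ≫ n),
        𝟙 U', by simp, by simpa using Eqv.refl _⟩
    · obtain ⟨S1, m1, d, b1⟩ := exists_mg ((g ≫ l) a) x
      obtain ⟨S2, m2, c, b2⟩ := exists_mg ((g ≫ l ≫ m1) k) (y.map (l ≫ m1))
      obtain ⟨S3, m3, b3⟩ := exists_nf ((g ≫ l ≫ m1 ≫ m2) a) (x.map (m1 ≫ m2))
      obtain ⟨S4, m4, b4⟩ := exists_full S3
      obtain ⟨σ, m5, b5⟩ := exists_nat S4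
      let κ : Key P := ⟨σ, g ≫ l ≫ m1 ≫ m2 ≫ m3 ≫ m4 ≫ m5, fun n => (m3 ≫ m4 ≫ m5) (c n),
        fun n => (m2 ≫ m3 ≫ m4 ≫ m5) (d n)⟩
      refine ⟨.inr ⟨κ, x.map (m1 ≫ m2 ≫ m3 ≫ m4 ≫ m5), y.map (l ≫ m1 ≫ m2 ≫ m3 ≫ m4 ≫ m5)⟩,
        W κ, l ≫ m1 ≫ m2 ≫ m3 ≫ m4 ≫ m5 ≫ i κ, _, ⟨b4.map b5, ?_, ?_, fun n e => h ⟨S1, m1, ?_⟩,
          ?_, ?_, ?_⟩, 𝟙 _, by simp [κ], by simpa using Eqv.refl _, Eqv.refl _⟩
      · simpa [κ] using b2.map (m3 ≫ m4 ≫ m5)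
      · simpa [κ] using b1.map (m2 ≫ m3 ≫ m4 ≫ m5)
      · exact (b1.1.2.1 n).2.up (by simpa [κ] using e)
      · simpa [κ] using a1.map' (m1 ≫ m2 ≫ m3 ≫ m4 ≫ m5)
      · simpa [κ] using a2.map' (m1 ≫ m2 ≫ m3 ≫ m4 ≫ m5)
      · simpa [κ] using b3.map (m4 ≫ m5)
  · rintro (γ | ⟨κ, x0, y0⟩) S g y x x'
    · rintro ⟨a1, a2, -, -, h, a3, a4⟩ ⟨-, -, -, -, h', a3', a4'⟩
      refine (a4.trans (a1.eqv a2 ?_)).trans a4'.symm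
      rw [← comp_ap, ← comp_ap, a3, a3']
    · rintro ⟨v, h, a1, a2, a3⟩ ⟨-, h', a1', a2', a3'⟩
      have b := (G κ x0 y0 S h v).1.congr a2.symm
      have b' := (G κ x0 y0 S h' v).1.congr a2'.symm
      rw [a1] at b
      rw [a1'] at b'
      obtain ⟨v1, v2, v3, v4, -⟩ := v
      obtain ⟨-, -, ξ, c⟩ := hW κ _ _ v2.1 v3.1 v4
      obtain ⟨n, hn⟩ := gf_eq c (b.cof b')
      exact (a3.trans (v1.eqv (i := j κ ≫ h) (j := j κ ≫ h') (v3.1.2.1 n).2 hn)).trans a3'.symm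
  · have key : ∀ (γ : Σ Q : Cond, (P ⟶ Q) × El Q) κ x0 y0 S (h : γ.1 ⟶ S) (h' : W κ ⟶ S) x,
        Supp (γ.2.1 a) γ.2.2 → γ.2.1 ≫ h = κ.2.1 ≫ i κ ≫ h' → Eqv x (γ.2.2.map h) → V κ x0 y0 →
        ¬Eqv x (x0.map (j κ ≫ h')) := by
      intro γ κ x0 y0 S h h' x a1 a2 a3 v a4
      have b := (a1.map h).congr (a3.symm.trans a4)
      rw [← comp_ap, a2] at b
      obtain ⟨n, hn⟩ := (G κ x0 y0 S h' v).2.le le_rfl b
      obtain ⟨v1, v2, v3, v4, -⟩ := v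
      simp only [comp_ap, (hW κ _ _ v2.1 v3.1 v4).1 _ le_rfl, le_iff] at hn
      exact v4 n hn
    rintro (γ | ⟨κ, x0, y0⟩) (γ' | ⟨κ', x0', y0'⟩) S g y y' x
    · exact fun h h' => H1 S g x y y' h.2.2.1 h.2.2.2.1 h'.2.2.2.1
    · rintro ⟨-, a1, -, -, h, a2, a3⟩ ⟨v, h', b1, -, b2⟩
      exact absurd b2 (key γ κ' x0' y0' S h h' x a1 (a2.trans b1.symm) a3 v)
    · rintro ⟨v, h', b1, -, b2⟩ ⟨-, a1, -, -, h, a2, a3⟩
      exact absurd b2 (key γ' κ x0 y0 S h h' x a1 (a2.trans b1.symm) a3 v)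
    · rintro ⟨v, h, a1, a2, a3⟩ ⟨v', h', a1', a2', a3'⟩
      have b := (G κ x0 y0 S h v).2.congr a3.symm
      have b' := (G κ' x0' y0' S h' v').2.congr a3'.symm
      rw [a1] at b
      rw [a1'] at b'
      have c := b.cof b'
      obtain ⟨v1, v2, v3, v4, v5, v6, v7⟩ := v
      obtain ⟨v1', v2', v3', v4', v5', v6', v7'⟩ := v'
      have d := (hW κ _ _ v2.1 v3.1 v4).2.1
      have e : h (i κ (κ.2.1 k)) = h' (i κ' (κ'.2.1 k)) :=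
        congrArg (fun z : P ⟶ S => z k) (a1.trans a1'.symm)
      obtain rfl : κ = κ' := htag (compat (map_mem h d)
        (map_mem h' (hW κ' _ _ v2'.1 v3'.1 v4').2.1) e c)
      have q1 : Eqv x0 x0' := v7.eqv v7' v3.1 v3'.1 (j κ ≫ h')
        (((v3.eqv v1 (i := j κ ≫ h) (j := j κ ≫ h') c).symm.trans a3.symm).trans a3')
      have q2 : Eqv y0 y0' := H1 _ _ x0 _ _ v5 v6 (v6'.congr q1.symm (Eqv.refl _))
      have q3 := v2.eqv v1 (i := i κ ≫ h) (j := i κ ≫ h') ⟨cup_bel d e c.1, cup_bel d e.symm c.2⟩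
      exact ((a2.trans q3).trans (q2.map _)).trans a2'.symm

theorem pp_core (P : Cond) (X Y f : El P)
    (H1 : ∀ S (j : P ⟶ S) x y y', Mem x (X.map j) → Ap (f.map j) x y → Ap (f.map j) x y' →
      Eqv y y')
    (H2 : ∀ S (j : P ⟶ S) y, Mem y (Y.map j) → ∃ (T : Cond) (k : S ⟶ T) (x : El T),
      Mem x (X.map (j ≫ k)) ∧ Ap (f.map (j ≫ k)) x (y.map k)) :
    ∃ (P' : Cond) (e : P ⟶ P') (L : _), IsInj (X.map e) (Y.map e) L := by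
  obtain ⟨P0, e0, a, ha, -⟩ := exists_top P
  obtain ⟨P', e1, k, hp⟩ := exists_pair P0 a
  refine ⟨P', e0 ≫ e1, pp_core1 hp _ _ (f.map (e0 ≫ e1))
    (by simpa using (supp_top ha (X.map e0)).map e1) (fun S j => ?_) fun S j => ?_⟩
  · simpa using H1 S (e0 ≫ e1 ≫ j)
  · simpa using H2 S (e0 ≫ e1 ≫ j)

/-- a condition -/
def base : Cond := ofNat ⟨inferInstance, ∅, Set.countable_empty, fun _ h => h.elim,
  fun _ h => h.elim, fun _ h => h.elim⟩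

end Cond

end Vale.Agent.P323
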