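import Vale.Agent.P323.ZF

/-! Ordered pairs and functions; reduction of PP and of the failure of AC. -/

namespace Vale.Agent.P323

open CategoryTheory El Fml

variable {C : Type 1} [Category.{0} C] {Q S : C}

/-- unordered pair -/
def upair (x y : El Q) : El Q :=
  El.set Q (ULift Bool) (fun _ => Q) (fun _ => 𝟙 Q) fun b => cond b.down x y

theorem mb_upair {x y : El Q} {j : Q ⟶ S} {z : El S} :
    Mb z ((upair x y).map j) ↔ z = x.map j ∨ z = y.map j := by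
  simp only [upair, mb_set, Category.id_comp]
  refine ⟨?_, ?_⟩
  · rintro ⟨⟨_ | _⟩, _, rfl, rfl⟩
    exacts [Or.inr rfl, Or.inl rfl]
  · rintro (rfl | rfl)
    exacts [⟨⟨true⟩, j, rfl, rfl⟩, ⟨⟨false⟩, j, rfl, rfl⟩]

theorem mem_upair_l {x y : El Q} {j : Q ⟶ S} {z : El S} (h : Eqv z (x.map j)) :
    Mem z ((upair x y).map j) := (mb_upair.2 (Or.inl rfl)).mem.congr_left h

theorem mem_upair_r {x y : El Q} {j : Q ⟶ S} {z : El S} (h : Eqv z (y.map j)) :
    Mem z ((upair x y).map j) := (mb_upair.2 (Or.inr rfl)).mem.congr_left h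

theorem mem_upair_ex {x y : El Q} {j : Q ⟶ S} {z : El S} (h : Mem z ((upair x y).map j)) :
    ∃ (T : C) (k : S ⟶ T), Eqv (z.map k) (x.map (j ≫ k)) ∨ Eqv (z.map k) (y.map (j ≫ k)) := by
  obtain ⟨T, k, w, a, b⟩ := h.ex'
  rcases mb_upair.1 a with rfl | rfl
  exacts [⟨T, k, Or.inl b⟩, ⟨T, k, Or.inr b⟩]

theorem upair_map {x y : El Q} {j : Q ⟶ S} {x' y' : El S} (h : Eqv (x.map j) x')
    (h' : Eqv (y.map j) y') : Eqv ((upair x y).map j) (upair x' y') := by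
  refine Eqv.ext (fun T k z a => ?_) fun T k z a => ?_
  · rw [El.map_map] at a
    rcases mb_upair.1 a with rfl | rfl
    · exact mem_upair_l (by simpa using h.map k)
    · exact mem_upair_r (by simpa using h'.map k)
  · rw [El.map_map]
    rcases mb_upair.1 a with rfl | rfl
    · exact mem_upair_l (by simpa using (h.map k).symm)
    · exact mem_upair_r (by simpa using (h'.map k).symm)

/-- ordered pair -/
def op (x y : El Q) : El Q := upair (upair x x) (upair x y)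

theorem op_map {x y : El Q} {j : Q ⟶ S} {x' y' : El S} (h : Eqv (x.map j) x')
    (h' : Eqv (y.map j) y') : Eqv ((op x y).map j) (op x' y') :=
  upair_map (upair_map h h) (upair_map h h')

theorem op_congr {x y x' y' : El Q} (h : Eqv x x') (h' : Eqv y y') : Eqv (op x y) (op x' y') := by
  simpa using op_map (j := 𝟙 Q) (by simpa using h) (by simpa using h')

theorem eqv_of_sing {x : El Q} {j : Q ⟶ S} {z : El S} (h : Mem z ((upair x x).map j)) :
    Eqv z (x.map j) := Eqv.reg fun T k => by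
  obtain ⟨U, l, a⟩ := mem_upair_ex (h.map' k)
  exact ⟨U, l, by simpa using a⟩

theorem op_inj_aux {x y x' y' : El Q} (h : Eqv (op x y) (op x' y')) : Eqv x' x ∧
    ∀ S (j : Q ⟶ S), ∃ (T : C) (k : S ⟶ T), Eqv (y.map (j ≫ k)) (x'.map (j ≫ k)) ∨
      Eqv (y.map (j ≫ k)) (y'.map (j ≫ k)) := by
  refine ⟨Eqv.reg fun S j => ?_, fun S j => ?_⟩
  · obtain ⟨T, k, a | a⟩ :=
      mem_upair_ex ((mem_upair_l (Eqv.refl ((upair x x).map j))).congr_right (h.map j))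
    all_goals
      rw [El.map_map] at a
      exact ⟨T, k, eqv_of_sing ((mem_upair_l (Eqv.refl _)).congr_right a.symm)⟩
  · obtain ⟨T, k, a | a⟩ :=
      mem_upair_ex ((mem_upair_r (Eqv.refl ((upair x y).map j))).congr_right (h.map j))
    all_goals
      rw [El.map_map] at a
      obtain ⟨U, l, b⟩ := mem_upair_ex ((mem_upair_r (Eqv.refl _)).congr_right a)
      refine ⟨U, k ≫ l, ?_⟩
      simp only [El.map_map, Category.assoc] at b
      tauto

theorem op_inj {x y x' y' : El Q} (h : Eqv (op x y) (op x' y')) : Eqv x x' ∧ Eqv y y' := by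
  obtain ⟨a1, a2⟩ := op_inj_aux h
  obtain ⟨b1, b2⟩ := op_inj_aux h.symm
  refine ⟨b1, Eqv.reg fun S j => ?_⟩
  obtain ⟨T, k, c | c⟩ := a2 S j
  · obtain ⟨U, l, d | d⟩ := b2 T (j ≫ k)
    · refine ⟨U, k ≫ l, ?_⟩
      have c1 := c.map l
      simp only [El.map_map, Category.assoc] at c1 d
      exact (c1.trans (a1.map _)).trans d.symm
    · exact ⟨U, k ≫ l, by simpa using d.symm⟩
  · exact ⟨T, k, c⟩

/-- the pair `(x, y)` is forced into `f` -/
def Ap (f x y : El Q) : Prop := Mem (op x y) f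

theorem Ap.map {f x y : El Q} (h : Ap f x y) (j : Q ⟶ S) : Ap (f.map j) (x.map j) (y.map j) :=
  (Mem.map h j).congr_left (op_map (Eqv.refl _) (Eqv.refl _)).symm

theorem Ap.map' {T : C} {f : El Q} {j : Q ⟶ S} {x y : El S} (h : Ap (f.map j) x y) (k : S ⟶ T) :
    Ap (f.map (j ≫ k)) (x.map k) (y.map k) := by simpa using h.map k

theorem Ap.congr {f x y x' y' : El Q} (h : Ap f x y) (e : Eqv x x') (e' : Eqv y y') : Ap f x' y' :=
  Mem.congr_left h (op_congr e e').symm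

theorem force_desc_iff {ψ : Fml} {ρ : ℕ → El Q} {a : ℕ} {w : El Q}
    (h : ∀ S (j : Q ⟶ S) t, Force ψ S (cons t fun i => (ρ i).map j) ↔ Mem t (w.map j)) :
    Force ((mem 0 (a + 1)).iff ψ).all Q ρ ↔ Eqv (ρ a) w := by
  rw [force_biff]
  simp only [h]
  exact ⟨fun e => Eqv.ext (fun S j t b => (e S j t).1 b.mem) fun S j t b => (e S j t).2 b.mem,
    fun e S j t => ⟨fun b => Mem.congr_right b (e.map j), fun b => b.congr_right (e.map j).symm⟩⟩

theorem force_or_mem {φ ψ : Fml} {P : C} {g : P ⟶ Q} {ρ : ℕ → El Q} {t : El Q} {x y : El P}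
    (h : ∀ S (j : Q ⟶ S), (Force φ S fun i => (ρ i).map j) ↔ Eqv (t.map j) (x.map (g ≫ j)))
    (h' : ∀ S (j : Q ⟶ S), (Force ψ S fun i => (ρ i).map j) ↔ Eqv (t.map j) (y.map (g ≫ j))) :
    Force (φ.or ψ) Q ρ ↔ Mem t ((upair x y).map g) := by
  refine ⟨fun e => Mem.reg fun S j => ?_, fun e => Force.reg fun S j => ?_⟩
  · obtain ⟨T, k, a⟩ := (e.map j).or_elim
    simp only [El.map_map, h, h'] at a ⊢
    exact ⟨T, k, a.elim mem_upair_l mem_upair_r⟩
  · obtain ⟨T, k, a⟩ := mem_upair_ex (e.map' j)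
    simp only [El.map_map, Category.assoc, ← h, ← h'] at a
    exact ⟨T, k, a.elim Force.inl Force.inr⟩

/-- `p` is the ordered pair of `x` and `y` -/
def fOP (p x y : ℕ) : Fml := ((mem 0 (p + 1)).iff ((((mem 0 1).iff (eq 0 (x + 2))).all).or
  ((mem 0 1).iff ((eq 0 (x + 2)).or (eq 0 (y + 2)))).all)).all

/-- the pair of `x` and `y` lies in `f` -/
def fApp (f x y : ℕ) : Fml := ((mem 0 (f + 1)).and (fOP 0 (x + 1) (y + 1))).ex

/-- `f` is a function from `X` to `Y` -/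
def fFun (f X Y : ℕ) : Fml :=
  ((mem 0 (f + 1)).imp ((mem 1 (X + 3)).and ((mem 0 (Y + 3)).and (fOP 2 1 0))).ex.ex).all.and
    ((mem 0 (X + 1)).imp ((fApp (f + 2) 1 0).and ((fApp (f + 3) 2 0).imp (eq 0 1)).all).ex).all

section sat

variable {M : Type} {E : M → M → Prop} {v : ℕ → M}

theorem sat_op {p x y : ℕ} : Sat E (fOP p x y) v ↔ IsOP E (v p) (v x) (v y) := by
  simp only [fOP, Sat, sat_iff, sat_or]
  rfl

theorem sat_app {f x y : ℕ} : Sat E (fApp f x y) v ↔ App E (v f) (v x) (v y) := by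
  simp only [fApp, Sat, sat_ex, sat_and, sat_op]
  rfl

theorem sat_fun {f X Y : ℕ} : Sat E (fFun f X Y) v ↔ IsFun E (v f) (v X) (v Y) := by
  simp only [fFun, Sat, sat_ex, sat_and, sat_op, sat_app]
  rfl

end sat

theorem force_op {p x y : ℕ} {ρ : ℕ → El Q} :
    Force (fOP p x y) Q ρ ↔ Eqv (ρ p) (op (ρ x) (ρ y)) := by
  refine force_desc_iff fun S j t => force_or_mem (fun T k => ?_) fun T k => ?_
  · refine force_desc_iff (a := 0) fun U l s => ?_
    simp only [Force, cons, El.map_map]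
    exact ⟨mem_upair_l, eqv_of_sing⟩
  · refine force_desc_iff (a := 0) fun U l s => ?_
    rw [El.map_map]
    refine force_or_mem (fun V m => ?_) fun V m => ?_ <;> simp [Force, cons]

theorem force_app {f x y : ℕ} {ρ : ℕ → El Q} :
    Force (fApp f x y) Q ρ ↔ Ap (ρ f) (ρ x) (ρ y) := by
  refine ⟨fun h => Mem.reg fun S j => ?_, fun h =>
    Force.exi _ (force_and.2 ⟨h, force_op.2 (Eqv.refl _)⟩)⟩
  obtain ⟨T, k, p, a⟩ := (h.map j).exe
  obtain ⟨a1, a2⟩ := force_and.1 a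
  have a3 := force_op.1 a2
  simp only [Force, cons, El.map_map] at a1 a3
  exact ⟨T, k, a1.congr_left ((op_map (Eqv.refl _) (Eqv.refl _)).trans a3.symm)⟩

theorem force_fun {f X Y : ℕ} {ρ : ℕ → El Q} : Force (fFun f X Y) Q ρ ↔
    (∀ S (j : Q ⟶ S) p, Mem p ((ρ f).map j) → ∃ (T : C) (k : S ⟶ T) (x y : El T),
      Mem x ((ρ X).map (j ≫ k)) ∧ Mem y ((ρ Y).map (j ≫ k)) ∧ Eqv (p.map k) (op x y)) ∧
    ∀ S (j : Q ⟶ S) x, Mem x ((ρ X).map j) → ∃ (T : C) (k : S ⟶ T) (y : El T),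
      Ap ((ρ f).map (j ≫ k)) (x.map k) y ∧ ∀ U (l : T ⟶ U) y',
        Ap ((ρ f).map (j ≫ k ≫ l)) (x.map (k ≫ l)) y' → Eqv y' (y.map l) := by
  refine force_and.trans (and_congr ⟨fun h S j p a => ?_, fun h => force_ball' fun S j p a => ?_⟩
    ⟨fun h S j x a => ?_, fun h => force_ball' fun S j x a => ?_⟩)
  · obtain ⟨T, k, x, b⟩ := (force_ball.1 h S j p a).exe
    obtain ⟨U, l, y, c⟩ := b.exe
    obtain ⟨c1, c⟩ := force_and.1 c
    obtain ⟨c2, c3⟩ := force_and.1 c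
    have c4 := force_op.1 c3
    simp only [Force, cons, El.map_map, Category.assoc] at c1 c2 c4
    exact ⟨U, k ≫ l, x.map l, y, c1, c2, c4⟩
  · obtain ⟨T, k, x, y, b1, b2, b3⟩ := h S j p a
    exact ⟨T, k, Force.exi x (Force.exi y (force_and.2 ⟨b1, force_and.2 ⟨b2, force_op.2 b3⟩⟩))⟩
  · obtain ⟨T, k, y, b⟩ := (force_ball.1 h S j x a).exe
    obtain ⟨b1, b2⟩ := force_and.1 b
    refine ⟨T, k, y, by simpa [cons] using force_app.1 b1, fun U l y' c => ?_⟩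
    exact force_ball.1 b2 U l y' (force_app.2 (by simpa [cons] using c))
  · obtain ⟨T, k, y, b1, b2⟩ := h S j x a
    refine ⟨T, k, Force.exi y (force_and.2 ⟨force_app.2 b1, force_ball.2 fun U l y' c => ?_⟩)⟩
    exact b2 U l y' (by simpa [cons] using force_app.1 c)

/-- a forced injection, given by a relation between names -/
structure IsInj {P : C} (X Y : El P) (L : ∀ S : C, (P ⟶ S) → El S → El S → Prop) : Prop where
  mono : ∀ S g y x T (k : S ⟶ T), L S g y x → L T (g ≫ k) (y.map k) (x.map k)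
  congr : ∀ S g y x y' x', Eqv y y' → Eqv x x' → L S g y x → L S g y' x'
  dense : ∀ S g y, Mem y (Y.map g) → ∃ (T : C) (k : S ⟶ T) (x : El T),
    Mem x (X.map (g ≫ k)) ∧ L T (g ≫ k) (y.map k) x
  func : ∀ S g y x x', L S g y x → L S g y x' → Eqv x x'
  inj : ∀ S g y y' x, L S g y x → L S g y' x → Eqv y y'

theorem pp_of {M : Type} {E : M → M → Prop}
    (H : ∀ φ : Fml, (∀ (Q : C) ρ, Force φ Q ρ) → ∀ v, Sat E φ v)
    (core : ∀ (P : C) (X Y f : El P),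
      (∀ S (j : P ⟶ S) x y y', Mem x (X.map j) → Ap (f.map j) x y → Ap (f.map j) x y' →
        Eqv y y') →
      (∀ S (j : P ⟶ S) y, Mem y (Y.map j) → ∃ (T : C) (k : S ⟶ T) (x : El T),
        Mem x (X.map (j ≫ k)) ∧ Ap (f.map (j ≫ k)) x (y.map k)) →
      ∃ (P' : C) (e : P ⟶ P') (L : _), IsInj (X.map e) (Y.map e) L) : PP E := by
  rintro X Y ⟨f, h1, h2⟩
  have := H (((fFun 0 1 2).and ((mem 0 3).imp (fApp 2 0 1).ex).all).imp ((fFun 0 3 2).and
    ((fApp 3 2 0).imp ((fApp 3 1 0).imp (eq 2 1))).all.all.all).ex) (fun Q ρ P g h => ?_)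
    (cons f (cons X fun _ => Y))
  · simp only [Sat, sat_and, sat_ex, sat_fun, sat_app] at this
    exact this ⟨h1, h2⟩
  refine Force.reg fun P1 g1 => ?_
  obtain ⟨a, a3⟩ := force_and.1 (h.map g1)
  obtain ⟨a1, a2⟩ := force_fun.1 a
  obtain ⟨P', e, L, hL⟩ := core P1 (((ρ 1).map g).map g1) (((ρ 2).map g).map g1)
    (((ρ 0).map g).map g1)
    (fun S j x y y' b1 b2 b3 => Eqv.reg fun T k => by
      obtain ⟨U, l, z, -, c⟩ := a2 T _ _ (b1.map' k)
      have c1 := c U (𝟙 U) (y.map (k ≫ l)) (by simpa using b2.map' (k ≫ l))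
      have c2 := c U (𝟙 U) (y'.map (k ≫ l)) (by simpa using b3.map' (k ≫ l))
      exact ⟨U, l, c1.trans c2.symm⟩)
    (fun S j y b => by
      obtain ⟨T, k, x, c⟩ := (force_ball.1 a3 S j y b).exe
      have c1 : Ap ((((ρ 0).map g).map g1).map (j ≫ k)) x (y.map k) := by
        simpa [cons] using force_app.1 c
      obtain ⟨U, l, x', y', d1, -, d2⟩ := a1 _ _ _ c1
      have d3 := (op_inj ((op_map (Eqv.refl _) (Eqv.refl _)).symm.trans d2)).1
      exact ⟨U, k ≫ l, x.map l, by simpa using d1.congr_left d3, by simpa using c1.map l⟩)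
  refine ⟨P', e, ?_⟩
  simp only [El.map_map, Category.assoc] at hL
  generalize hX : (ρ 1).map (g ≫ g1 ≫ e) = X at hL
  generalize hY : (ρ 2).map (g ≫ g1 ≫ e) = Y at hL
  obtain ⟨J, hJ⟩ : ∃ J : El P', ∀ R j z, Mb z (J.map j) ↔
      ∃ (p : {p : Σ S, Σ a : P' ⟶ S, (Y.map a).Ix × (X.map a).Ix //
        L p.1 p.2.1 (El.val _ p.2.2.1) (El.val _ p.2.2.2)}) (h : p.1.1 ⟶ R), p.1.2.1 ≫ h = j ∧
        (op (El.val _ p.1.2.2.1) (El.val _ p.1.2.2.2)).map h = z :=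
    ⟨El.set P' _ _ _ _, fun R j z => mb_set⟩
  have J0 : ∀ S j y x, Mb y (Y.map j) → Mb x (X.map j) → L S j y x → Ap (J.map j) y x := by
    rintro S j _ _ ⟨q, rfl⟩ ⟨p, rfl⟩ c
    exact Mb.mem ((hJ _ _ _).2 ⟨⟨⟨S, j, q, p⟩, c⟩, 𝟙 S, by simp, El.map_id _⟩)
  have J1 : ∀ S j p, Mem p (J.map j) → ∃ (T : C) (k : S ⟶ T) (y x : El T),
      Mem y (Y.map (j ≫ k)) ∧ Mem x (X.map (j ≫ k)) ∧ L T (j ≫ k) y x ∧
        Eqv (p.map k) (op y x) := by
    intro S j p b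
    obtain ⟨T, k, w, b1, b2⟩ := b.ex'
    obtain ⟨⟨⟨U, a, y, x⟩, c⟩, l, c1, rfl⟩ := (hJ _ _ _).1 b1
    refine ⟨T, k, _, _, ?_, ?_, ?_, b2.trans (op_map (Eqv.refl _) (Eqv.refl _))⟩ <;> rw [← c1]
    exacts [(Mb.map' ⟨y, rfl⟩ l).mem, (Mb.map' ⟨x, rfl⟩ l).mem, hL.mono _ _ _ _ _ l c]
  have J2 : ∀ S j y x, Ap (J.map j) y x → ∃ (T : C) (k : S ⟶ T),
      L T (j ≫ k) (y.map k) (x.map k) := by
    intro S j y x b
    obtain ⟨T, k, y', x', -, -, b1, b2⟩ := J1 S j _ b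
    obtain ⟨c1, c2⟩ := op_inj ((op_map (Eqv.refl _) (Eqv.refl _)).symm.trans b2)
    exact ⟨T, k, hL.congr _ _ _ _ _ _ c1.symm c2.symm b1⟩
  refine Force.exi J (force_and.2 ⟨force_fun.2 ⟨fun S j p b => ?_, fun S j y b => ?_⟩, ?_⟩)
  · obtain ⟨T, k, y, x, b1, b2, -, b3⟩ := J1 S j p b
    refine ⟨T, k, y, x, ?_, ?_, b3⟩
    · simpa [cons, ← hY] using b1
    · simpa [cons, ← hX] using b2
  · have b0 : Mem y (Y.map j) := by simpa [cons, ← hY] using b
    obtain ⟨T, k, x, b1, b2⟩ := hL.dense S j y b0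
    obtain ⟨U, l, x1, p, c1⟩ := b1.ex'
    obtain ⟨V, m, y1, q, c2⟩ := (b0.map' (k ≫ l)).ex'
    have p' := p.map' m
    have c3 := c1.map m
    have c4 := hL.mono _ _ _ _ _ (l ≫ m) b2
    simp only [Category.assoc, El.map_map] at p' q c2 c3 c4
    refine ⟨V, k ≫ l ≫ m, x.map (l ≫ m), ?_, fun W n x' d => Eqv.reg fun W' n' => ?_⟩
    · exact (J0 _ _ _ _ q p' (hL.congr _ _ _ _ _ _ c2 c3 c4)).congr c2.symm c3.symm
    · obtain ⟨W2, n2, d1⟩ := J2 _ _ _ _ (Ap.map' d n')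
      have d2 := hL.mono _ _ _ _ _ (n ≫ n' ≫ n2) c4
      simp only [Category.assoc, El.map_map] at d1 d2 ⊢
      exact ⟨W2, n2, hL.func _ _ _ _ _ d1 d2⟩
  · intro S j y T k y'
    rw [map_cons]
    refine force_ball.2 fun U l x b U' l' b' => Eqv.reg fun V m => ?_
    have b1 := force_app.1 b
    have b2 := force_app.1 b'
    simp only [cons, El.map_map] at b1 b2 ⊢
    obtain ⟨W, n, c1⟩ := J2 _ _ _ _ (Ap.map' b1 (l' ≫ m))
    obtain ⟨W', n', c2⟩ := J2 _ _ _ _ (Ap.map' b2 (m ≫ n))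
    have c3 := hL.mono _ _ _ _ _ n' c1
    simp only [Category.assoc, El.map_map] at c2 c3 ⊢
    exact ⟨W', n ≫ n', hL.inj _ _ _ _ _ c3 c2⟩

theorem not_ac_of {M : Type} {E : M → M → Prop} (x0 : M)
    (H : ∀ φ : Fml, (∀ (Q : C) ρ, Force φ Q ρ) → ∀ v, Sat E φ v)
    (core : ∀ Q : C, ∃ A : El Q, (∀ S (j : Q ⟶ S) z, Mem z (A.map j) →
        ∃ (T : C) (k : S ⟶ T) (t : El T), Mem t (z.map k)) ∧
      ∀ S (j : Q ⟶ S) (c : El S), ¬∀ T (k : S ⟶ T) z, Mem z (A.map (j ≫ k)) →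
        ∃ (U : C) (l : T ⟶ U) (t : El U), Ap (c.map (k ≫ l)) (z.map l) t ∧ Mem t (z.map l) ∧
          ∀ V (m : U ⟶ V) t', Ap (c.map (k ≫ l ≫ m)) (z.map (l ≫ m)) t' → Eqv t' (t.map m)) :
    ¬AC E := by
  intro h
  refine H (((mem 0 1).imp (mem 0 1).ex).all.imp
    ((fFun 1 2 0).and ((fApp 3 1 0).imp (mem 0 1)).all.all).ex.ex).all.neg
    (fun Q ρ S j a => ?_) (fun _ => x0) ?_
  · obtain ⟨A, h1, h2⟩ := core S
    obtain ⟨T, k, c, b⟩ := ((a.inst A).mp (force_ball' fun T k z b => by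
      obtain ⟨U, l, t, b1⟩ := h1 T k z b
      exact ⟨U, l, Force.exi t b1⟩)).exe
    obtain ⟨U, l, W, b⟩ := b.exe
    obtain ⟨b1, b2⟩ := force_and.1 b
    refine h2 U (k ≫ l) (c.map l) fun V m z d => ?_
    obtain ⟨V', m', t, d1, d2⟩ := (force_fun.1 b1).2 V m z (by simpa [cons] using d)
    refine ⟨V', m', t, d1, ?_, d2⟩
    exact ((b2 V' (m ≫ m') (z.map m')).inst t).mp (force_app.2 d1)
  · simp only [Sat, sat_and, sat_ex, sat_fun, sat_app]
    exact h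

end Vale.Agent.P323
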