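import Mathlib

/-! Records on meet-semilattices. -/

namespace Vale.Agent.P323

open Filter

/-- records -/
inductive Rec (α : Type) : Type
  | pair (a k : α)
  | prom (a D : ℕ → α)
  | cup (k : α) (y w : ℕ → α) (l : ℝ)
  | gf (c : ℕ → α) (ξ : ℝ) (d : ℕ → α)

variable {α β γ : Type}

/-- image of a record -/
def Rec.map (f : α → β) : Rec α → Rec β
  | .pair a k => .pair (f a) (f k)
  | .prom a D => .prom (fun n => f (a n)) fun n => f (D n)
  | .cup k y w l => .cup (f k) (fun n => f (y n)) (fun n => f (w n)) l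
  | .gf c ξ d => .gf (fun n => f (c n)) ξ fun n => f (d n)

theorem Rec.map_map (f : α → β) (g : β → γ) (r : Rec α) :
    (r.map f).map g = r.map fun a => g (f a) := by cases r <;> rfl

theorem Rec.map_id (r : Rec α) : r.map (fun a => a) = r := by cases r <;> rfl

/-- an element above the relevant part of a record -/
def Rec.roof : Rec α → α
  | .pair _ k => k
  | .prom a _ => a 0
  | .cup _ _ w _ => w 0
  | .gf c _ _ => c 0

theorem Rec.roof_map (f : α → β) (r : Rec α) : (r.map f).roof = f r.roof := by cases r <;> rfl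

variable [SemilatticeInf α] [SemilatticeInf β] [SemilatticeInf γ]

/-- the sequence `d` is eventually below each term of `c` -/
def Bel (d c : ℕ → α) : Prop := ∀ n, ∃ m, d m ≤ c n

/-- mutually coinitial sequences -/
def Cof (c c' : ℕ → α) : Prop := Bel c c' ∧ Bel c' c

theorem Bel.trans {a b c : ℕ → α} (h : Bel a b) (h' : Bel b c) : Bel a c := fun n => by
  obtain ⟨m, hm⟩ := h' n
  obtain ⟨l, hl⟩ := h m
  exact ⟨l, hl.trans hm⟩

theorem Cof.symm {a b : ℕ → α} (h : Cof a b) : Cof b a := ⟨h.2, h.1⟩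

theorem Cof.trans {a b c : ℕ → α} (h : Cof a b) (h' : Cof b c) : Cof a c :=
  ⟨h.1.trans h'.1, h'.2.trans h.2⟩

theorem Cof.refl (a : ℕ → α) : Cof a a := ⟨fun n => ⟨n, le_rfl⟩, fun n => ⟨n, le_rfl⟩⟩

theorem cof_of_eventually {a b : ℕ → α} (ha : Antitone a) (hb : Antitone b)
    (h : ∀ᶠ n in atTop, a n = b n) : Cof a b := by
  obtain ⟨N, hN⟩ := eventually_atTop.1 h
  refine ⟨fun n => ⟨max n N, ?_⟩, fun n => ⟨max n N, ?_⟩⟩
  · rw [hN _ (le_max_right _ _)]; exact hb (le_max_left _ _)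
  · rw [← hN _ (le_max_right _ _)]; exact ha (le_max_left _ _)

/-- intrinsic requirements -/
def Good : Rec α → Prop
  | .pair a k => a ≤ k ∧ ¬k ≤ a
  | .prom a _ => Antitone a
  | .cup k y w _ => Antitone y ∧ Antitone w ∧ (∀ n, k ≤ w n) ∧ Bel y w
  | .gf c _ d => Antitone c ∧ Antitone d ∧ Bel d c

/-- the rule imposed by a record on an element -/
def Rule : Rec α → α → Prop
  | .prom a D, J => (∃ n, a n ≤ J) ∨ (∃ i, (∀ n, D i ≤ a n) ∧ ¬D i ≤ J) ∨
      ∃ n i, (∀ m, ¬a m ≤ D i) ∧ J ⊓ a n ≤ D i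
  | .cup k y w _, J => k ≤ J → (∃ n, y n ≤ J) → ∃ m, w m ≤ J
  | _, _ => True

/-- compatibility of two records -/
def Compat : Rec α → Rec α → Prop
  | .pair a k, .prom a' D => (∀ n, k ≤ a' n) → ∃ i, (∀ n, D i ≤ a' n) ∧ ¬D i ≤ a
  | .cup k y _ l, .cup k' y' _ l' => k = k' → Cof y y' → l = l'
  | .gf c ξ d, .gf c' ξ' d' => ξ = ξ' → Cof c c' → ∀ᶠ n in atTop, d n = d' n
  | _, _ => True

/-- embeddings of meet-semilattices -/
structure IsE (f : α → β) : Prop where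
  inj : Function.Injective f
  inf : ∀ a b, f (a ⊓ b) = f a ⊓ f b

theorem IsE.le_iff {f : α → β} (h : IsE f) {a b : α} : f a ≤ f b ↔ a ≤ b := by
  rw [← inf_eq_left, ← h.inf, h.inj.eq_iff, inf_eq_left]

theorem isE_of {f : α → β} (h1 : ∀ a b, f a ≤ f b ↔ a ≤ b)
    (h2 : ∀ a b u, u ≤ f a → u ≤ f b → u ≤ f (a ⊓ b)) : IsE f :=
  ⟨fun a b e => le_antisymm ((h1 a b).1 e.le) ((h1 b a).1 e.ge), fun a b =>
    le_antisymm (le_inf ((h1 _ _).2 inf_le_left) ((h1 _ _).2 inf_le_right))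
      (h2 a b _ inf_le_left inf_le_right)⟩

theorem IsE.id : IsE fun a : α => a := ⟨fun _ _ h => h, fun _ _ => rfl⟩

theorem IsE.comp {f : α → β} {g : β → γ} (hf : IsE f) (hg : IsE g) : IsE fun a => g (f a) :=
  ⟨fun _ _ h => hf.inj (hg.inj h), fun a b => by rw [hf.inf, hg.inf]⟩

theorem IsE.anti {f : α → β} (h : IsE f) {a : ℕ → α} : Antitone (fun n => f (a n)) ↔ Antitone a :=
  ⟨fun H _ _ e => h.le_iff.1 (H e), fun H _ _ e => h.le_iff.2 (H e)⟩

theorem IsE.bel {f : α → β} (h : IsE f) {a b : ℕ → α} :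
    Bel (fun n => f (a n)) (fun n => f (b n)) ↔ Bel a b := by
  simp only [Bel, h.le_iff]

theorem IsE.cof {f : α → β} (h : IsE f) {a b : ℕ → α} :
    Cof (fun n => f (a n)) (fun n => f (b n)) ↔ Cof a b := by
  simp only [Cof, h.bel]

theorem IsE.good {f : α → β} (h : IsE f) {r : Rec α} : Good (r.map f) ↔ Good r := by
  cases r <;> simp only [Rec.map, Good, h.le_iff, h.anti, h.bel]

theorem IsE.rule {f : α → β} (h : IsE f) {r : Rec α} {J : α} : Rule (r.map f) (f J) ↔ Rule r J := by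
  cases r <;> simp only [Rec.map, Rule, h.le_iff, ← h.inf]

theorem IsE.compat {f : α → β} (h : IsE f) {r r' : Rec α} :
    Compat (r.map f) (r'.map f) ↔ Compat r r' := by
  cases r <;> cases r' <;> simp only [Rec.map, Compat, h.le_iff, h.cof, h.inj.eq_iff]

theorem rule_of_roof {r : Rec α} {J : α} (h : r.roof ≤ J) : Rule r J := by
  cases r with
  | prom a D => exact Or.inl ⟨0, h⟩
  | cup k y w l => exact fun _ _ => ⟨0, h⟩
  | pair => trivial
  | gf => trivial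

theorem rule_congr {r : Rec α} (hg : Good r) {J J' : α}
    (h : ∀ s, s ≤ r.roof → (s ≤ J ↔ s ≤ J')) (H : Rule r J') : Rule r J := by
  cases r with
  | prom a D =>
    have ha : ∀ n, a n ≤ a 0 := fun n => hg (Nat.zero_le n)
    rcases H with ⟨n, hn⟩ | ⟨i, h1, h2⟩ | ⟨n, i, h1, h2⟩
    · exact Or.inl ⟨n, (h _ (ha n)).2 hn⟩
    · exact Or.inr (Or.inl ⟨i, h1, fun e => h2 ((h _ (h1 0)).1 e)⟩)
    · refine Or.inr (Or.inr ⟨n, i, h1, le_trans (le_inf ?_ inf_le_right) h2⟩)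
      exact (h _ (inf_le_right.trans (ha n))).1 inf_le_left
  | cup k y w l =>
    obtain ⟨hy, hw, hk, hb⟩ := hg
    rintro h1 ⟨n, hn⟩
    obtain ⟨m, hm⟩ := hb 0
    obtain ⟨p, hp⟩ := H ((h _ (hk 0)).1 h1) ⟨max n m,
      (h _ ((hy (le_max_right _ _)).trans hm)).1 ((hy (le_max_left _ _)).trans hn)⟩
    exact ⟨p, (h _ (hw (Nat.zero_le p))).2 hp⟩
  | pair => trivial
  | gf => trivial

theorem rule_transfer {f : α → β} {g : α → γ} (hf : IsE f) (hg : IsE g) {J : β} {J' : γ}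
    (h1 : ∀ t, g t ≤ J' ↔ f t ≤ J) (h2 : ∀ t t', J ⊓ f t ≤ f t' → J' ⊓ g t ≤ g t') {r : Rec α}
    (H : Rule (r.map f) J) : Rule (r.map g) J' := by
  cases r with
  | prom a D =>
    simp only [Rec.map, Rule, hf.le_iff, hg.le_iff, h1] at H ⊢
    rcases H with H | H | ⟨n, i, a1, a2⟩
    · exact Or.inl H
    · exact Or.inr (Or.inl H)
    · exact Or.inr (Or.inr ⟨n, i, a1, h2 _ _ a2⟩)
  | cup k y w l => simpa only [Rec.map, Rule, h1] using H
  | pair => trivial
  | gf => trivial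

section loc

variable {ι : α → γ} {ψ : β → γ} {φ : β → α} (hι : IsE ι) (hψ : IsE ψ) (hφ : IsE φ)

include hι hψ hφ

theorem cof_loc {s : α} (h : ∀ t, ψ t ≤ ι s → ψ t = ι (φ t)) {y : ℕ → α} {y' : ℕ → β}
    (hy' : Antitone y') (hs : ∃ n, y n ≤ s) (hc : Cof (fun n => ι (y n)) fun n => ψ (y' n)) :
    Cof y (fun n => φ (y' n)) ∧ ∃ m, ψ (y' m) ≤ ι s := by
  obtain ⟨n0, hn0⟩ := hs
  obtain ⟨m0, hm0⟩ := hc.2 n0
  have a0 : ψ (y' m0) ≤ ι s := hm0.trans (hι.le_iff.2 hn0)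
  have a1 : ∀ m, ψ (y' (max m m0)) = ι (φ (y' (max m m0))) := fun m =>
    h _ ((hψ.le_iff.2 (hy' (le_max_right _ _))).trans a0)
  refine ⟨⟨fun n => ?_, fun n => ?_⟩, m0, a0⟩
  · obtain ⟨m, hm⟩ := hc.1 (max n m0)
    refine ⟨m, le_trans ?_ (hφ.le_iff.2 (hy' (le_max_left n m0)))⟩
    rw [← hι.le_iff, ← a1]
    exact hm
  · obtain ⟨m, hm⟩ := hc.2 n
    refine ⟨max m m0, ?_⟩
    rw [← hι.le_iff, ← a1]
    exact (hψ.le_iff.2 (hy' (le_max_left _ _))).trans hm

omit [SemilatticeInf α] hι hφ in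
theorem tail_loc {s : α} (h : ∀ t, ψ t ≤ ι s → ψ t = ι (φ t)) {c d : ℕ → β} (hd : Antitone d)
    (hb : Bel d c) (hm : ∃ m, ψ (c m) ≤ ι s) : ∀ᶠ n in atTop, ψ (d n) = ι (φ (d n)) := by
  obtain ⟨m, hm⟩ := hm
  obtain ⟨p, hp⟩ := hb m
  exact eventually_atTop.2 ⟨p, fun n hn => h _ ((hψ.le_iff.2 ((hd hn).trans hp)).trans hm)⟩

theorem compat_loc1 {r : Rec α} {r' : Rec β} (hr : Good r) (hr' : Good r')
    (h : ∀ t, ψ t ≤ ι r.roof → ψ t = ι (φ t)) (H : Compat (r'.map φ) r) :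
    Compat (r'.map ψ) (r.map ι) := by
  cases r with
  | pair => cases r' <;> trivial
  | prom a D =>
    cases r' with
    | pair a' k' =>
      intro hk
      have e1 := h k' (hk 0)
      have e2 := h a' ((hψ.le_iff.2 hr'.1).trans (hk 0))
      simp only [e1, e2, hι.le_iff] at hk ⊢
      exact H hk
    | _ => trivial
  | cup k y w l =>
    cases r' with
    | cup k' y' w' l' =>
      intro hk hc
      obtain ⟨hy, hw, hkw, hb⟩ := hr
      have e1 := h k' (hk.trans_le (hι.le_iff.2 (hkw 0)))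
      exact H (hι.inj (e1.symm.trans hk)) (cof_loc hι hψ hφ h hr'.1 (hb 0) hc.symm).1.symm
    | _ => trivial
  | gf c ξ d =>
    cases r' with
    | gf c' ξ' d' =>
      intro hξ hc
      obtain ⟨a1, a2⟩ := cof_loc hι hψ hφ h hr'.1 ⟨0, le_rfl⟩ hc.symm
      filter_upwards [H hξ a1.symm, tail_loc hψ h hr'.2.1 hr'.2.2 a2] with n e1 e2
      rw [e2, e1]
    | _ => trivial

theorem compat_loc2 {r : Rec α} {r' : Rec β} (hr : Good r) (hr' : Good r')
    (h : ∀ t, ψ t ≤ ι r.roof → ψ t = ι (φ t))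
    (hK : (∃ a k, r = .pair a k) → ∀ t, ι r.roof ≤ ψ t → r.roof ≤ φ t)
    (H : Compat r (r'.map φ)) : Compat (r.map ι) (r'.map ψ) := by
  cases r with
  | prom => cases r' <;> trivial
  | pair a k =>
    cases r' with
    | prom a' D =>
      intro hk
      obtain ⟨i, h1, h2⟩ := H fun n => hK ⟨a, k, rfl⟩ _ (hk n)
      refine ⟨i, fun n => hψ.le_iff.2 (hφ.le_iff.1 (h1 n)), fun e => h2 ?_⟩
      exact hι.le_iff.1 ((h (D i) (e.trans (hι.le_iff.2 hr.1))).ge.trans e)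
    | _ => trivial
  | cup k y w l =>
    cases r' with
    | cup k' y' w' l' =>
      intro hk hc
      obtain ⟨hy, hw, hkw, hb⟩ := hr
      have e1 := h k' (hk.symm.trans_le (hι.le_iff.2 (hkw 0)))
      exact H (hι.inj (hk.trans e1)) (cof_loc hι hψ hφ h hr'.1 (hb 0) hc).1
    | _ => trivial
  | gf c ξ d =>
    cases r' with
    | gf c' ξ' d' =>
      intro hξ hc
      obtain ⟨a1, a2⟩ := cof_loc hι hψ hφ h hr'.1 ⟨0, le_rfl⟩ hc
      filter_upwards [H hξ a1, tail_loc hψ h hr'.2.1 hr'.2.2 a2] with n e1 e2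
      rw [e2, e1]
    | _ => trivial

end loc

theorem exists_quot {X : Type} (le : X → X → Prop) (hr : ∀ x, le x x)
    (ht : ∀ x y z, le x y → le y z → le x z)
    (hg : ∀ x y, ∃ z, ∀ u, le u z ↔ le u x ∧ le u y) :
    ∃ (W : Type) (_ : SemilatticeInf W) (π : X → W), Function.Surjective π ∧
      ∀ x y, π x ≤ π y ↔ le x y := by
  let _ : Preorder X := { le := le, le_refl := hr, le_trans := ht }
  let W := Antisymmetrization X (· ≤ ·)
  let π : X → W := toAntisymmetrization (· ≤ ·)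
  have hπ : Function.Surjective π := Quotient.mk_surjective
  have hle : ∀ x y, π x ≤ π y ↔ le x y := fun x y => toAntisymmetrization_le_toAntisymmetrization_iff
  have : ∀ a b : W, ∃ c : W, ∀ u, u ≤ c ↔ u ≤ a ∧ u ≤ b := by
    intro a b
    obtain ⟨x, rfl⟩ := hπ a
    obtain ⟨y, rfl⟩ := hπ b
    obtain ⟨z, hz⟩ := hg x y
    refine ⟨π z, fun u => ?_⟩
    obtain ⟨u, rfl⟩ := hπ u
    simp only [hle, hz]
  choose m hm using this
  exact ⟨W,
    { (inferInstance : PartialOrder W) with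
      inf := m
      inf_le_left := fun a b => ((hm a b _).1 le_rfl).1
      inf_le_right := fun a b => ((hm a b _).1 le_rfl).2
      le_inf := fun u a b h1 h2 => (hm a b u).2 ⟨h1, h2⟩ }, π, hπ, hle⟩

end Vale.Agent.P323
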