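import Vale.Agent.P323.Logic

/-! The axioms of ZF are forced. -/

namespace Vale.Agent.P323

open CategoryTheory El

variable {C : Type 1} [Category.{0} C]

theorem exists_name (Q : C) (A : ∀ R : C, (Q ⟶ R) → El R → Prop)
    (hs : ∀ R j, Small.{1} {z // A R j z})
    (hm : ∀ R j z S (h : R ⟶ S), A R j z → A S (j ≫ h) (z.map h)) :
    ∃ w : El Q, ∀ R j z, Mb z (w.map j) ↔ A R j z := by
  refine ⟨El.set Q (Σ R, Σ j : Q ⟶ R, Shrink.{1} {z // A R j z}) (fun p => p.1) (fun p => p.2.1)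
    fun p => ((equivShrink _).symm p.2.2).1, fun R j z => mb_set.trans ⟨?_, fun h => ?_⟩⟩
  · rintro ⟨⟨S, a, p⟩, h, rfl, rfl⟩
    exact hm _ _ _ _ _ ((equivShrink _).symm p).2
  · exact ⟨⟨R, j, equivShrink _ ⟨z, h⟩⟩, 𝟙 R, by simp, by simp⟩

theorem small_rng {Q : C} {A : El Q → Prop} {ι : Type 1} (f : ι → El Q)
    (e : ∀ z, A z → ∃ i, f i = z) : Small.{1} {z // A z} := by
  choose g hg using e
  exact small_of_injective (f := fun z : {z // A z} => g z.1 z.2) fun a b h =>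
    Subtype.ext (by rw [← hg a.1 a.2, ← hg b.1 b.2]; exact congrArg f h)

theorem El.Mb.map' {Q S T : C} {x : El Q} {j : Q ⟶ S} {z : El S} (h : Mb z (x.map j))
    (k : S ⟶ T) : Mb (z.map k) (x.map (j ≫ k)) := by simpa using h.map k

theorem El.Mem.map' {Q S T : C} {x : El Q} {j : Q ⟶ S} {z : El S} (h : Mem z (x.map j))
    (k : S ⟶ T) : Mem (z.map k) (x.map (j ≫ k)) := by simpa using h.map k

theorem El.Mem.ex' {Q S : C} {x : El Q} {j : Q ⟶ S} {z : El S} (h : Mem z (x.map j)) :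
    ∃ (T : C) (k : S ⟶ T) (w : El T), Mb w (x.map (j ≫ k)) ∧ Eqv (z.map k) w := by
  simpa using h.ex

theorem Force.map' {φ : Fml} {Q S T : C} {ρ : ℕ → El Q} {j : Q ⟶ S} {x : El S}
    (h : Force φ S (cons x fun i => (ρ i).map j)) (k : S ⟶ T) :
    Force φ T (cons (x.map k) fun i => (ρ i).map (j ≫ k)) := by
  have := h.map k
  rw [map_cons] at this
  simpa using this

theorem Force.reg' {φ : Fml} {Q S : C} {ρ : ℕ → El Q} {j : Q ⟶ S} {x : El S}
    (h : ∀ T (k : S ⟶ T), ∃ (U : C) (l : T ⟶ U),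
      Force φ U (cons (x.map (k ≫ l)) fun i => (ρ i).map (j ≫ k ≫ l))) :
    Force φ S (cons x fun i => (ρ i).map j) := Force.reg fun T k => by
  obtain ⟨U, l, a⟩ := h T k
  refine ⟨U, l, ?_⟩
  rw [map_cons]
  simpa using a

theorem Force.congr0 {φ : Fml} {Q : C} {ρ : ℕ → El Q} {x y : El Q} (h : Force φ Q (cons x ρ))
    (e : Eqv x y) : Force φ Q (cons y ρ) :=
  Force.congr (fun i => by cases i; exacts [e, Eqv.refl _]) h

/-- a set described by a formula -/
theorem force_desc {ψ : Fml} {Q : C} {ρ : ℕ → El Q} {a : ℕ}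
    (h1 : ∀ S (j : Q ⟶ S) z, Mb z ((ρ a).map j) → Force ψ S (cons z fun i => (ρ i).map j))
    (h2 : ∀ S (j : Q ⟶ S) z, Force ψ S (cons z fun i => (ρ i).map j) →
      ∃ (T : C) (k : S ⟶ T), Mem (z.map k) ((ρ a).map (j ≫ k))) :
    Force ((Fml.mem 0 (a + 1)).iff ψ).all Q ρ := by
  refine force_biff.2 fun S j z => ⟨fun h => Force.reg' fun T k => ?_, fun h => ?_⟩
  · obtain ⟨U, l, w, a1, a2⟩ := (Mem.map' h k).ex'
    exact ⟨U, l, by simpa [cons] using (h1 _ _ _ a1).congr0 a2.symm⟩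
  · refine Mem.reg fun T k => ?_
    obtain ⟨U, l, a1⟩ := h2 _ _ _ (h.map' k)
    exact ⟨U, l, by simpa [cons] using a1⟩

theorem not_mem_self {Q : C} (x : El Q) : ¬Mem x x := by
  induction Q, x using El.ind with
  | _ Q x ih =>
    intro h
    obtain ⟨T, k, w, a1, a2⟩ := h.ex
    exact ih T k w a1 (a1.mem.congr_right a2)

theorem exists_ord {α : Type} (r : α → α → Prop) [IsWellOrder α r] (Q : C) :
    ∃ nm : α → El Q, (∀ ξ S (j : Q ⟶ S) z, Mb z ((nm ξ).map j) ↔ ∃ η, r η ξ ∧ z = (nm η).map j) ∧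
      ∀ ξ η S (j : Q ⟶ S), Eqv ((nm ξ).map j) ((nm η).map j) → ξ = η := by
  let nm : α → El Q := (IsWellFounded.wf (r := r)).fix fun ξ ih =>
    El.set Q (ULift {η // r η ξ}) (fun _ => Q) (fun _ => 𝟙 Q) fun η => ih η.down.1 η.down.2
  have h : ∀ ξ S (j : Q ⟶ S) z, Mb z ((nm ξ).map j) ↔ ∃ η, r η ξ ∧ z = (nm η).map j := by
    intro ξ S j z
    have : nm ξ = El.set Q (ULift {η // r η ξ}) (fun _ => Q) (fun _ => 𝟙 Q)
        fun η => nm η.down.1 := WellFounded.fix_eq _ _ _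
    rw [this, mb_set]
    simp only [Category.id_comp]
    exact ⟨fun ⟨i, _, e1, e2⟩ => ⟨i.down.1, i.down.2, e1 ▸ e2.symm⟩,
      fun ⟨η, e1, e2⟩ => ⟨⟨η, e1⟩, j, rfl, e2.symm⟩⟩
  refine ⟨nm, h, fun ξ η S j e => ?_⟩
  rcases trichotomous_of r ξ η with a | a | a
  · exact (not_mem_self _ (((h η S j _).2 ⟨ξ, a, rfl⟩).mem.congr_right e.symm)).elim
  · exact a
  · exact (not_mem_self _ (((h ξ S j _).2 ⟨η, a, rfl⟩).mem.congr_right e)).elim

theorem found_aux {S : C} (y : El S) : ∀ x : El S, Mem y x → ∃ (T : C) (k : S ⟶ T) (y' : El T),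
    Mem y' (x.map k) ∧ ∀ U (l : T ⟶ U) z, Mem z (y'.map l) → ¬Mem z (x.map (k ≫ l)) := by
  induction S, y using El.ind with
  | _ S y ih =>
    intro x h
    by_cases H : ∃ (U : C) (l : S ⟶ U) (z : El U), Mem z (y.map l) ∧ Mem z (x.map l)
    · obtain ⟨U, l, z, a1, a2⟩ := H
      obtain ⟨T, k, w, a3, a4⟩ := a1.ex'
      obtain ⟨T', k', y', b1, b2⟩ := ih _ _ w a3 _ ((a2.map' k).congr_left a4.symm)
      exact ⟨T', l ≫ k ≫ k', y', by simpa using b1, by simpa using b2⟩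
    · exact ⟨S, 𝟙 S, y, by simpa using h, fun U l z a b => H ⟨U, l, z, a, by simpa using b⟩⟩

/-- names for subsets -/
def subn {R : C} (x : El R) (B : Set (Σ S, Σ k : R ⟶ S, (x.map k).Ix)) : El R :=
  El.set R B (fun b => b.1.1) (fun b => b.1.2.1) fun b => (x.map b.1.2.1).val b.1.2.2

theorem subn_sub {R S : C} {x : El R} {B : Set (Σ S, Σ k : R ⟶ S, (x.map k).Ix)} {j : R ⟶ S}
    {t : El S} (h : Mb t ((subn x B).map j)) : Mb t (x.map j) := by
  obtain ⟨⟨⟨T, k, p⟩, _⟩, g, rfl, rfl⟩ := mb_set.1 h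
  exact Mb.map' ⟨p, rfl⟩ g

theorem exists_subn {R : C} {x z : El R}
    (h : ∀ S (k : R ⟶ S) t, Mem t (z.map k) → Mem t (x.map k)) : ∃ B, Eqv z (subn x B) := by
  refine ⟨{b | Mem ((x.map b.2.1).val b.2.2) (z.map b.2.1)}, Eqv.ext (fun S j t ht => ?_)
    fun S j t ht => ?_⟩
  · intro T k
    obtain ⟨U, l, _, ⟨p, rfl⟩, a⟩ := ((h S j t ht.mem).map' k).ex'
    refine ⟨U, l, _, ?_, by simpa using a⟩
    rw [El.map_map]
    refine mb_set.2 ⟨⟨⟨U, _, p⟩, ?_⟩, 𝟙 U, by simp, by simp⟩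
    exact ((ht.mem.map' k).map' l).congr_left a.symm
  · obtain ⟨⟨⟨T, k, p⟩, hb⟩, h, rfl, rfl⟩ := mb_set.1 ht
    exact Mem.map' hb h

open Fml

theorem isZF_of {M : Type} {E : M → M → Prop} (x0 : M)
    (H : ∀ φ : Fml, (∀ (Q : C) ρ, Force φ Q ρ) → ∀ v, Sat E φ v) : IsZF E := by
  have sep : ∀ (φ : Fml) (v : ℕ → M) (a : M), ∃ s, ∀ x, E x s ↔ E x a ∧ Sat E φ (cons x v) := by
    intro φ v a
    have := H ((mem 0 1).iff ((mem 0 2).and (φ.ren (cons 0 fun n => n + 3)))).all.ex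
      (fun Q ρ => ?_) (cons a v)
    · simp only [sat_ex, sat_iff, sat_and, Sat, sat_ren] at this
      obtain ⟨s, hs⟩ := this
      refine ⟨s, fun x => (hs x).trans (and_congr_right fun _ => iff_of_eq ?_)⟩
      congr 1
      funext n; cases n <;> rfl
    have key : ∀ {S : C} (j : Q ⟶ S) (z : El S) (w : El Q),
        Force (φ.ren (cons 0 fun n => n + 3)) S (cons z fun i => (cons w ρ i).map j) ↔
          Force φ S (cons z fun i => (ρ (i + 1)).map j) := fun j z w => by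
      rw [force_ren]
      refine iff_of_eq ?_
      congr 1
      funext n; cases n <;> rfl
    obtain ⟨w, hw⟩ := exists_name Q
      (fun R j z => Mb z ((ρ 0).map j) ∧ Force φ R (cons z fun i => (ρ (i + 1)).map j))
      (fun R j => small_rng _ fun _ h => h.1)
      fun R j z S h a => ⟨a.1.map' h, a.2.map' h⟩
    refine Force.exi w (force_desc (a := 0) (fun S j z h => ?_) fun S j z h => ?_)
    · obtain ⟨a1, a2⟩ := (hw _ _ _).1 h
      exact force_and.2 ⟨a1.mem, (key j z w).2 a2⟩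
    · obtain ⟨a1, a2⟩ := force_and.1 h
      obtain ⟨T, k, u, b1, b2⟩ := Mem.ex' a1
      exact ⟨T, k, ((hw _ _ _).2 ⟨b1, (((key j z w).1 a2).map' k).congr0 b2⟩).mem.congr_left b2⟩
  refine ⟨fun x y h => ?_, fun x h => ?_, fun x y => ?_, fun x => ?_, fun x => ?_, ?_, sep,
    fun φ v a h => ?_⟩
  · refine H (imp ((mem 0 1).iff (mem 0 2)).all (eq 0 1)) (fun Q ρ S j h => ?_)
      (cons x fun _ => y) fun z => sat_iff.2 (h z)
    exact Eqv.ext (fun T k z a => (force_biff.1 h T k z).1 a.mem)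
      fun T k z a => (force_biff.1 h T k z).2 a.mem
  · have := H (imp (mem 0 1).ex ((mem 0 1).and ((mem 0 1).imp (mem 0 2).neg).all).ex)
      (fun Q ρ S j h => Force.reg fun T k => ?_) (fun _ => x) (sat_ex.2 h)
    · simp only [sat_ex, sat_and, Sat, sat_neg] at this
      exact this
    obtain ⟨U, l, y, a⟩ := (h.map k).exe
    obtain ⟨V, m, y', b1, b2⟩ := found_aux y _ a
    refine ⟨V, l ≫ m, Force.exi y' (force_and.2 ⟨by simpa [Force, cons] using b1,
      force_ball.2 fun W n z c W' n' d => ?_⟩)⟩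
    exact b2 W' (n ≫ n') (z.map n') (Mem.map' c n') (by simpa [Force, cons] using d)
  · have := H ((mem 0 1).iff ((eq 0 2).or (eq 0 3))).all.ex (fun Q ρ => ?_) (cons x fun _ => y)
    · simp only [sat_ex, sat_iff, sat_or, Sat] at this
      exact this
    obtain ⟨w, hw⟩ := exists_name Q (fun R j z => z = (ρ 0).map j ∨ z = (ρ 1).map j)
      (fun R j => small_pair _ _) fun R j z S h a => by
        rcases a with rfl | rfl <;> simp
    refine Force.exi w (force_desc (a := 0) (fun S j z h => ?_) fun S j z h => ?_)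
    · rcases (hw _ _ _).1 h with rfl | rfl
      exacts [Force.inl (Eqv.refl _), Force.inr (Eqv.refl _)]
    · obtain ⟨T, k, a | a⟩ := h.or_elim
      · exact ⟨T, k, ((hw _ _ _).2 (Or.inl (El.map_map _ _ _))).mem.congr_left a⟩
      · exact ⟨T, k, ((hw _ _ _).2 (Or.inr (El.map_map _ _ _))).mem.congr_left a⟩
  · have := H ((mem 0 1).iff ((mem 0 3).and (mem 1 0)).ex).all.ex (fun Q ρ => ?_) fun _ => x
    · simp only [sat_ex, sat_iff, sat_and, Sat] at this
      exact this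
    obtain ⟨w, hw⟩ := exists_name Q (fun R j z => ∃ y, Mb y ((ρ 0).map j) ∧ Mb z y)
      (fun R j => small_rng
        (fun p : Σ p : ((ρ 0).map j).Ix, (((ρ 0).map j).val p).Ix => El.val _ p.2)
        (by rintro _ ⟨_, ⟨p, rfl⟩, q, rfl⟩; exact ⟨⟨p, q⟩, rfl⟩))
      fun R j z S h ⟨y, a1, a2⟩ => ⟨y.map h, a1.map' h, a2.map h⟩
    refine Force.exi w (force_desc (a := 0) (fun S j z h => ?_) fun S j z h => ?_)
    · obtain ⟨y, a1, a2⟩ := (hw _ _ _).1 h
      exact Force.exi y (force_and.2 ⟨a1.mem, a2.mem⟩)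
    · obtain ⟨T, k, y, a⟩ := h.exe
      obtain ⟨a1, a2⟩ := force_and.1 a
      obtain ⟨U, l, y', b1, b2⟩ := Mem.ex a1
      obtain ⟨V, m, z', c1, c2⟩ := ((Mem.map a2 l).congr_right b2).ex
      refine ⟨V, k ≫ l ≫ m, ((hw _ _ _).2 ⟨_, ?_, c1⟩).mem.congr_left ?_⟩
      · simpa [cons] using b1.map m
      · simpa [cons] using c2
  · have := H ((mem 0 1).iff ((mem 0 1).imp (mem 0 3)).all).all.ex (fun Q ρ => ?_) fun _ => x
    · simp only [sat_ex, sat_iff, Sat] at this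
      exact this
    obtain ⟨w, hw⟩ : ∃ w : El Q, ∀ R j z, Mb z (w.map j) ↔
        ∃ (p : Σ R, Σ a : Q ⟶ R, Set (Σ S, Σ k : R ⟶ S, (((ρ 0).map a).map k).Ix))
          (h : p.1 ⟶ R), p.2.1 ≫ h = j ∧ (subn _ p.2.2).map h = z :=
      ⟨El.set Q _ _ _ _, fun R j z => mb_set⟩
    refine Force.exi w (force_desc (a := 0) (fun S j z h => ?_) fun S j z h => ?_)
    · obtain ⟨⟨R, a, B⟩, h, rfl, rfl⟩ := (hw _ _ _).1 h
      refine force_ball.2 fun T k t c => Mem.reg fun U l => ?_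
      obtain ⟨V, m, u, d1, d2⟩ := (Mem.map c l).ex
      simp only [cons, El.map_map] at d1 d2 ⊢
      exact ⟨V, m, by simpa using (subn_sub d1).mem.congr_left d2⟩
    · obtain ⟨B, hB⟩ := exists_subn (x := (ρ 0).map j) (z := z) (force_ball.1 h)
      exact ⟨S, 𝟙 S, by
        simpa [cons] using ((hw S j _).2 ⟨⟨S, j, B⟩, 𝟙 S, by simp, by simp⟩).mem.congr_left hB⟩
  · have := H (((mem 0 1).and (mem 0 1).neg.all).ex.and ((mem 0 1).imp ((mem 0 2).and
      ((mem 0 1).iff ((mem 0 2).or (eq 0 2))).all).ex).all).ex (fun Q ρ => ?_) fun _ => x0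
    · simp only [sat_ex, sat_iff, sat_and, sat_or, sat_neg, Sat] at this
      exact this
    obtain ⟨nm, h1, -⟩ := exists_ord (fun a b : ℕ => a < b) Q
    obtain ⟨w, hw⟩ := exists_name Q (fun R j z => ∃ n, (nm n).map j = z)
      (fun R j => small_rng (fun n : ULift ℕ => (nm n.down).map j) fun _ ⟨n, h⟩ => ⟨⟨n⟩, h⟩)
      (by rintro R j _ S h ⟨n, rfl⟩; exact ⟨n, by simp⟩)
    refine Force.exi w (force_and.2 ⟨Force.exi (nm 0) (force_and.2 ⟨?_, ?_⟩),
      force_ball' fun S j x a => ?_⟩)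
    · simpa [Force, cons] using ((hw Q (𝟙 Q) _).2 ⟨0, rfl⟩).mem
    · intro S j t T k a
      obtain ⟨U, l, u, b, -⟩ := Mem.ex a
      simp only [cons, El.map_map] at b
      obtain ⟨n, hn, -⟩ := (h1 _ _ _ _).1 b
      omega
    · obtain ⟨T, k, _, b1, b2⟩ := Mem.ex' a
      obtain ⟨n, rfl⟩ := (hw _ _ _).1 b1
      refine ⟨T, k, Force.exi ((nm (n + 1)).map (j ≫ k)) (force_and.2
        ⟨((hw _ _ _).2 ⟨_, rfl⟩).mem, force_desc (a := 0) (fun U l z c => ?_) fun U l z c => ?_⟩)⟩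
      · simp only [cons, El.map_map] at c
        have b3 := (b2.map l).symm
        obtain ⟨m, hm, rfl⟩ := (h1 _ _ _ _).1 c
        rcases Nat.lt_succ_iff_lt_or_eq.1 hm with hm | rfl
        · exact Force.inl
            (Mem.congr_right (by simpa [cons] using ((h1 n _ _ _).2 ⟨m, hm, rfl⟩).mem) b3)
        · exact Force.inr (by simpa [Force, cons] using b3)
      · obtain ⟨V, m, d | d⟩ := c.or_elim
        · obtain ⟨W, p, u, e1, e2⟩ := (Mem.congr_right d ((b2.map l).map m)).ex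
          simp only [cons, El.map_map] at e1 e2 ⊢
          obtain ⟨q, hq, rfl⟩ := (h1 _ _ _ _).1 e1
          refine ⟨W, m ≫ p, Mem.congr_left ?_ e2⟩
          simpa using ((h1 (n + 1) _ _ _).2 ⟨q, by omega, rfl⟩).mem
        · refine ⟨V, m, Mem.congr_left ?_ (Eqv.trans d ((b2.map l).map m))⟩
          simpa [cons] using ((h1 (n + 1) _ _ _).2 ⟨n, by omega, rfl⟩).mem
  · have := H ((mem 0 2).imp ((φ.ren (cons 0 (cons 1 fun n => n + 4))).imp
      ((mem 0 3).and (φ.ren (cons 0 (cons 2 fun n => n + 5)))).ex).all).all.ex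
      (fun Q ρ => ?_) (cons a v)
    · simp only [sat_ex, sat_and, Sat, sat_ren] at this
      obtain ⟨b, hb⟩ := this
      obtain ⟨s, hs⟩ := sep ((mem 0 2).and (φ.ren (cons 1 (cons 0 fun n => n + 3)))).ex
        (cons a v) b
      simp only [sat_ex, sat_and, Sat, sat_ren] at hs
      have q1 : ∀ y x, (fun n => cons x (cons y (cons a v)) (cons 1 (cons 0 fun n => n + 3) n)) =
          cons y (cons x v) := fun y x => by
        funext n; rcases n with _ | _ | n <;> rfl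
      have q2 : ∀ y x, (fun n => cons y (cons x (cons b (cons a v)))
          (cons 0 (cons 1 fun n => n + 4) n)) = cons y (cons x v) := fun y x => by
        funext n; rcases n with _ | _ | n <;> rfl
      have q3 : ∀ y y' x, (fun n => cons y (cons y' (cons x (cons b (cons a v))))
          (cons 0 (cons 2 fun n => n + 5) n)) = cons y (cons x v) := fun y y' x => by
        funext n; rcases n with _ | _ | n <;> rfl
      simp only [q1, q2, q3] at hs hb
      refine ⟨s, fun y => (hs y).trans ⟨fun e => e.2, fun ⟨x, e1, e2⟩ => ⟨?_, x, e1, e2⟩⟩⟩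
      obtain ⟨y', e3, e4⟩ := hb x e1 y e2
      exact h x e1 y y' e2 e4 ▸ e3
    let ι := {p : Σ R, Σ j : Q ⟶ R, ((ρ 0).map j).Ix // ∃ (T : C) (k : p.1 ⟶ T) (y : El T),
      Force φ T (cons y (cons ((El.val _ p.2.2).map k) fun i => (ρ (i + 1)).map (p.2.1 ≫ k)))}
    choose T k y hy using fun i : ι => i.2
    refine Force.exi (El.set Q ι T (fun i => i.1.2.1 ≫ k i) y) (force_ball.2 fun S j x a =>
      force_ball' fun S' j' z b => ?_)
    obtain ⟨U, l, _, ⟨p, rfl⟩, c⟩ := (Mem.map' a j').ex'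
    have b1 := (force_ren.1 b).map l
    let i : ι := ⟨⟨U, _, p⟩, U, 𝟙 U, z.map l, Force.congr (fun n => by
      rcases n with _ | _ | n
      · exact Eqv.refl _
      · simpa [cons] using c
      · exact Eqv.of_eq (by simp [cons])) b1⟩
    refine ⟨T i, l ≫ k i, Force.exi (y i) (force_and.2 ⟨?_, force_ren.2 ?_⟩)⟩
    · simp only [Force, cons, El.map_map]
      exact Mb.mem (mb_set.2 ⟨i, 𝟙 _, by simp [i], by simp⟩)
    · refine Force.congr (fun n => ?_) (hy i)
      rcases n with _ | _ | n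
      · exact Eqv.refl _
      · simpa [cons] using (c.map (k i)).symm
      · exact Eqv.of_eq (by simp [cons, i])

end Vale.Agent.P323
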